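import Vale.Agent.P154.Q4.CBound
import Vale.Agent.P154.Q4.Cert.C1
import Vale.Agent.P154.Q4.Cert.C2

/-!
The closure estimate for vectors of mean one.
-/

namespace Vale.Agent.P154.Q4

noncomputable section

open Finset

/-- The entropy identity for the sum over the group. -/
theorem sum_psi_id {a b : V3} (ha : ∀ i, 0 < vecOf a i) (hb : ∀ i, 0 < vecOf b i) :
    ∑ g, psi (pv (vecOf a) (vecOf b) g)
      = 9 * ∑ g, yy (pv (vecOf a) (vecOf b) g) - 144 * (entAvg (vecOf a) + entAvg (vecOf b))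
        + 6 * ∑ g, mass (pv (vecOf a) (vecOf b) g) * Real.log (mass (pv (vecOf a) (vecOf b) g)) := by
  have h4a : ∑ i, vecOf a i = 4 := by
    have := mass_vecOf a
    unfold mass at this
    linarith
  have h4b : ∑ i, vecOf b i = 4 := by
    have := mass_vecOf b
    unfold mass at this
    linarith
  have hent : ∑ g, (∑ i, pv (vecOf a) (vecOf b) g i * Real.log (pv (vecOf a) (vecOf b) g i)) / 4
      = 24 * (entAvg (vecOf a) + entAvg (vecOf b)) := by
    rw [← Finset.sum_div, Finset.sum_comm]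
    have e : ∀ i, ∑ g : Equiv.Perm (Fin 4),
        pv (vecOf a) (vecOf b) g i * Real.log (pv (vecOf a) (vecOf b) g i)
        = 24 * (vecOf a i * Real.log (vecOf a i)) + vecOf a i * (6 * ∑ j, vecOf b j * Real.log (vecOf b j)) := by
      intro i
      have e1 : ∀ g : Equiv.Perm (Fin 4), pv (vecOf a) (vecOf b) g i * Real.log (pv (vecOf a) (vecOf b) g i)
          = (vecOf a i * Real.log (vecOf a i)) * vecOf b (g i)
            + vecOf a i * (vecOf b (g i) * Real.log (vecOf b (g i))) := by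
        intro g
        unfold pv
        rw [Real.log_mul (ha i).ne' (hb (g i)).ne']
        ring
      simp only [e1]
      rw [Finset.sum_add_distrib, ← Finset.mul_sum, ← Finset.mul_sum,
        sum_perm_apply (vecOf b) i, sum_perm_apply (fun j => vecOf b j * Real.log (vecOf b j)) i, h4b]
      ring
    simp only [e]
    rw [Finset.sum_add_distrib, ← Finset.mul_sum, ← Finset.sum_mul, h4a]
    unfold entAvg
    ring
  have hpsi : ∀ g, psi (pv (vecOf a) (vecOf b) g) = 9 * yy (pv (vecOf a) (vecOf b) g)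
      - 6 * ((∑ i, pv (vecOf a) (vecOf b) g i * Real.log (pv (vecOf a) (vecOf b) g i)) / 4)
      + 6 * (mass (pv (vecOf a) (vecOf b) g) * Real.log (mass (pv (vecOf a) (vecOf b) g))) := by
    intro g
    unfold psi ent
    ring
  simp only [hpsi]
  rw [Finset.sum_add_distrib, Finset.sum_sub_distrib, ← Finset.mul_sum, ← Finset.mul_sum, ← Finset.mul_sum,
    hent]
  ring

section multipliers

variable {b : V3} (h : ∀ i, 1 / 4 ≤ vecOf b i)

include h

theorem entries_low :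
    0 ≤ 3 / 4 + (b.a1 + b.a2 + b.a3) ∧ 0 ≤ 3 / 4 + (b.a1 - b.a2 - b.a3) ∧
      0 ≤ 3 / 4 + (-b.a1 + b.a2 - b.a3) ∧ 0 ≤ 3 / 4 + (-b.a1 - b.a2 + b.a3) := by
  have h0 := h 0
  have h1 := h 1
  have h2 := h 2
  have h3 := h 3
  simp [vecOf] at h0 h1 h2 h3
  refine ⟨?_, ?_, ?_, ?_⟩ <;> linarith

theorem mult_Q2 : 0 ≤ 27 - 16 * b.x := by
  obtain ⟨h0, h1, h2, h3⟩ := entries_low h
  have e : 27 - 16 * b.x = 8 * ((3 / 4 + (b.a1 + b.a2 + b.a3)) * (3 / 4 + (b.a1 - b.a2 - b.a3))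
      + (3 / 4 + (b.a1 + b.a2 + b.a3)) * (3 / 4 + (-b.a1 + b.a2 - b.a3))
      + (3 / 4 + (b.a1 + b.a2 + b.a3)) * (3 / 4 + (-b.a1 - b.a2 + b.a3))
      + (3 / 4 + (b.a1 - b.a2 - b.a3)) * (3 / 4 + (-b.a1 + b.a2 - b.a3))
      + (3 / 4 + (b.a1 - b.a2 - b.a3)) * (3 / 4 + (-b.a1 - b.a2 + b.a3))
      + (3 / 4 + (-b.a1 + b.a2 - b.a3)) * (3 / 4 + (-b.a1 - b.a2 + b.a3))) := by
    unfold V3.x
    ring
  rw [e]
  positivity

theorem mult_Q3 : 0 ≤ 27 - 48 * b.x + 128 * b.t := by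
  obtain ⟨h0, h1, h2, h3⟩ := entries_low h
  have e : 27 - 48 * b.x + 128 * b.t
      = 16 * ((3 / 4 + (b.a1 + b.a2 + b.a3)) * (3 / 4 + (b.a1 - b.a2 - b.a3))
          * (3 / 4 + (-b.a1 + b.a2 - b.a3))
        + (3 / 4 + (b.a1 + b.a2 + b.a3)) * (3 / 4 + (b.a1 - b.a2 - b.a3))
          * (3 / 4 + (-b.a1 - b.a2 + b.a3))
        + (3 / 4 + (b.a1 + b.a2 + b.a3)) * (3 / 4 + (-b.a1 + b.a2 - b.a3))
          * (3 / 4 + (-b.a1 - b.a2 + b.a3))
        + (3 / 4 + (b.a1 - b.a2 - b.a3)) * (3 / 4 + (-b.a1 + b.a2 - b.a3))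
          * (3 / 4 + (-b.a1 - b.a2 + b.a3))) := by
    unfold V3.x V3.t
    ring
  rw [e]
  positivity

theorem mult_Q4 : 0 ≤ 81 - 288 * b.x + 1536 * b.t + 256 * b.x ^ 2 - 1024 * b.g := by
  obtain ⟨h0, h1, h2, h3⟩ := entries_low h
  have e : 81 - 288 * b.x + 1536 * b.t + 256 * b.x ^ 2 - 1024 * b.g
      = 256 * ((3 / 4 + (b.a1 + b.a2 + b.a3)) * (3 / 4 + (b.a1 - b.a2 - b.a3))
          * (3 / 4 + (-b.a1 + b.a2 - b.a3)) * (3 / 4 + (-b.a1 - b.a2 + b.a3))) := by
    unfold V3.x V3.t V3.g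
    ring
  rw [e]
  positivity

end multipliers

theorem mults_C1 {a b : V3} (ha : ∀ i, 0 < vecOf a i) (hb : ∀ i, 1 / 4 ≤ vecOf b i)
    (hx' : b.x ≤ 1) : ∀ P ∈ CertC1.mults, 0 ≤ Poly.eval P (pt a b) := by
  have hb0 : ∀ i, 0 ≤ vecOf b i := fun i => by linarith [hb i]
  have h1 := V3.x_nonneg a
  have h2 := V3.x_nonneg b
  have hP2 := mult_P2 fun i => (ha i).le
  have hP3 := mult_P3 fun i => (ha i).le
  have hP4 := mult_P4 fun i => (ha i).le
  have hQ2 := mult_Q2 hb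
  have hQ3 := mult_Q3 hb
  have hQ4 := mult_Q4 hb
  intro P hP
  simp only [CertC1.mults, List.mem_cons, List.not_mem_nil, or_false] at hP
  rcases hP with rfl | rfl | rfl | rfl | rfl | rfl | rfl | rfl | rfl
  all_goals first
    | (simp [Mono.eval]; done)
    | (simp [pt, Mono.eval]; nlinarith [mul_nonneg h1 h2])

theorem mults_C2 {a b : V3} (ha : ∀ i, 0 < vecOf a i) (hb : ∀ i, 1 / 4 ≤ vecOf b i)
    (hx : a.x ≤ 7 / 10) (hx' : 1 ≤ b.x) : ∀ P ∈ CertC2.mults, 0 ≤ Poly.eval P (pt a b) := by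
  have h1 := V3.x_nonneg a
  have h2 := V3.x_nonneg b
  have hP2 := mult_P2 fun i => (ha i).le
  have hP3 := mult_P3 fun i => (ha i).le
  have hP4 := mult_P4 fun i => (ha i).le
  have hQ2 := mult_Q2 hb
  have hQ3 := mult_Q3 hb
  have hQ4 := mult_Q4 hb
  intro P hP
  simp only [CertC2.mults, List.mem_cons, List.not_mem_nil, or_false] at hP
  rcases hP with rfl | rfl | rfl | rfl | rfl | rfl | rfl | rfl
  all_goals first
    | (simp [Mono.eval]; done)
    | (simp [pt, Mono.eval]; nlinarith [mul_nonneg h1 h2])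

theorem rel_C1 : relCOK CertC1.target CertC1.K abS2 (24 * 64 * 4096) xaP = true := by
  decide +kernel

theorem rel_C2 : relCOK CertC2.target CertC2.K ccS2 (24 * 64 * 4096) [] = true := by
  decide +kernel

theorem K_C1_pos : (0 : ℝ) < (CertC1.K : ℝ) := by
  unfold CertC1.K
  norm_num

theorem K_C2_pos : (0 : ℝ) < (CertC2.K : ℝ) := by
  unfold CertC2.K
  norm_num

/-- The closure estimate for vectors of mean one, in the first region. -/
theorem C_case1 {a b : V3} (ha : ∀ i, 0 < vecOf a i) (hb : ∀ i, 1 / 4 ≤ vecOf b i)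
    (hx' : b.x ≤ 1) :
    wMul (vecOf b) * psi (vecOf a) + wMul (vecOf a) * psi (vecOf b)
      ≤ (∑ g, psi (pv (vecOf a) (vecOf b) g)) / 24 := by
  have hb0 : ∀ i, 0 < vecOf b i := fun i => by linarith [hb i]
  have hT := cert_nonneg _ _ _ CertC1.check a b (mults_C1 ha hb hx')
  have hR := rCVal_nonneg_of_cert rel_C1 K_C1_pos (by norm_num) a b hT
  refine C_of_bounds (sum_psi_id ha hb0) (x_le_three fun i => (ha i).le)
    (x_le_three fun i => (hb0 i).le) ?_ ?_ (ent_up_a ha b) (ent_up_b a hb) hR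
  · have h := sum_yy_low_a (D := 4096) (by norm_num) lc2_bound AvgCa2_ok ha hb0
    have e : Poly.eval xaP (pt a b) = a.x := by simp [xaP, pt, Mono.eval]
    rw [e]
    refine le_trans (le_of_eq ?_) h
    push_cast
    ring
  · have h := sum_zlogz_low ha hb0
    refine le_trans (le_of_eq ?_) h
    ring

/-- The closure estimate for vectors of mean one, in the second region. -/
theorem C_case2 {a b : V3} (ha : ∀ i, 0 < vecOf a i) (hb : ∀ i, 1 / 4 ≤ vecOf b i)
    (hx : a.x ≤ 7 / 10) (hx' : 1 ≤ b.x) :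
    wMul (vecOf b) * psi (vecOf a) + wMul (vecOf a) * psi (vecOf b)
      ≤ (∑ g, psi (pv (vecOf a) (vecOf b) g)) / 24 := by
  have hb0 : ∀ i, 0 < vecOf b i := fun i => by linarith [hb i]
  have hT := cert_nonneg _ _ _ CertC2.check a b (mults_C2 ha hb hx hx')
  have hR := rCVal_nonneg_of_cert rel_C2 K_C2_pos (by norm_num) a b hT
  refine C_of_bounds (sum_psi_id ha hb0) (x_le_three fun i => (ha i).le)
    (x_le_three fun i => (hb0 i).le) ?_ ?_ (ent_up_a ha b) (ent_up_b a hb) hR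
  · have h := sum_yy_low_c (D := 4096) (by norm_num) lc2_bound AvgCc2_ok ha hb0
    have e : Poly.eval ([] : Poly) (pt a b) = 0 := rfl
    rw [e]
    refine le_trans (le_of_eq ?_) h
    push_cast
    ring
  · have h := sum_zlogz_low ha hb0
    refine le_trans (le_of_eq ?_) h
    ring

end

end Vale.Agent.P154.Q4
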