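import Vale.Agent.P154.Q4.Defs

/-!
Behaviour of the entropy class functional under the Potts channel.
-/

namespace Vale.Agent.P154.Q4

noncomputable section

open Real Set

/-- The scalar function `phi s = (1 + s) log (1 + s) - s`. -/
def phiS (s : ℝ) : ℝ := (1 + s) * Real.log (1 + s) - s

/-- The scalar function `f s = 3 s ^ 2 - 6 phi s`. -/
def fS (s : ℝ) : ℝ := 3 * s ^ 2 - 6 * phiS s

/-- The auxiliary function in the derivative of `f s / s ^ 3`. -/
def rS (s : ℝ) : ℝ := 3 * s ^ 2 + 18 * s - s ^ 4 / 32 - (18 + 12 * s) * Real.log (1 + s)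

/-- The derivative of `rS`. -/
def dS (s : ℝ) : ℝ := 6 * s + 6 - 6 / (1 + s) - s ^ 3 / 8 - 12 * Real.log (1 + s)

theorem hasDerivAt_log1 {s : ℝ} (hs : -1 < s) :
    HasDerivAt (fun x => Real.log (1 + x)) (1 / (1 + s)) s := by
  have h1 : (1 + s) ≠ 0 := by linarith
  have h2 : HasDerivAt (fun x : ℝ => 1 + x) 1 s := by
    simpa using (hasDerivAt_id s).const_add 1
  have := h2.log h1
  simpa using this

theorem hasDerivAt_rS {s : ℝ} (hs : -1 < s) : HasDerivAt rS (dS s) s := by
  have h1 : (1 + s) ≠ 0 := by linarith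
  have hl := hasDerivAt_log1 hs
  have h2 : HasDerivAt (fun x : ℝ => 18 + 12 * x) 12 s := by
    simpa using ((hasDerivAt_id s).const_mul 12).const_add 18
  have h3 : HasDerivAt (fun x : ℝ => 3 * x ^ 2) (3 * (2 * s)) s := by
    have := (hasDerivAt_pow 2 s).const_mul 3
    simpa using this
  have h4 : HasDerivAt (fun x : ℝ => 18 * x) 18 s := by
    simpa using (hasDerivAt_id s).const_mul 18
  have h5 : HasDerivAt (fun x : ℝ => x ^ 4 / 32) (4 * s ^ 3 / 32) s := by
    have := (hasDerivAt_pow 4 s).div_const 32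
    simpa using this
  have h6 := h2.mul hl
  have key : HasDerivAt (fun x : ℝ => 3 * x ^ 2 + 18 * x - x ^ 4 / 32
      - (18 + 12 * x) * Real.log (1 + x)) _ s := ((h3.add h4).sub h5).sub h6
  refine HasDerivAt.congr_deriv key ?_
  unfold dS
  field_simp
  ring

theorem hasDerivAt_dS {s : ℝ} (hs : -1 < s) :
    HasDerivAt dS (s ^ 2 * (6 / (1 + s) ^ 2 - 3 / 8)) s := by
  have h1 : (1 + s) ≠ 0 := by linarith
  have hl := hasDerivAt_log1 hs
  have h2 : HasDerivAt (fun x : ℝ => 1 + x) 1 s := by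
    simpa using (hasDerivAt_id s).const_add 1
  have h3 : HasDerivAt (fun x : ℝ => 6 * x + 6) 6 s := by
    simpa using ((hasDerivAt_id s).const_mul 6).add_const 6
  have h4 : HasDerivAt (fun x : ℝ => 6 / (1 + x)) (-6 / (1 + s) ^ 2) s := by
    have := (hasDerivAt_const s (6 : ℝ)).div h2 h1
    refine HasDerivAt.congr_deriv this ?_
    simp
  have h5 : HasDerivAt (fun x : ℝ => x ^ 3 / 8) (3 * s ^ 2 / 8) s := by
    have := (hasDerivAt_pow 3 s).div_const 8
    simpa using this
  have h6 := hl.const_mul 12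
  have key : HasDerivAt (fun x : ℝ => 6 * x + 6 - 6 / (1 + x) - x ^ 3 / 8
      - 12 * Real.log (1 + x)) _ s := ((h3.sub h4).sub h5).sub h6
  refine HasDerivAt.congr_deriv key ?_
  field_simp
  ring

theorem dS_zero : dS 0 = 0 := by
  unfold dS
  norm_num

theorem rS_zero : rS 0 = 0 := by
  unfold rS
  norm_num

theorem dS_monotoneOn : MonotoneOn dS (Ioc (-1) 3) := by
  refine monotoneOn_of_deriv_nonneg (convex_Ioc _ _) ?_ ?_ ?_
  · intro s hs
    exact (hasDerivAt_dS hs.1).continuousAt.continuousWithinAt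
  · intro s hs
    rw [interior_Ioc] at hs
    exact (hasDerivAt_dS hs.1).differentiableAt.differentiableWithinAt
  · intro s hs
    rw [interior_Ioc] at hs
    rw [(hasDerivAt_dS hs.1).deriv]
    have h1 : 0 < 1 + s := by linarith [hs.1]
    have h2 : (1 + s) ^ 2 ≤ 16 := by nlinarith [hs.1, hs.2]
    have h3 : 3 / 8 ≤ 6 / (1 + s) ^ 2 := by
      rw [le_div_iff₀ (by positivity)]
      nlinarith
    have h4 : 0 ≤ 6 / (1 + s) ^ 2 - 3 / 8 := by linarith
    positivity

theorem rS_nonneg {s : ℝ} (h1 : -1 < s) (h3 : s ≤ 3) : 0 ≤ rS s := by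
  rcases le_total s 0 with h | h
  · have hanti : AntitoneOn rS (Ioc (-1) 0) := by
      refine antitoneOn_of_deriv_nonpos (convex_Ioc _ _) ?_ ?_ ?_
      · intro x hx
        exact (hasDerivAt_rS hx.1).continuousAt.continuousWithinAt
      · intro x hx
        rw [interior_Ioc] at hx
        exact (hasDerivAt_rS hx.1).differentiableAt.differentiableWithinAt
      · intro x hx
        rw [interior_Ioc] at hx
        rw [(hasDerivAt_rS hx.1).deriv]
        have := dS_monotoneOn (a := x) (b := 0) ⟨hx.1, by linarith [hx.2]⟩ ⟨by norm_num, by norm_num⟩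
          hx.2.le
        rw [dS_zero] at this
        exact this
    have := hanti (a := s) (b := 0) ⟨h1, h⟩ ⟨by norm_num, le_refl _⟩ h
    rw [rS_zero] at this
    exact this
  · have hmono : MonotoneOn rS (Icc 0 3) := by
      refine monotoneOn_of_deriv_nonneg (convex_Icc _ _) ?_ ?_ ?_
      · intro x hx
        exact (hasDerivAt_rS (by linarith [hx.1])).continuousAt.continuousWithinAt
      · intro x hx
        rw [interior_Icc] at hx
        exact (hasDerivAt_rS (by linarith [hx.1])).differentiableAt.differentiableWithinAt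
      · intro x hx
        rw [interior_Icc] at hx
        rw [(hasDerivAt_rS (by linarith [hx.1])).deriv]
        have := dS_monotoneOn (a := 0) (b := x) ⟨by norm_num, by norm_num⟩
          ⟨by linarith [hx.1], hx.2.le⟩ hx.1.le
        rw [dS_zero] at this
        exact this
    have := hmono (a := 0) (b := s) ⟨le_refl _, by norm_num⟩ ⟨h, h3⟩ h
    rw [rS_zero] at this
    exact this

/-- The function `f s / s ^ 3 + s / 32`. -/
def gS (s : ℝ) : ℝ := fS s / s ^ 3 + s / 32

theorem hasDerivAt_fS {s : ℝ} (hs : -1 < s) : HasDerivAt fS (6 * s - 6 * Real.log (1 + s)) s := by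
  have h1 : (1 + s) ≠ 0 := by linarith
  have hl := hasDerivAt_log1 hs
  have h2 : HasDerivAt (fun x : ℝ => 1 + x) 1 s := by
    simpa using (hasDerivAt_id s).const_add 1
  have h3 : HasDerivAt (fun x : ℝ => 3 * x ^ 2) (3 * (2 * s)) s := by
    have := (hasDerivAt_pow 2 s).const_mul 3
    simpa using this
  have h6 : HasDerivAt (fun x : ℝ => (1 + x) * Real.log (1 + x) - x) _ s :=
    (h2.mul hl).sub (hasDerivAt_id s)
  have key : HasDerivAt (fun x : ℝ => 3 * x ^ 2 - 6 * ((1 + x) * Real.log (1 + x) - x)) _ s :=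
    h3.sub (h6.const_mul 6)
  refine HasDerivAt.congr_deriv key ?_
  field_simp
  ring

theorem hasDerivAt_gS {s : ℝ} (hs : -1 < s) (h0 : s ≠ 0) :
    HasDerivAt gS (-(rS s) / s ^ 4) s := by
  have h1 := hasDerivAt_fS hs
  have h2 : HasDerivAt (fun x : ℝ => x ^ 3) (3 * s ^ 2) s := by
    simpa using hasDerivAt_pow 3 s
  have h3 : s ^ 3 ≠ 0 := pow_ne_zero _ h0
  have h4 := h1.div h2 h3
  have h5 : HasDerivAt (fun x : ℝ => x / 32) (1 / 32) s := (hasDerivAt_id s).div_const 32
  have key : HasDerivAt (fun x : ℝ => fS x / x ^ 3 + x / 32) _ s := h4.add h5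
  refine HasDerivAt.congr_deriv key ?_
  unfold rS fS phiS
  field_simp
  ring

theorem continuous_fS : Continuous fS := by
  have e : fS = fun x => 3 * x ^ 2 - 6 * ((1 + x) * Real.log (1 + x) - x) := by
    funext x
    simp [fS, phiS]
  rw [e]
  have h : Continuous fun x : ℝ => (1 + x) * Real.log (1 + x) :=
    Real.continuous_mul_log.comp (by fun_prop)
  fun_prop

theorem deriv_gS_nonpos {s : ℝ} (hs : -1 < s) (h0 : s ≠ 0) (h3 : s ≤ 3) : deriv gS s ≤ 0 := by
  rw [(hasDerivAt_gS hs h0).deriv]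
  have := rS_nonneg hs h3
  have h4 : 0 ≤ s ^ 4 := by positivity
  exact div_nonpos_of_nonpos_of_nonneg (by linarith) h4

theorem gS_anti_pos : AntitoneOn gS (Ioc 0 3) := by
  refine antitoneOn_of_deriv_nonpos (convex_Ioc _ _) ?_ ?_ ?_
  · intro x hx
    exact (hasDerivAt_gS (by linarith [hx.1]) hx.1.ne').continuousAt.continuousWithinAt
  · intro x hx
    rw [interior_Ioc] at hx
    exact (hasDerivAt_gS (by linarith [hx.1]) hx.1.ne').differentiableAt.differentiableWithinAt
  · intro x hx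
    rw [interior_Ioc] at hx
    exact deriv_gS_nonpos (by linarith [hx.1]) hx.1.ne' hx.2.le

theorem gS_anti_neg : AntitoneOn gS (Ico (-1) 0) := by
  refine antitoneOn_of_deriv_nonpos (convex_Ico _ _) ?_ ?_ ?_
  · intro x hx
    have hne : x ^ 3 ≠ 0 := pow_ne_zero _ hx.2.ne
    have : ContinuousAt gS x := by
      unfold gS
      have c1 : ContinuousAt (fun y : ℝ => y ^ 3) x := (continuous_pow 3).continuousAt
      have c2 : ContinuousAt (fun y : ℝ => y / 32) x := (continuous_id.div_const 32).continuousAt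
      exact (continuous_fS.continuousAt.div c1 hne).add c2
    exact this.continuousWithinAt
  · intro x hx
    rw [interior_Ico] at hx
    exact (hasDerivAt_gS hx.1 hx.2.ne).differentiableAt.differentiableWithinAt
  · intro x hx
    rw [interior_Ico] at hx
    exact deriv_gS_nonpos hx.1 hx.2.ne (by linarith [hx.2])

/-- The scalar inequality behind the behaviour of the class functional under the channel. -/
theorem scalar_chan {s lam : ℝ} (h1 : -1 ≤ s) (h3 : s ≤ 3) (h0 : 0 ≤ lam) (hl : lam ≤ 1) :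
    lam ^ 3 * fS s + lam ^ 3 * (1 - lam) * s ^ 4 / 32 ≤ fS (lam * s) := by
  rcases eq_or_lt_of_le h0 with rfl | hlam
  · simp [fS, phiS]
  rcases lt_trichotomy s 0 with hs | rfl | hs
  · have hm := gS_anti_neg (a := s) (b := lam * s) ⟨h1, hs⟩
      ⟨by nlinarith, by nlinarith⟩ (by nlinarith)
    unfold gS at hm
    have hs3 : s ^ 3 < 0 := by
      have : s ^ 3 = s * s ^ 2 := by ring
      rw [this]
      have hs0 : s ≠ 0 := hs.ne
      exact mul_neg_of_neg_of_pos hs (by positivity)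
    have hl3 : 0 < lam ^ 3 := by positivity
    have hp : (lam * s) ^ 3 = lam ^ 3 * s ^ 3 := by ring
    have hs0 : s ≠ 0 := hs.ne
    have hl0 : lam ≠ 0 := hlam.ne'
    have hm2 := mul_le_mul_of_nonpos_left hm (mul_neg_of_pos_of_neg hl3 hs3).le
    have e1 : lam ^ 3 * s ^ 3 * (fS s / s ^ 3 + s / 32) = lam ^ 3 * fS s + lam ^ 3 * s ^ 4 / 32 := by
      field_simp
    have e2 : lam ^ 3 * s ^ 3 * (fS (lam * s) / (lam * s) ^ 3 + lam * s / 32)
        = fS (lam * s) + lam ^ 4 * s ^ 4 / 32 := by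
      rw [hp]
      field_simp
    rw [e1, e2] at hm2
    have e3 : lam ^ 3 * (1 - lam) * s ^ 4 / 32 = lam ^ 3 * s ^ 4 / 32 - lam ^ 4 * s ^ 4 / 32 := by
      ring
    rw [e3]
    linarith
  · simp [fS, phiS]
  · have hm := gS_anti_pos (a := lam * s) (b := s) ⟨mul_pos hlam hs, by nlinarith⟩ ⟨hs, h3⟩
      (by nlinarith)
    unfold gS at hm
    have hs3 : 0 < s ^ 3 := by positivity
    have hl3 : 0 < lam ^ 3 := by positivity
    have hp : (lam * s) ^ 3 = lam ^ 3 * s ^ 3 := by ring
    have hs0 : s ≠ 0 := hs.ne'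
    have hl0 : lam ≠ 0 := hlam.ne'
    have hm2 := mul_le_mul_of_nonneg_left hm (mul_pos hl3 hs3).le
    have e1 : lam ^ 3 * s ^ 3 * (fS s / s ^ 3 + s / 32) = lam ^ 3 * fS s + lam ^ 3 * s ^ 4 / 32 := by
      field_simp
    have e2 : lam ^ 3 * s ^ 3 * (fS (lam * s) / (lam * s) ^ 3 + lam * s / 32)
        = fS (lam * s) + lam ^ 4 * s ^ 4 / 32 := by
      rw [hp]
      field_simp
    rw [e1, e2] at hm2
    have e3 : lam ^ 3 * (1 - lam) * s ^ 4 / 32 = lam ^ 3 * s ^ 4 / 32 - lam ^ 4 * s ^ 4 / 32 := by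
      ring
    rw [e3]
    linarith

/-- The mass of the channel output. -/
theorem mass_chan (lam : ℝ) (v : Fin 4 → ℝ) : mass (chan lam v) = mass v := by
  have h : mass (chan lam v) = (∑ i, (lam * v i + (1 - lam) * mass v)) / 4 := rfl
  rw [h, Finset.sum_add_distrib, ← Finset.mul_sum]
  simp only [Finset.sum_const, Finset.card_univ, Fintype.card_fin, nsmul_eq_mul]
  have h2 : ∑ i, v i = 4 * mass v := by unfold mass; ring
  rw [h2]
  push_cast
  ring

theorem mul_log_mul_aux {M x : ℝ} (hM : 0 < M) (hx : 0 ≤ x) :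
    (M * x) * Real.log (M * x) = M * x * Real.log M + M * (x * Real.log x) := by
  rcases eq_or_lt_of_le hx with rfl | hx
  · simp
  · rw [Real.log_mul hM.ne' hx.ne']
    ring

/-- The class functional in normalised coordinates. -/
theorem psi_eq {w : Fin 4 → ℝ} (hw : ∀ i, 0 ≤ w i) (hm : 0 < mass w) :
    psi w = mass w * ((∑ i, fS (nrm w i - 1)) / 4) := by
  have hM := hm
  set M := mass w with hMdef
  have hsum : ∑ i, w i = 4 * M := by
    rw [hMdef]; unfold mass; ring
  have hv : ∀ i, w i = M * nrm w i := by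
    intro i
    unfold nrm
    rw [← hMdef]
    field_simp
  have hn : ∀ i, 0 ≤ nrm w i := fun i => div_nonneg (hw i) hM.le
  have hnsum : ∑ i, nrm w i = 4 := by
    unfold nrm
    rw [← hMdef, ← Finset.sum_div, hsum]
    field_simp
  have hent : ent w = M * ((∑ i, nrm w i * Real.log (nrm w i)) / 4) := by
    unfold ent
    rw [← hMdef]
    have : ∀ i, w i * Real.log (w i)
        = M * nrm w i * Real.log M + M * (nrm w i * Real.log (nrm w i)) := by
      intro i
      rw [hv i]
      simpa [mul_assoc] using mul_log_mul_aux hM (hn i)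
    simp only [this, Finset.sum_add_distrib, ← Finset.sum_mul, ← Finset.mul_sum, hnsum]
    ring
  have hx : xx (nrm w) = (∑ i, (nrm w i - 1) ^ 2) / 4 := rfl
  unfold psi yy
  rw [hent, hx, ← hMdef]
  simp only [Fin.sum_univ_four] at hnsum ⊢
  unfold fS phiS
  have e : ∀ i, 1 + (nrm w i - 1) = nrm w i := fun i => by ring
  simp only [e]
  linear_combination (-(6 : ℝ) / 4 * M) * hnsum

theorem nrm_chan (lam : ℝ) {v : Fin 4 → ℝ} (hm : 0 < mass v) (i : Fin 4) :
    nrm (chan lam v) i - 1 = lam * (nrm v i - 1) := by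
  unfold nrm
  rw [mass_chan]
  unfold chan
  field_simp
  ring

/-- Behaviour of the class functional under the channel. -/
theorem pointwiseT : PointwiseT := by
  intro lam v h0 h1 hv hm
  have hM := hm
  have hchan : ∀ i, 0 ≤ chan lam v i := by
    intro i
    unfold chan
    have := hv i
    have : 0 ≤ 1 - lam := by linarith
    positivity
  rw [psi_eq hv hm, psi_eq hchan (by rw [mass_chan]; exact hm), mass_chan]
  have hn : ∀ i, 0 ≤ nrm v i := fun i => div_nonneg (hv i) hM.le
  have hnsum : ∑ i, nrm v i = 4 := by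
    have h2 : ∑ i, v i = 4 * mass v := by unfold mass; ring
    unfold nrm
    rw [← Finset.sum_div, h2]
    field_simp
  have hlow : ∀ i, -1 ≤ nrm v i - 1 := fun i => by linarith [hn i]
  have hup : ∀ i, nrm v i - 1 ≤ 3 := by
    intro i
    have : nrm v i ≤ ∑ j, nrm v j :=
      Finset.single_le_sum (f := fun j => nrm v j) (fun j _ => hn j) (Finset.mem_univ i)
    linarith
  have hsc : ∀ i, lam ^ 3 * fS (nrm v i - 1) + lam ^ 3 * (1 - lam) * (nrm v i - 1) ^ 4 / 32
      ≤ fS (nrm (chan lam v) i - 1) := by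
    intro i
    rw [nrm_chan lam hm]
    exact scalar_chan (hlow i) (hup i) h0 h1
  have hsum := Finset.sum_le_sum fun i (_ : i ∈ (Finset.univ : Finset (Fin 4))) => hsc i
  have hx : xx (nrm v) = (∑ i, (nrm v i - 1) ^ 2) / 4 := rfl
  have hcs : xx (nrm v) ^ 2 ≤ (∑ i, (nrm v i - 1) ^ 4) / 4 := by
    rw [hx]
    simp only [Fin.sum_univ_four]
    nlinarith [sq_nonneg ((nrm v 0 - 1) ^ 2 - (nrm v 1 - 1) ^ 2),
      sq_nonneg ((nrm v 0 - 1) ^ 2 - (nrm v 2 - 1) ^ 2),
      sq_nonneg ((nrm v 0 - 1) ^ 2 - (nrm v 3 - 1) ^ 2),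
      sq_nonneg ((nrm v 1 - 1) ^ 2 - (nrm v 2 - 1) ^ 2),
      sq_nonneg ((nrm v 1 - 1) ^ 2 - (nrm v 3 - 1) ^ 2),
      sq_nonneg ((nrm v 2 - 1) ^ 2 - (nrm v 3 - 1) ^ 2)]
  have hlam3 : 0 ≤ lam ^ 3 * (1 - lam) := mul_nonneg (by positivity) (by linarith)
  have e1 : ∑ i, (lam ^ 3 * fS (nrm v i - 1) + lam ^ 3 * (1 - lam) * (nrm v i - 1) ^ 4 / 32)
      = lam ^ 3 * (∑ i, fS (nrm v i - 1))
        + lam ^ 3 * (1 - lam) * (∑ i, (nrm v i - 1) ^ 4) / 32 := by
    rw [Finset.sum_add_distrib, ← Finset.mul_sum]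
    congr 1
    rw [← Finset.sum_div, ← Finset.mul_sum]
  rw [e1] at hsum
  have h5 := mul_le_mul_of_nonneg_left hcs (mul_nonneg hM.le hlam3)
  have h6 := mul_le_mul_of_nonneg_left hsum hM.le
  nlinarith

end

end Vale.Agent.P154.Q4
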