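import Vale.Agent.P154.Q4.GW

/-!
Nonreconstruction for the four-state ferromagnetic Potts channel from the pointwise statements
`PointwiseS`, `PointwiseC`, `PointwiseT` for the concrete class functional `psi`.

The abstract version, for any class functional with multipliers, is `cls_main` in `Q4/GW.lean`.
-/

namespace Vale.Agent.P154.Q4

noncomputable section

open Finset Filter Topology

theorem sq_le_one_of_bounds {x : ℝ} (h1 : x ≤ 1) (h2 : -1 ≤ x) : x ^ 2 ≤ 1 := by nlinarith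

theorem prod_le_aux (a b c : ℝ) (h : c ^ 2 ≤ 1) : a * b * c ≤ (a ^ 2 + b ^ 2) / 2 := by
  have abs3 : |c| ≤ 1 := by rw [← sq_le_one_iff_abs_le_one]; exact h
  have h4 : a * b * c ≤ |a * b| * |c| := by
    rw [← abs_mul]; exact le_abs_self _
  have h5 : |a * b| * |c| ≤ |a * b| :=
    mul_le_of_le_one_right (abs_nonneg _) abs3
  have h6 : |a * b| ≤ (a ^ 2 + b ^ 2) / 2 := by
    rw [abs_le]
    constructor <;> nlinarith [sq_nonneg (a + b), sq_nonneg (a - b)]
  linarith

/-- The polynomial inequality behind the lower bound of `gMul`. -/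
theorem poly_bound {a1 a2 a3 : ℝ} (b1 : a1 ^ 2 ≤ 1) (b2 : a2 ^ 2 ≤ 1) (b3 : a3 ^ 2 ≤ 1) :
    (a1 ^ 2 + a2 ^ 2 + a3 ^ 2) / 60 ≤ 2 / 9 * (a1 ^ 2 + a2 ^ 2 + a3 ^ 2)
      - 6 * (a1 * a2 * a3) / 36
      - 3 / 20 * (a1 ^ 2 * a2 ^ 2 + a2 ^ 2 * a3 ^ 2 + a3 ^ 2 * a1 ^ 2) := by
  have g1 : a1 ^ 2 * a2 ^ 2 ≤ a1 ^ 2 := mul_le_of_le_one_right (sq_nonneg a1) b2
  have g2 : a2 ^ 2 * a3 ^ 2 ≤ a2 ^ 2 := mul_le_of_le_one_right (sq_nonneg a2) b3
  have g3 : a3 ^ 2 * a1 ^ 2 ≤ a3 ^ 2 := mul_le_of_le_one_right (sq_nonneg a3) b1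
  have c3 := prod_le_aux a1 a2 a3 b3
  have c1 := prod_le_aux a2 a3 a1 b1
  have c2 := prod_le_aux a3 a1 a2 b2
  have e1 : a2 * a3 * a1 = a1 * a2 * a3 := by ring
  have e2 : a3 * a1 * a2 = a1 * a2 * a3 := by ring
  rw [e1] at c1
  rw [e2] at c2
  linarith

/-- The invariants of a normalised vector in Fourier coordinates. -/
theorem inv_bounds {n : Fin 4 → ℝ} (hp : ∀ i, 0 < n i) (hs : ∑ i, n i = 4) :
    xx n / 60 ≤ 2 / 9 * xx n - tt n / 36 - 3 / 20 * gg n := by
  rw [Fin.sum_univ_four] at hs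
  have h0 := hp 0
  have h1 := hp 1
  have h2 := hp 2
  have h3 := hp 3
  obtain ⟨a1, ha1⟩ : ∃ a, a = (n 0 + n 1 - n 2 - n 3) / 4 := ⟨_, rfl⟩
  obtain ⟨a2, ha2⟩ : ∃ a, a = (n 0 - n 1 + n 2 - n 3) / 4 := ⟨_, rfl⟩
  obtain ⟨a3, ha3⟩ : ∃ a, a = (n 0 - n 1 - n 2 + n 3) / 4 := ⟨_, rfl⟩
  have e0 : n 0 - 1 = a1 + a2 + a3 := by rw [ha1, ha2, ha3]; linarith
  have e1 : n 1 - 1 = a1 - a2 - a3 := by rw [ha1, ha2, ha3]; linarith
  have e2 : n 2 - 1 = - a1 + a2 - a3 := by rw [ha1, ha2, ha3]; linarith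
  have e3 : n 3 - 1 = - a1 - a2 + a3 := by rw [ha1, ha2, ha3]; linarith
  have hx : xx n = a1 ^ 2 + a2 ^ 2 + a3 ^ 2 := by
    unfold xx mom
    rw [Fin.sum_univ_four, e0, e1, e2, e3]
    ring
  have ht : tt n = 6 * (a1 * a2 * a3) := by
    unfold tt mom
    rw [Fin.sum_univ_four, e0, e1, e2, e3]
    ring
  have hg : gg n = a1 ^ 2 * a2 ^ 2 + a2 ^ 2 * a3 ^ 2 + a3 ^ 2 * a1 ^ 2 := by
    unfold gg xx mom
    rw [Fin.sum_univ_four, Fin.sum_univ_four, e0, e1, e2, e3]
    ring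
  rw [hx, ht, hg]
  refine poly_bound (sq_le_one_of_bounds ?_ ?_) (sq_le_one_of_bounds ?_ ?_)
    (sq_le_one_of_bounds ?_ ?_) <;> first | (rw [ha1]; linarith) | (rw [ha2]; linarith) | (rw [ha3]; linarith)

/-- The lower bound of the multiplier `gMul`. -/
theorem gMul_ge {v : Fin 4 → ℝ} (h : ∀ i, 0 < v i) : (1 / 60) * (mass v * xx (nrm v)) ≤ gMul v := by
  have hm := mass_pos h
  have := inv_bounds (nrm_pos h) (sum_nrm h)
  unfold gMul
  have h2 := mul_le_mul_of_nonneg_left this hm.le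
  linarith

theorem wMul_nonneg {v : Fin 4 → ℝ} (h : ∀ i, 0 < v i) : 0 ≤ wMul v := by
  have hm := mass_pos h
  have hx := xx_nrm_le h
  unfold wMul
  have : 0 ≤ 1 - xx (nrm v) / 3 := by linarith
  positivity

theorem psi_one : psi (fun _ => (1 : ℝ)) = 0 := by
  unfold psi
  rw [yy_one]
  unfold ent mass
  simp

/-- The value of `psi` at a vertex of the simplex. -/
theorem psi_vertex (j : Fin 4) : 0 ≤ psi (fun i => if j = i then 1 else 0) := by
  have hm : mass (fun i => if j = i then (1 : ℝ) else 0) = 1 / 4 := by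
    unfold mass
    simp
  have hy : yy (fun i => if j = i then (1 : ℝ) else 0) = 1 / 4 := by
    unfold yy xx mom nrm
    rw [hm]
    fin_cases j <;> simp [Fin.sum_univ_four] <;> norm_num
  have he : ent (fun i => if j = i then (1 : ℝ) else 0) = - (1 / 4) * Real.log (1 / 4) := by
    unfold ent
    rw [hm]
    have : ∑ i, (if j = i then (1 : ℝ) else 0) * Real.log (if j = i then (1 : ℝ) else 0) = 0 := by
      refine Finset.sum_eq_zero fun i _ => ?_
      split_ifs <;> simp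
    rw [this]
    ring
  unfold psi
  rw [hy, he]
  have hl : Real.log (1 / 4) = - (2 * Real.log 2) := by
    have : (1 / 4 : ℝ) = (2 ^ 2)⁻¹ := by norm_num
    rw [this, Real.log_inv, Real.log_pow]
    norm_num
  rw [hl]
  have := Real.log_two_lt_d9
  linarith

theorem pointwiseC_mono {lam0 lam1 : ℝ} (h : lam1 ≤ lam0) (hC : PointwiseC lam0) :
    PointwiseC lam1 := by
  intro u v hu hv hout
  refine hC u v hu hv (fun i => ?_)
  have hm := mass_pos hv
  have := hout i
  nlinarith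

/-- The class hypotheses for the concrete functional. -/
theorem cls_concrete {lam1 : ℝ} (hl1 : lam1 ≤ 1) (hS : PointwiseS) (hC : PointwiseC lam1)
    (hT : PointwiseT) : Cls lam1 (1 / 60) (1 / 32) psi gMul wMul where
  hG := fun v hv => by
    have := gMul_ge hv
    have hm := mass_pos hv
    have hx := xx_nonneg (nrm v)
    have : 0 ≤ (1 / 60) * (mass v * xx (nrm v)) := by positivity
    linarith
  hW := fun _ hv => wMul_nonneg hv
  hGl := fun _ hv _ => gMul_ge hv
  hS := fun u v hu hv _ => hS u v hu hv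
  hC := fun u v hu hv hout => hC u v hu hv hout
  hT := fun lam v h0 h1 hv => by
    have := hT lam v h0 (h1.trans hl1) (fun i => (hv i).le) (mass_pos hv)
    have e : lam ^ 3 * (1 - lam) / 32 * (mass v * xx (nrm v) ^ 2)
        = 1 / 32 * lam ^ 3 * (1 - lam) * (mass v * xx (nrm v) ^ 2) := by ring
    rw [e] at this
    exact this
  hStart := fun lam j h0 h1 => by
    have hm : mass (fun i => if j = i then (1 : ℝ) else 0) = 1 / 4 := by
      unfold mass
      simp
    have := hT lam (fun i => if j = i then (1 : ℝ) else 0) h0 (h1.trans hl1)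
      (fun i => by split_ifs <;> norm_num) (by rw [hm]; norm_num)
    have hv := psi_vertex j
    have h2 : 0 ≤ lam ^ 3 * psi (fun i => if j = i then (1 : ℝ) else 0) := by positivity
    have h3 : 0 ≤ lam ^ 3 * (1 - lam) / 32
        * (mass (fun i => if j = i then (1 : ℝ) else 0)
          * xx (nrm (fun i => if j = i then (1 : ℝ) else 0)) ^ 2) := by
      rw [hm]
      have : 0 ≤ 1 - lam := by linarith
      positivity
    linarith
  hOne := by rw [psi_one]

/-- Nonreconstruction for `q = 4`, `lam ≥ 0`, from the pointwise statements. -/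
theorem q4_main (lam0 : ℝ) (h1 : 3 / 4 ≤ lam0) (h2 : lam0 ≤ 1)
    (hS : PointwiseS) (hC : PointwiseC lam0) (hT : PointwiseT) :
    (∀ d : ℕ, 2 ≤ d → ∀ lam : ℝ, 0 ≤ lam → (d : ℝ) * lam ^ 2 ≤ 1 →
      Tendsto (reconA 4 d lam) atTop (𝓝 0))
    ∧ (∀ d : ℝ, 0 < d → ∀ lam : ℝ, 0 ≤ lam → lam ≤ 1 → d * lam ^ 2 ≤ 1 → (d ≤ 1 ∨ lam ≤ lam0) →
      (∀ n, Summable fun T : DTree n => T.prob (poissonWeight d) * T.treeA 4 lam)
      ∧ Tendsto (gwA 4 (poissonWeight d) lam) atTop (𝓝 0)) := by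
  constructor
  · intro d hd lam h0 hlam
    have hc := cls_concrete (lam1 := 3 / 4) (by norm_num) hS (pointwiseC_mono h1 hC) hT
    have hlam' : lam ≤ 3 / 4 := by
      have hd' : (2 : ℝ) ≤ d := by exact_mod_cast hd
      have : 2 * lam ^ 2 ≤ 1 := by nlinarith [sq_nonneg lam]
      nlinarith
    exact (cls_main hc (by norm_num) (by norm_num) (by norm_num)).1 d hd lam h0 hlam' hlam
  · intro d hd lam h0 hl hlam hcase
    rcases eq_or_lt_of_le hl with hl1 | hl1
    · -- `lam = 1`, the tree dies out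
      subst hl1
      have hd1 : d ≤ 1 := by simpa using hlam
      exact ⟨gwA_summable (poisson_nonneg hd.le) (poisson_hasSum d) h0 le_rfl,
        gw_extinct hd.le hd1 h0 le_rfl⟩
    · rcases hcase with h3 | h3
      · exact ⟨gwA_summable (poisson_nonneg hd.le) (poisson_hasSum d) h0 hl,
          gw_extinct hd.le h3 h0 hl⟩
      · have hmax : max lam (3 / 4) ≤ lam0 := max_le h3 h1
        have hmax1 : max lam (3 / 4) < 1 := max_lt hl1 (by norm_num)
        have hc := cls_concrete (lam1 := max lam (3 / 4)) hmax1.le hS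
          (pointwiseC_mono hmax hC) hT
        exact (cls_main hc (by norm_num) (by norm_num) hmax1).2 d hd lam h0 hl hlam
          (Or.inr (le_max_left _ _))

end

end Vale.Agent.P154.Q4
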