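import Vale.Agent.P154.Q4.ScalarNum

/-!
Five one variable inequalities between `(1+s) log (1+s)` and explicit polynomials.  The two global
ones follow from convexity.  The others split the range into a convex part around `s = 0`, where a
polynomial inequality for the second derivative is checked by an exact walker, and cells where the
logarithm is replaced by its tangent at the centre of the cell.
-/

namespace Vale.Agent.P154.Q4

open Real ScalarNum

/-! ### Integer polynomials as lists -/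

/-- Evaluation of a coefficient list, lowest degree first. -/
noncomputable def evL : List ℤ → ℝ → ℝ
  | [], _ => 0
  | a :: l, x => (a : ℝ) + x * evL l x

/-- The derivative of `evL`. -/
noncomputable def devL : List ℤ → ℝ → ℝ
  | [], _ => 0
  | _ :: l, x => evL l x + x * devL l x

/-- The second derivative of `evL`. -/
noncomputable def dev2L : List ℤ → ℝ → ℝ
  | [], _ => 0
  | _ :: l, x => 2 * devL l x + x * dev2L l x

lemma hasDerivAt_evL (l : List ℤ) (x : ℝ) : HasDerivAt (evL l) (devL l x) x := by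
  induction l with
  | nil =>
    have : evL [] = fun _ => (0 : ℝ) := by
      funext y
      rfl
    rw [this]
    exact hasDerivAt_const x 0
  | cons a l ih =>
    have : evL (a :: l) = fun y => (a : ℝ) + y * evL l y := by
      funext y
      rfl
    rw [this]
    have h := ((hasDerivAt_id' x).fun_mul ih).const_add (a : ℝ)
    exact h.congr_deriv (by simp [devL])

lemma hasDerivAt_devL (l : List ℤ) (x : ℝ) : HasDerivAt (devL l) (dev2L l x) x := by
  induction l with
  | nil =>
    have : devL [] = fun _ => (0 : ℝ) := by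
      funext y
      rfl
    rw [this]
    exact hasDerivAt_const x 0
  | cons a l ih =>
    have : devL (a :: l) = fun y => evL l y + y * devL l y := by
      funext y
      rfl
    rw [this]
    have h := (hasDerivAt_evL l x).fun_add ((hasDerivAt_id' x).fun_mul ih)
    exact h.congr_deriv (by simp [dev2L]; ring)

/-- Coefficients of `(M + x) T(x) + c`. -/
def stepL (M : ℤ) : ℤ → List ℤ → List ℤ
  | c, [] => [c]
  | c, t :: ts => (c + M * t) :: stepL M t ts

lemma evL_stepL (M c : ℤ) (T : List ℤ) (x : ℝ) :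
    evL (stepL M c T) x = (c : ℝ) + ((M : ℝ) + x) * evL T x := by
  induction T generalizing c with
  | nil => simp [stepL, evL]
  | cons t ts ih =>
    simp only [stepL, evL, ih]
    push_cast
    ring

/-- Coefficients of the polynomial `l ((M + x) / 2^K)` multiplied by `2^(K * length)`. -/
def shiftT (K : ℕ) (M : ℤ) : List ℤ → List ℤ
  | [] => []
  | a :: l => stepL M (a * ((2 ^ (K * (l.length + 1)) : ℕ) : ℤ)) (shiftT K M l)

lemma evL_shiftT (K : ℕ) (M : ℤ) (l : List ℤ) (x : ℝ) :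
    evL (shiftT K M l) x = evL l (((M : ℝ) + x) / 2 ^ K) * 2 ^ (K * l.length) := by
  induction l with
  | nil => simp [shiftT, evL]
  | cons a l ih =>
    simp only [shiftT, evL_stepL, ih, evL, List.length_cons]
    have h2 : (2 : ℝ) ^ K ≠ 0 := by positivity
    have e : (2 : ℝ) ^ (K * (l.length + 1)) = 2 ^ (K * l.length) * 2 ^ K := by
      rw [← pow_add]
      congr 1
    push_cast
    rw [e]
    field_simp

/-- The sum of the absolute values of the coefficients. -/
def tailAbs : List ℤ → ℕ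
  | [] => 0
  | a :: l => Nat.add a.natAbs (tailAbs l)

lemma abs_evL_le (l : List ℤ) {x : ℝ} (hx : |x| ≤ 1) : |evL l x| ≤ (tailAbs l : ℝ) := by
  induction l with
  | nil => simp [evL, tailAbs]
  | cons a l ih =>
    simp only [evL, tailAbs]
    have h1 : |(a : ℝ)| = (a.natAbs : ℝ) := by
      rw [Nat.cast_natAbs, Int.cast_abs]
    have h2 : |x * evL l x| ≤ (tailAbs l : ℝ) := by
      rw [abs_mul]
      calc |x| * |evL l x| ≤ 1 * (tailAbs l : ℝ) := by
            apply mul_le_mul hx ih (abs_nonneg _) (by norm_num)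
        _ = _ := one_mul _
    have h3 := abs_add_le (a : ℝ) (x * evL l x)
    show _ ≤ ((a.natAbs + tailAbs l : ℕ) : ℝ)
    push_cast
    rw [h1] at h3
    linarith

lemma evL_split (T : List ℤ) (x : ℝ) :
    evL T x = ((T.headD 0 : ℤ) : ℝ) + x * ((T.tail.headD 0 : ℤ) : ℝ) + x ^ 2 * evL T.tail.tail x := by
  match T with
  | [] => simp [evL]
  | [a] => simp [evL]
  | a :: b :: l =>
    simp [evL]
    ring

/-- The test `B ≤ e`. -/
def dom (e : ℤ) (B : ℕ) : Bool :=
  match e with
  | Int.ofNat n => Nat.ble B n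
  | Int.negSucc _ => false

lemma dom_sound {e : ℤ} {B : ℕ} (h : dom e B = true) : (B : ℝ) ≤ (e : ℝ) := by
  match e, h with
  | Int.ofNat n, h =>
    have h1 : B ≤ n := Nat.le_of_ble_eq_true h
    have : (B : ℝ) ≤ n := by exact_mod_cast h1
    simpa using this

lemma dom_bound {e0 e1 : ℤ} {N : ℕ} {r x : ℝ} (h : dom e0 (Nat.add e1.natAbs N) = true)
    (hx : |x| ≤ 1) (hr : |r| ≤ (N : ℝ)) : 0 ≤ (e0 : ℝ) + x * (e1 : ℝ) + x ^ 2 * r := by
  have h0 := dom_sound h
  have hN : ((Nat.add e1.natAbs N : ℕ) : ℝ) = |(e1 : ℝ)| + (N : ℝ) := by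
    show ((e1.natAbs + N : ℕ) : ℝ) = _
    push_cast
    rw [Nat.cast_natAbs, Int.cast_abs]
  rw [hN] at h0
  have h1 : |x * (e1 : ℝ)| ≤ |(e1 : ℝ)| := by
    rw [abs_mul]
    calc |x| * |(e1 : ℝ)| ≤ 1 * |(e1 : ℝ)| := mul_le_mul_of_nonneg_right hx (abs_nonneg _)
      _ = _ := one_mul _
  have hx2 : x ^ 2 ≤ 1 := by
    have := abs_le.mp hx
    nlinarith
  have h2 : |x ^ 2 * r| ≤ (N : ℝ) := by
    rw [abs_mul, abs_of_nonneg (sq_nonneg x)]
    calc x ^ 2 * |r| ≤ 1 * (N : ℝ) := mul_le_mul hx2 hr (abs_nonneg _) (by norm_num)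
      _ = _ := one_mul _
  have h3 := abs_le.mp h1
  have h4 := abs_le.mp h2
  linarith [h3.1, h4.1]

/-! ### Logarithm bounds at the centre of a cell -/

/-- Lower bound for `log (M / 2^K)`, scale `FS`. -/
def logLo (K M : ℕ) : ℤ :=
  cond (Nat.ble (2 ^ K) M) (Int.ofNat (logDn M (2 ^ K))) (Int.neg (Int.ofNat (logUp (2 ^ K) M)))

/-- Upper bound for `log (M / 2^K)`, scale `FS`. -/
def logHi (K M : ℕ) : ℤ :=
  cond (Nat.ble (2 ^ K) M) (Int.ofNat (logUp M (2 ^ K))) (Int.neg (Int.ofNat (logDn (2 ^ K) M)))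

lemma logLo_le {K M : ℕ} (hM : 1 ≤ M) : ((logLo K M : ℤ) : ℝ) / FS ≤ log ((M : ℝ) / 2 ^ K) := by
  unfold logLo
  have h2 : 0 < 2 ^ K := by positivity
  cases hc : Nat.ble (2 ^ K) M
  · have hle : M ≤ 2 ^ K := by
      have := Nat.not_le.mp (fun h => by simp [Nat.ble_eq_true_of_le h] at hc : ¬ 2 ^ K ≤ M)
      omega
    have h := le_logUp (a := 2 ^ K) (b := M) hM hle
    unfold Hi at h
    have e : log ((M : ℝ) / 2 ^ K) = - log (((2 ^ K : ℕ) : ℝ) / (M : ℝ)) := by
      rw [← log_inv, inv_div]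
      push_cast
      rfl
    rw [e]
    simp only [cond_false]
    have e2 : (((Int.neg (Int.ofNat (logUp (2 ^ K) M)) : ℤ)) : ℝ) = -(logUp (2 ^ K) M : ℝ) := by
      show (((-((logUp (2 ^ K) M : ℕ) : ℤ) : ℤ)) : ℝ) = _
      push_cast
      rfl
    rw [e2, neg_div]
    linarith
  · have hle : 2 ^ K ≤ M := Nat.le_of_ble_eq_true hc
    have h := logDn_le (a := M) (b := 2 ^ K) h2 hle
    unfold Lo at h
    simp only [cond_true]
    have e2 : (((Int.ofNat (logDn M (2 ^ K)) : ℤ)) : ℝ) = (logDn M (2 ^ K) : ℝ) := by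
      simp
    rw [e2]
    push_cast at h
    exact h

lemma le_logHi {K M : ℕ} (hM : 1 ≤ M) : log ((M : ℝ) / 2 ^ K) ≤ ((logHi K M : ℤ) : ℝ) / FS := by
  unfold logHi
  have h2 : 0 < 2 ^ K := by positivity
  cases hc : Nat.ble (2 ^ K) M
  · have hle : M ≤ 2 ^ K := by
      have := Nat.not_le.mp (fun h => by simp [Nat.ble_eq_true_of_le h] at hc : ¬ 2 ^ K ≤ M)
      omega
    have h := logDn_le (a := 2 ^ K) (b := M) hM hle
    unfold Lo at h
    have e : log ((M : ℝ) / 2 ^ K) = - log (((2 ^ K : ℕ) : ℝ) / (M : ℝ)) := by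
      rw [← log_inv, inv_div]
      push_cast
      rfl
    rw [e]
    simp only [cond_false]
    have e2 : (((Int.neg (Int.ofNat (logDn (2 ^ K) M)) : ℤ)) : ℝ) = -(logDn (2 ^ K) M : ℝ) := by
      show (((-((logDn (2 ^ K) M : ℕ) : ℤ) : ℤ)) : ℝ) = _
      push_cast
      rfl
    rw [e2, neg_div]
    linarith
  · have hle : 2 ^ K ≤ M := Nat.le_of_ble_eq_true hc
    have h := le_logUp (a := M) (b := 2 ^ K) h2 hle
    unfold Hi at h
    simp only [cond_true]
    have e2 : (((Int.ofNat (logUp M (2 ^ K)) : ℤ)) : ℝ) = (logUp M (2 ^ K) : ℝ) := by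
      simp
    rw [e2]
    push_cast at h
    exact h

/-- Tangent bound from below for `z log z`. -/
lemma tangent_lower {K M : ℕ} {L : ℤ} {x : ℝ} (hM : 1 ≤ M)
    (hL : (L : ℝ) / FS ≤ log ((M : ℝ) / 2 ^ K)) (hz : 0 < ((M : ℝ) + x) / 2 ^ K) :
    ((M : ℝ) * L + x * ((L : ℝ) + FS)) / (2 ^ K * FS) ≤
      (((M : ℝ) + x) / 2 ^ K) * log (((M : ℝ) + x) / 2 ^ K) := by
  set z : ℝ := ((M : ℝ) + x) / 2 ^ K with hzd
  have hM' : (1 : ℝ) ≤ M := by exact_mod_cast hM
  have h2 : (0 : ℝ) < 2 ^ K := by positivity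
  have hS := FS_pos
  set c : ℝ := (M : ℝ) / 2 ^ K with hc
  have hc0 : 0 < c := by positivity
  have hlog : log c + 1 - c / z ≤ log z := by
    have h1 := Real.one_sub_inv_le_log_of_pos (div_pos hz hc0)
    rw [Real.log_div hz.ne' hc0.ne', inv_div] at h1
    linarith
  have h3 : z * (log c + 1 - c / z) ≤ z * log z := mul_le_mul_of_nonneg_left hlog hz.le
  have e3 : z * (log c + 1 - c / z) = z * log c + z - c := by
    field_simp
  rw [e3] at h3
  have h4 : z * ((L : ℝ) / FS) ≤ z * log c := mul_le_mul_of_nonneg_left hL hz.le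
  have e4 : ((M : ℝ) * L + x * ((L : ℝ) + FS)) / (2 ^ K * FS) = z * ((L : ℝ) / FS) + z - c := by
    rw [hzd, hc]
    field_simp
    ring
  rw [e4]
  linarith

/-- Tangent bound from above for `z log z`. -/
lemma tangent_upper {K M : ℕ} {U W : ℤ} {x : ℝ} (hM : 1 ≤ M)
    (hU : log ((M : ℝ) / 2 ^ K) ≤ (U : ℝ) / FS) (hW : 1 / (M : ℝ) ≤ (W : ℝ) / FS) (hx : |x| ≤ 1)
    (hz : 0 < ((M : ℝ) + x) / 2 ^ K) :
    (((M : ℝ) + x) / 2 ^ K) * log (((M : ℝ) + x) / 2 ^ K) ≤
      ((M : ℝ) * U + W + x * ((U : ℝ) + FS)) / (2 ^ K * FS) := by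
  set z : ℝ := ((M : ℝ) + x) / 2 ^ K with hzd
  have hM' : (1 : ℝ) ≤ M := by exact_mod_cast hM
  have hM0 : (0 : ℝ) < M := by linarith
  have h2 : (0 : ℝ) < 2 ^ K := by positivity
  have hS := FS_pos
  set c : ℝ := (M : ℝ) / 2 ^ K with hc
  have hc0 : 0 < c := by positivity
  have hlog : log z ≤ log c + z / c - 1 := by
    have h1 := Real.log_le_sub_one_of_pos (div_pos hz hc0)
    rw [Real.log_div hz.ne' hc0.ne'] at h1
    linarith
  have h3 : z * log z ≤ z * (log c + z / c - 1) := mul_le_mul_of_nonneg_left hlog hz.le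
  have h4 : z * log c ≤ z * ((U : ℝ) / FS) := mul_le_mul_of_nonneg_left hU hz.le
  have hx2 : x ^ 2 ≤ 1 := by
    have := abs_le.mp hx
    nlinarith
  have h5 : x ^ 2 / (M : ℝ) ≤ (W : ℝ) / FS := by
    refine le_trans ?_ hW
    exact div_le_div_of_nonneg_right hx2 hM0.le
  have e5 : z * (z / c) = ((M : ℝ) + 2 * x + x ^ 2 / (M : ℝ)) / 2 ^ K := by
    rw [hzd, hc]
    field_simp
    ring
  have h6 : z * (z / c) ≤ ((M : ℝ) + 2 * x + (W : ℝ) / FS) / 2 ^ K := by
    rw [e5]
    apply div_le_div_of_nonneg_right _ h2.le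
    linarith
  have e6 : ((M : ℝ) * U + W + x * ((U : ℝ) + FS)) / (2 ^ K * FS)
      = z * ((U : ℝ) / FS) + ((M : ℝ) + 2 * x + (W : ℝ) / FS) / 2 ^ K - z := by
    rw [hzd]
    field_simp
    ring
  rw [e6]
  have e7 : z * (log c + z / c - 1) = z * log c + z * (z / c) - z := by
    ring
  linarith

/-! ### Cell checks -/

/-- The comparison of the polynomial with the tangent from below. -/
def chkLowAux (T : List ℤ) (DS Wp : ℤ) (M L F : ℤ) : Bool :=
  dom (M * L * DS - T.headD 0 * Wp)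
    (Nat.add ((L + F) * DS - T.tail.headD 0 * Wp).natAbs (Nat.mul Wp.natAbs (tailAbs T.tail.tail)))

/-- The polynomial `q / D` lies below `z log z` on the cell. -/
def chkLow (q : List ℤ) (D : ℕ) (K M : ℕ) : Bool :=
  chkLowAux (shiftT K M q) ((D * 2 ^ (K * q.length) : ℕ) : ℤ) ((2 ^ K * FS : ℕ) : ℤ) M (logLo K M) (FS : ℕ)

/-- The comparison of the polynomial with the tangent from above. -/
def chkUpAux (T : List ℤ) (DS Wp : ℤ) (M U W F : ℤ) : Bool :=
  dom (T.headD 0 * Wp - (M * U + W) * DS)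
    (Nat.add (T.tail.headD 0 * Wp - (U + F) * DS).natAbs (Nat.mul Wp.natAbs (tailAbs T.tail.tail)))

/-- The polynomial `q / D` lies above `z log z` on the cell. -/
def chkUp (q : List ℤ) (D : ℕ) (K M : ℕ) : Bool :=
  chkUpAux (shiftT K M q) ((D * 2 ^ (K * q.length) : ℕ) : ℤ) ((2 ^ K * FS : ℕ) : ℤ) M (logHi K M)
    ((FS / M + 1 : ℕ) : ℤ) (FS : ℕ)

/-- The polynomial `q` is nonnegative on the cell. -/
def chkPosAux (T : List ℤ) : Bool :=
  dom (T.headD 0) (Nat.add (T.tail.headD 0).natAbs (tailAbs T.tail.tail))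

/-- The polynomial `q` is nonnegative on the cell. -/
def chkPos (q : List ℤ) (K M : ℕ) : Bool := chkPosAux (shiftT K M q)

/-- Local coordinate on a cell. -/
lemma cell_coord {K M : ℕ} {z : ℝ} (h1 : ((M : ℝ) - 1) / 2 ^ K ≤ z) (h2 : z ≤ ((M : ℝ) + 1) / 2 ^ K) :
    ∃ x : ℝ, |x| ≤ 1 ∧ z = ((M : ℝ) + x) / 2 ^ K := by
  have h3 : (0 : ℝ) < 2 ^ K := by positivity
  refine ⟨z * 2 ^ K - M, ?_, ?_⟩
  · rw [div_le_iff₀ h3] at h1
    rw [le_div_iff₀ h3] at h2
    rw [abs_le]
    constructor <;> linarith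
  · field_simp
    ring

lemma chkLow_sound {q : List ℤ} {D K M : ℕ} (hD : 0 < D) (hM : 1 ≤ M) (h : chkLow q D K M = true)
    {z : ℝ} (hz0 : 0 < z) (h1 : ((M : ℝ) - 1) / 2 ^ K ≤ z) (h2 : z ≤ ((M : ℝ) + 1) / 2 ^ K) :
    evL q z / D ≤ z * log z := by
  obtain ⟨x, hx, rfl⟩ := cell_coord h1 h2
  set z : ℝ := ((M : ℝ) + x) / 2 ^ K with hzd
  unfold chkLow chkLowAux at h
  set T := shiftT K M q with hT
  have hev : evL T x = evL q z * 2 ^ (K * q.length) := by
    have := evL_shiftT K M q x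
    rw [← hT] at this
    simpa using this
  have hb := dom_bound (r := - ((2 ^ K * FS : ℕ) : ℝ) * evL T.tail.tail x) (N := Nat.mul (Int.natAbs ((2 ^ K * FS : ℕ) : ℤ)) (tailAbs T.tail.tail)) (x := x) h hx (by
    have h3 := abs_evL_le T.tail.tail hx
    rw [abs_mul, abs_neg, Nat.abs_cast]
    show _ ≤ ((Nat.mul _ _ : ℕ) : ℝ)
    rw [Int.natAbs_natCast]
    show _ ≤ (((2 ^ K * FS) * tailAbs T.tail.tail : ℕ) : ℝ)
    rw [Nat.cast_mul (2 ^ K * FS) (tailAbs T.tail.tail)]
    exact mul_le_mul_of_nonneg_left h3 (Nat.cast_nonneg _))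
  have hsp := evL_split T x
  have hL := logLo_le (K := K) hM
  have htan := tangent_lower (x := x) hM hL hz0
  have hD' : (0 : ℝ) < D := by exact_mod_cast hD
  have h3 : (0 : ℝ) < 2 ^ (K * q.length) := by positivity
  have h4 : (0 : ℝ) < 2 ^ K := by positivity
  have hS := FS_pos
  refine le_trans ?_ htan
  rw [div_le_div_iff₀ hD' (by positivity)]
  have hfinal : evL T x * (2 ^ K * FS) ≤ ((M : ℝ) * (logLo K M : ℝ) + x * ((logLo K M : ℝ) + FS)) * (D * 2 ^ (K * q.length)) := by
    push_cast at hb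
    rw [hsp]
    nlinarith [hb]
  rw [hev] at hfinal
  have e : evL q z * 2 ^ (K * q.length) * (2 ^ K * FS) = (evL q z * (2 ^ K * FS)) * 2 ^ (K * q.length) := by
    ring
  rw [e] at hfinal
  have e2 : ((M : ℝ) * (logLo K M : ℝ) + x * ((logLo K M : ℝ) + FS)) * (D * 2 ^ (K * q.length))
      = (((M : ℝ) * (logLo K M : ℝ) + x * ((logLo K M : ℝ) + FS)) * D) * 2 ^ (K * q.length) := by
    ring
  rw [e2] at hfinal
  exact le_of_mul_le_mul_right hfinal h3

lemma chkUp_sound {q : List ℤ} {D K M : ℕ} (hD : 0 < D) (hM : 1 ≤ M) (h : chkUp q D K M = true)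
    {z : ℝ} (hz0 : 0 < z) (h1 : ((M : ℝ) - 1) / 2 ^ K ≤ z) (h2 : z ≤ ((M : ℝ) + 1) / 2 ^ K) :
    z * log z ≤ evL q z / D := by
  obtain ⟨x, hx, rfl⟩ := cell_coord h1 h2
  set z : ℝ := ((M : ℝ) + x) / 2 ^ K with hzd
  unfold chkUp chkUpAux at h
  set T := shiftT K M q with hT
  have hev : evL T x = evL q z * 2 ^ (K * q.length) := by
    have := evL_shiftT K M q x
    rw [← hT] at this
    simpa using this
  have hb := dom_bound (r := ((2 ^ K * FS : ℕ) : ℝ) * evL T.tail.tail x) (N := Nat.mul (Int.natAbs ((2 ^ K * FS : ℕ) : ℤ)) (tailAbs T.tail.tail)) (x := x) h hx (by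
    have h3 := abs_evL_le T.tail.tail hx
    rw [abs_mul, Nat.abs_cast]
    show _ ≤ ((Nat.mul _ _ : ℕ) : ℝ)
    rw [Int.natAbs_natCast]
    show _ ≤ (((2 ^ K * FS) * tailAbs T.tail.tail : ℕ) : ℝ)
    rw [Nat.cast_mul (2 ^ K * FS) (tailAbs T.tail.tail)]
    exact mul_le_mul_of_nonneg_left h3 (Nat.cast_nonneg _))
  have hsp := evL_split T x
  have hU := le_logHi (K := K) hM
  have hM' : (0 : ℝ) < M := by
    have : (1 : ℝ) ≤ M := by exact_mod_cast hM
    linarith
  have hS := FS_pos
  have hW : 1 / (M : ℝ) ≤ (((FS / M + 1 : ℕ) : ℤ) : ℝ) / FS := by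
    rw [div_le_div_iff₀ hM' hS]
    have := le_natDiv_succ (a := FS) (b := M) (by omega)
    rw [div_le_iff₀ hM'] at this
    have e3 : (((FS / M + 1 : ℕ) : ℤ) : ℝ) = ((FS / M + 1 : ℕ) : ℝ) := Int.cast_natCast _
    rw [e3]
    linarith
  have htan := tangent_upper (x := x) hM hU hW hx hz0
  have hD' : (0 : ℝ) < D := by exact_mod_cast hD
  have h3 : (0 : ℝ) < 2 ^ (K * q.length) := by positivity
  have h4 : (0 : ℝ) < 2 ^ K := by positivity
  refine le_trans htan ?_
  rw [div_le_div_iff₀ (by positivity) hD']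
  have hfinal : ((M : ℝ) * (logHi K M : ℝ) + (((FS / M + 1 : ℕ) : ℤ) : ℝ) + x * ((logHi K M : ℝ) + FS)) * (D * 2 ^ (K * q.length)) ≤ evL T x * (2 ^ K * FS) := by
    push_cast at hb ⊢
    rw [hsp]
    nlinarith [hb]
  rw [hev] at hfinal
  have e : evL q z * 2 ^ (K * q.length) * (2 ^ K * FS) = (evL q z * (2 ^ K * FS)) * 2 ^ (K * q.length) := by
    ring
  rw [e] at hfinal
  have e2 : ((M : ℝ) * (logHi K M : ℝ) + (((FS / M + 1 : ℕ) : ℤ) : ℝ) + x * ((logHi K M : ℝ) + FS)) * (D * 2 ^ (K * q.length))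
      = (((M : ℝ) * (logHi K M : ℝ) + (((FS / M + 1 : ℕ) : ℤ) : ℝ) + x * ((logHi K M : ℝ) + FS)) * D) * 2 ^ (K * q.length) := by
    ring
  rw [e2] at hfinal
  exact le_of_mul_le_mul_right hfinal h3

lemma chkPos_sound {q : List ℤ} {K M : ℕ} (h : chkPos q K M = true)
    {z : ℝ} (h1 : ((M : ℝ) - 1) / 2 ^ K ≤ z) (h2 : z ≤ ((M : ℝ) + 1) / 2 ^ K) :
    0 ≤ evL q z := by
  obtain ⟨x, hx, rfl⟩ := cell_coord h1 h2
  set z : ℝ := ((M : ℝ) + x) / 2 ^ K with hzd
  unfold chkPos chkPosAux at h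
  set T := shiftT K M q with hT
  have hev : evL T x = evL q z * 2 ^ (K * q.length) := by
    have := evL_shiftT K M q x
    rw [← hT] at this
    simpa using this
  have hb := dom_bound (r := evL T.tail.tail x) (x := x) h hx (abs_evL_le T.tail.tail hx)
  have hsp := evL_split T x
  have h3 : (0 : ℝ) < 2 ^ (K * q.length) := by positivity
  have h4 : 0 ≤ evL T x := by
    rw [hsp]
    linarith
  rw [hev] at h4
  exact nonneg_of_mul_nonneg_left h4 h3

/-! ### The walker -/

/-- Adaptive bisection of the cell with centre `M / 2^K` and radius `1 / 2^K`. -/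
def walk (chk : ℕ → ℕ → Bool) : ℕ → ℕ → ℕ → Bool
  | 0, _, _ => false
  | f + 1, K, M => cond (chk K M) true
      (cond (walk chk f (K + 1) (2 * M - 1)) (walk chk f (K + 1) (2 * M + 1)) false)

lemma walk_sound {Q : ℝ → Prop} {chk : ℕ → ℕ → Bool}
    (hchk : ∀ K M, 1 ≤ M → chk K M = true → ∀ z : ℝ, ((M : ℝ) - 1) / 2 ^ K ≤ z →
      z ≤ ((M : ℝ) + 1) / 2 ^ K → Q z)
    (f K M : ℕ) (hM : 1 ≤ M) (h : walk chk f K M = true)
    (z : ℝ) (h1 : ((M : ℝ) - 1) / 2 ^ K ≤ z) (h2 : z ≤ ((M : ℝ) + 1) / 2 ^ K) : Q z := by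
  induction f generalizing K M with
  | zero => simp [walk] at h
  | succ f ih =>
    simp only [walk] at h
    cases hc : chk K M
    · rw [hc] at h
      simp only [cond_false] at h
      cases hw : walk chk f (K + 1) (2 * M - 1)
      · rw [hw] at h
        simp at h
      · rw [hw] at h
        simp only [cond_true] at h
        have h3 : (0 : ℝ) < 2 ^ K := by positivity
        have e1 : (((2 * M - 1 : ℕ)) : ℝ) = 2 * (M : ℝ) - 1 := by
          rw [Nat.cast_sub (by omega)]
          push_cast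
          ring
        have e2 : (((2 * M + 1 : ℕ)) : ℝ) = 2 * (M : ℝ) + 1 := by
          push_cast
          ring
        rcases le_total z ((M : ℝ) / 2 ^ K) with hz | hz
        · refine ih (K + 1) (2 * M - 1) (by omega) hw ?_ ?_
          · rw [e1, pow_succ]
            refine le_trans (le_of_eq ?_) h1
            field_simp
            ring
          · rw [e1, pow_succ]
            refine le_trans hz (le_of_eq ?_)
            field_simp
            ring
        · refine ih (K + 1) (2 * M + 1) (by omega) h ?_ ?_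
          · rw [e2, pow_succ]
            refine le_trans (le_of_eq ?_) hz
            field_simp
            ring
          · rw [e2, pow_succ]
            refine le_trans h2 (le_of_eq ?_)
            field_simp
            ring
    · exact hchk K M hM hc z h1 h2

/-! ### Convexity -/

/-- A function with nonnegative second derivative, vanishing to second order at `0`. -/
lemma nonneg_of_conv {D : Set ℝ} (hD : Convex ℝ D) (h0 : (0 : ℝ) ∈ D) {G G1 G2 : ℝ → ℝ}
    (dG : ∀ x ∈ D, HasDerivAt G (G1 x) x) (dG1 : ∀ x ∈ D, HasDerivAt G1 (G2 x) x)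
    (hG0 : G 0 = 0) (hG1 : G1 0 = 0) (h2 : ∀ x ∈ D, 0 ≤ G2 x) : ∀ x ∈ D, 0 ≤ G x := by
  have hmono : MonotoneOn G1 D := by
    apply monotoneOn_of_deriv_nonneg hD
    · exact fun x hx => (dG1 x hx).continuousAt.continuousWithinAt
    · exact fun x hx => (dG1 x (interior_subset hx)).differentiableAt.differentiableWithinAt
    · intro x hx
      rw [(dG1 x (interior_subset hx)).deriv]
      exact h2 x (interior_subset hx)
  intro x hx
  rcases le_total 0 x with hx0 | hx0
  · have hconv : Convex ℝ (D ∩ Set.Ici 0) := hD.inter (convex_Ici 0)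
    have hm : MonotoneOn G (D ∩ Set.Ici 0) := by
      apply monotoneOn_of_deriv_nonneg hconv
      · exact fun y hy => (dG y hy.1).continuousAt.continuousWithinAt
      · exact fun y hy =>
          (dG y (interior_subset hy).1).differentiableAt.differentiableWithinAt
      · intro y hy
        have hy' := interior_subset hy
        rw [(dG y hy'.1).deriv]
        have := hmono h0 hy'.1 hy'.2
        rwa [hG1] at this
    have := hm ⟨h0, Set.mem_Ici.mpr le_rfl⟩ ⟨hx, hx0⟩ hx0
    rwa [hG0] at this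
  · have hconv : Convex ℝ (D ∩ Set.Iic 0) := hD.inter (convex_Iic 0)
    have hm : AntitoneOn G (D ∩ Set.Iic 0) := by
      apply antitoneOn_of_deriv_nonpos hconv
      · exact fun y hy => (dG y hy.1).continuousAt.continuousWithinAt
      · exact fun y hy =>
          (dG y (interior_subset hy).1).differentiableAt.differentiableWithinAt
      · intro y hy
        have hy' := interior_subset hy
        rw [(dG y hy'.1).deriv]
        have := hmono hy'.1 h0 hy'.2
        rwa [hG1] at this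
    have := hm ⟨hx, hx0⟩ ⟨h0, Set.mem_Iic.mpr le_rfl⟩ hx0
    rwa [hG0] at this

lemma hasDeriv_f {s : ℝ} (hs : -1 < s) :
    HasDerivAt (fun s : ℝ => (1 + s) * log (1 + s)) (log (1 + s) + 1) s := by
  have h1 : HasDerivAt (fun s : ℝ => 1 + s) 1 s := (hasDerivAt_id s).const_add 1
  have hne : 1 + s ≠ 0 := by linarith
  have h2 := h1.log hne
  have h3 := h1.fun_mul h2
  exact h3.congr_deriv (by field_simp)

lemma hasDeriv_f1 {s : ℝ} (hs : -1 < s) :
    HasDerivAt (fun s : ℝ => log (1 + s) + 1) ((1 + s)⁻¹) s := by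
  have h1 : HasDerivAt (fun s : ℝ => 1 + s) 1 s := (hasDerivAt_id s).const_add 1
  have hne : 1 + s ≠ 0 := by linarith
  have h2 := (h1.log hne).add_const (1 : ℝ)
  exact h2.congr_deriv (by field_simp)

/-- `q / D ≤ (1+s) log (1+s)` on a convex set, by convexity of the difference. -/
lemma lower_of_conv {D : Set ℝ} (hD : Convex ℝ D) (h0 : (0 : ℝ) ∈ D) (hD1 : ∀ s ∈ D, -1 < s)
    (q : List ℤ) {c : ℝ} (hc : c ≠ 0) (hq0 : evL q 0 = 0) (hq1 : devL q 0 = c)
    (h2 : ∀ s ∈ D, (1 + s) * (dev2L q s / c) ≤ 1) :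
    ∀ s ∈ D, evL q s / c ≤ (1 + s) * log (1 + s) := by
  have key := nonneg_of_conv (G := fun s => (1 + s) * log (1 + s) - evL q s / c)
    (G1 := fun s => log (1 + s) + 1 - devL q s / c) (G2 := fun s => (1 + s)⁻¹ - dev2L q s / c)
    hD h0 (fun s hs => (hasDeriv_f (hD1 s hs)).sub ((hasDerivAt_evL q s).div_const c))
    (fun s hs => (hasDeriv_f1 (hD1 s hs)).sub ((hasDerivAt_devL q s).div_const c))
    (by simp [hq0]) (by simp [hq1, hc]) (fun s hs => by
      have h1 : 0 < 1 + s := by linarith [hD1 s hs]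
      have h3 := h2 s hs
      show 0 ≤ (1 + s)⁻¹ - dev2L q s / c
      rw [sub_nonneg, ← one_div, le_div_iff₀ h1]
      linarith)
  intro s hs
  have := key s hs
  simpa using this

/-- `(1+s) log (1+s) ≤ q / D` on a convex set, by convexity of the difference. -/
lemma upper_of_conv {D : Set ℝ} (hD : Convex ℝ D) (h0 : (0 : ℝ) ∈ D) (hD1 : ∀ s ∈ D, -1 < s)
    (q : List ℤ) {c : ℝ} (hc : c ≠ 0) (hq0 : evL q 0 = 0) (hq1 : devL q 0 = c)
    (h2 : ∀ s ∈ D, 1 ≤ (1 + s) * (dev2L q s / c)) :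
    ∀ s ∈ D, (1 + s) * log (1 + s) ≤ evL q s / c := by
  have key := nonneg_of_conv (G := fun s => evL q s / c - (1 + s) * log (1 + s))
    (G1 := fun s => devL q s / c - (log (1 + s) + 1)) (G2 := fun s => dev2L q s / c - (1 + s)⁻¹)
    hD h0 (fun s hs => ((hasDerivAt_evL q s).div_const c).sub (hasDeriv_f (hD1 s hs)))
    (fun s hs => ((hasDerivAt_devL q s).div_const c).sub (hasDeriv_f1 (hD1 s hs)))
    (by simp [hq0]) (by simp [hq1, hc]) (fun s hs => by
      have h1 : 0 < 1 + s := by linarith [hD1 s hs]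
      have h3 := h2 s hs
      show 0 ≤ dev2L q s / c - (1 + s)⁻¹
      rw [sub_nonneg, ← one_div, div_le_iff₀ h1]
      linarith)
  intro s hs
  have := key s hs
  simpa using this

/-! ### The two global lower bounds -/

/-- Coefficients for `log_low2`. -/
def qL2 : List ℤ := [0, 840, 420, -140, 70, -42, 21, -5]

/-- Coefficients for `log_low3`. -/
def qL3 : List ℤ := [0, 3780, 1890, -630, 315, -189, 70, -10]

theorem log_low2 {s : ℝ} (hs : -1 < s) :
    s + s ^ 2 / 2 - s ^ 3 / 6 + s ^ 4 / 12 - s ^ 5 / 20 + s ^ 6 / 40 - s ^ 7 / 168 ≤ (1 + s) * Real.log (1 + s) := by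
  have h := lower_of_conv (D := Set.Ioi (-1)) (convex_Ioi _) (by norm_num) (fun s hs => hs) qL2
    (c := 840) (by norm_num) (by simp [evL, qL2]) (by simp [devL, evL, qL2]) (fun s _ => by
      have e : (1 + s) * (dev2L qL2 s / 840) = 1 - s ^ 4 * (1 - s) ^ 2 / 4 := by
        simp [dev2L, devL, evL, qL2]
        ring
      rw [e]
      have : 0 ≤ s ^ 4 * (1 - s) ^ 2 / 4 := by positivity
      linarith) s hs
  have e : evL qL2 s / 840 = s + s ^ 2 / 2 - s ^ 3 / 6 + s ^ 4 / 12 - s ^ 5 / 20 + s ^ 6 / 40 - s ^ 7 / 168 := by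
    simp [evL, qL2]
    ring
  rwa [e] at h

theorem log_low3 {s : ℝ} (hs : -1 < s) :
    s + s ^ 2 / 2 - s ^ 3 / 6 + s ^ 4 / 12 - s ^ 5 / 20 + s ^ 6 / 54 - s ^ 7 / 378 ≤ (1 + s) * Real.log (1 + s) := by
  have h := lower_of_conv (D := Set.Ioi (-1)) (convex_Ioi _) (by norm_num) (fun s hs => hs) qL3
    (c := 3780) (by norm_num) (by simp [evL, qL3]) (by simp [devL, evL, qL3]) (fun s _ => by
      have e : (1 + s) * (dev2L qL3 s / 3780) = 1 - s ^ 4 * (2 - s) ^ 2 / 9 := by
        simp [dev2L, devL, evL, qL3]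
        ring
      rw [e]
      have : 0 ≤ s ^ 4 * (2 - s) ^ 2 / 9 := by positivity
      linarith) s hs
  have e : evL qL3 s / 3780 = s + s ^ 2 / 2 - s ^ 3 / 6 + s ^ 4 / 12 - s ^ 5 / 20 + s ^ 6 / 54 - s ^ 7 / 378 := by
    simp [evL, qL3]
    ring
  rwa [e] at h

/-! ### The three bounds on bounded ranges -/

lemma low_of_walk {q : List ℤ} {D K M : ℕ} (hD : 0 < D) (hM : 1 ≤ M)
    (hw : walk (chkLow q D) 30 K M = true) {z : ℝ} (h1 : ((M : ℝ) - 1) / 2 ^ K ≤ z)
    (h2 : z ≤ ((M : ℝ) + 1) / 2 ^ K) (hz : 0 < z) : evL q z / D ≤ z * log z :=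
  walk_sound (Q := fun z => 0 < z → evL q z / D ≤ z * log z)
    (fun _ _ hM h z h1 h2 hz => chkLow_sound hD hM h hz h1 h2) 30 K M hM hw z h1 h2 hz

lemma up_of_walk {q : List ℤ} {D K M : ℕ} (hD : 0 < D) (hM : 1 ≤ M)
    (hw : walk (chkUp q D) 30 K M = true) {z : ℝ} (h1 : ((M : ℝ) - 1) / 2 ^ K ≤ z)
    (h2 : z ≤ ((M : ℝ) + 1) / 2 ^ K) (hz : 0 < z) : z * log z ≤ evL q z / D :=
  walk_sound (Q := fun z => 0 < z → z * log z ≤ evL q z / D)
    (fun _ _ hM h z h1 h2 hz => chkUp_sound hD hM h hz h1 h2) 30 K M hM hw z h1 h2 hz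

lemma pos_of_walk {q : List ℤ} {K M : ℕ} (hM : 1 ≤ M)
    (hw : walk (chkPos q) 30 K M = true) {z : ℝ} (h1 : ((M : ℝ) - 1) / 2 ^ K ≤ z)
    (h2 : z ≤ ((M : ℝ) + 1) / 2 ^ K) : 0 ≤ evL q z :=
  walk_sound (Q := fun z => 0 ≤ evL q z)
    (fun _ _ _ h z h1 h2 => chkPos_sound h h1 h2) 30 K M hM hw z h1 h2

/-- Coefficients for `log_lowP`, in the variable `1 + s`. -/
def qPz : List ℤ := [-129672, -1476678, 2795549, -1754289, 688864, -138845, 10975]

theorem log_lowP {s : ℝ} (hs : -1 < s) (hs3 : s ≤ 3) :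
    -(4096 / 1000000) + 978634 / 1000000 * s + 442041 / 1000000 * s ^ 2 - 167783 / 1000000 * s ^ 3
    + 159264 / 1000000 * s ^ 4 - 72995 / 1000000 * s ^ 5 + 10975 / 1000000 * s ^ 6 ≤ (1 + s) * Real.log (1 + s) := by
  have hz : 0 < 1 + s := by linarith
  have key : evL qPz (1 + s) / ((1000000 : ℕ) : ℝ) ≤ (1 + s) * log (1 + s) := by
    rcases le_total (1 + s) 2 with h | h
    · exact low_of_walk (K := 0) (M := 1) (by norm_num) (by norm_num) (by decide +kernel)
        (by norm_num; linarith) (by norm_num; linarith) hz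
    · exact low_of_walk (K := 0) (M := 3) (by norm_num) (by norm_num) (by decide +kernel)
        (by norm_num; linarith) (by norm_num; linarith) hz
  have e : evL qPz (1 + s) / ((1000000 : ℕ) : ℝ) = -(4096 / 1000000) + 978634 / 1000000 * s + 442041 / 1000000 * s ^ 2 - 167783 / 1000000 * s ^ 3
    + 159264 / 1000000 * s ^ 4 - 72995 / 1000000 * s ^ 5 + 10975 / 1000000 * s ^ 6 := by
    simp [evL, qPz]
    ring
  rwa [e] at key

/-- Coefficients for `log_upA`, in the variable `s`. -/
def qA : List ℤ := [0, 10000000, 5073892, -1384042, 695085, -1238025, 1129390, -425055, 56511]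

/-- Coefficients for `log_upA`, in the variable `1 + s`. -/
def qAz : List ℤ := [2000, -23474188, 53226091, -57173973, 42658755, -20105136, 5687083, -877143, 56511]

/-- The convexity polynomial for `log_upA`, in the variable `1 + s`. -/
def hAz : List ℤ := [-10000000, 106452182, -343043838, 511905060, -402102720, 170612490, -36840006, 3164616]

lemma evL_qA (s : ℝ) : evL qA s = evL qAz (1 + s) := by
  simp [evL, qA, qAz]
  ring

lemma dev2_qA (s : ℝ) : (1 + s) * (dev2L qA s / 10000000) = 1 + evL hAz (1 + s) / 10000000 := by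
  simp [dev2L, devL, evL, qA, hAz]
  ring

lemma hAz_pos {z : ℝ} (h1 : 15 / 16 ≤ z) (h2 : z ≤ 11 / 8) : 0 ≤ evL hAz z := by
  rcases le_total z 1 with h3 | h3
  · exact pos_of_walk (K := 5) (M := 31) (by norm_num) (by decide +kernel)
      (by norm_num; linarith) (by norm_num; linarith)
  rcases le_total z (5 / 4) with h4 | h4
  · exact pos_of_walk (K := 3) (M := 9) (by norm_num) (by decide +kernel)
      (by norm_num; linarith) (by norm_num; linarith)
  · exact pos_of_walk (K := 4) (M := 21) (by norm_num) (by decide +kernel)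
      (by norm_num; linarith) (by norm_num; linarith)

lemma upA_mid {s : ℝ} (h1 : -1 / 16 ≤ s) (h2 : s ≤ 3 / 8) :
    (1 + s) * log (1 + s) ≤ evL qA s / 10000000 := by
  refine upper_of_conv (D := Set.Icc (-1 / 16) (3 / 8)) (convex_Icc _ _) (by norm_num)
    (fun s hs => by linarith [hs.1]) qA (c := 10000000) (by norm_num) (by simp [evL, qA])
    (by simp [devL, evL, qA]) (fun s hs => ?_) s ⟨h1, h2⟩
  rw [dev2_qA]
  have := hAz_pos (z := 1 + s) (by linarith [hs.1]) (by linarith [hs.2])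
  have h3 : 0 ≤ evL hAz (1 + s) / 10000000 := by positivity
  linarith

theorem log_upA {s : ℝ} (hs : -1 < s) (hs3 : s ≤ 3) :
    (1 + s) * Real.log (1 + s) ≤ s + 5073892 / 10000000 * s ^ 2 - 1384042 / 10000000 * s ^ 3
      + 695085 / 10000000 * s ^ 4 - 1238025 / 10000000 * s ^ 5 + 1129390 / 10000000 * s ^ 6
      - 425055 / 10000000 * s ^ 7 + 56511 / 10000000 * s ^ 8 := by
  have hz : 0 < 1 + s := by linarith
  have key : (1 + s) * log (1 + s) ≤ evL qA s / 10000000 := by
    rcases le_total s (-1 / 16) with h1 | h1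
    · rw [evL_qA]
      have e10 : (10000000 : ℝ) = ((10000000 : ℕ) : ℝ) := by norm_num
      rw [e10]
      rcases le_total (1 + s) (1 / 2) with h2 | h2
      · exact up_of_walk (K := 2) (M := 1) (by norm_num) (by norm_num) (by decide +kernel)
          (by norm_num; linarith) (by norm_num; linarith) hz
      rcases le_total (1 + s) (3 / 4) with h3 | h3
      · exact up_of_walk (K := 3) (M := 5) (by norm_num) (by norm_num) (by decide +kernel)
          (by norm_num; linarith) (by norm_num; linarith) hz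
      rcases le_total (1 + s) (7 / 8) with h4 | h4
      · exact up_of_walk (K := 4) (M := 13) (by norm_num) (by norm_num) (by decide +kernel)
          (by norm_num; linarith) (by norm_num; linarith) hz
      · exact up_of_walk (K := 5) (M := 29) (by norm_num) (by norm_num) (by decide +kernel)
          (by norm_num; linarith) (by norm_num; linarith) hz
    rcases le_total s (3 / 8) with h2 | h2
    · exact upA_mid h1 h2
    · rw [evL_qA]
      have e10 : (10000000 : ℝ) = ((10000000 : ℕ) : ℝ) := by norm_num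
      rw [e10]
      rcases le_total (1 + s) (3 / 2) with h3 | h3
      · exact up_of_walk (K := 4) (M := 23) (by norm_num) (by norm_num) (by decide +kernel)
          (by norm_num; linarith) (by norm_num; linarith) hz
      rcases le_total (1 + s) 2 with h4 | h4
      · exact up_of_walk (K := 2) (M := 7) (by norm_num) (by norm_num) (by decide +kernel)
          (by norm_num; linarith) (by norm_num; linarith) hz
      · exact up_of_walk (K := 0) (M := 3) (by norm_num) (by norm_num) (by decide +kernel)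
          (by norm_num; linarith) (by norm_num; linarith) hz
  have e : evL qA s / 10000000 = s + 5073892 / 10000000 * s ^ 2 - 1384042 / 10000000 * s ^ 3
      + 695085 / 10000000 * s ^ 4 - 1238025 / 10000000 * s ^ 5 + 1129390 / 10000000 * s ^ 6
      - 425055 / 10000000 * s ^ 7 + 56511 / 10000000 * s ^ 8 := by
    simp [evL, qA]
    ring
  rwa [e] at key

/-- Coefficients for `log_upB`, in the variable `s`. -/
def qB : List ℤ := [0, 10000000, 5004368, -1628934, 959386, -705207, 311010, -52199]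

/-- Coefficients for `log_upB`, in the variable `1 + s`. -/
def qBz : List ℤ := [-1338896, -14490570, 28460885, -20565713, 10977536, -3667446, 676403, -52199]

/-- The convexity polynomial for `log_upB`, in the variable `1 + s`. -/
def hBz : List ℤ := [-10000000, 56921770, -123394278, 131730432, -73348920, 20292090, -2192358]

lemma evL_qB (s : ℝ) : evL qB s = evL qBz (1 + s) := by
  simp [evL, qB, qBz]
  ring

lemma dev2_qB (s : ℝ) : (1 + s) * (dev2L qB s / 10000000) = 1 + evL hBz (1 + s) / 10000000 := by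
  simp [dev2L, devL, evL, qB, hBz]
  ring

lemma hBz_pos {z : ℝ} (h1 : 1 / 2 ≤ z) (h2 : z ≤ 13 / 8) : 0 ≤ evL hBz z := by
  rcases le_total z 1 with h3 | h3
  · exact pos_of_walk (K := 2) (M := 3) (by norm_num) (by decide +kernel)
      (by norm_num; linarith) (by norm_num; linarith)
  rcases le_total z (3 / 2) with h4 | h4
  · exact pos_of_walk (K := 2) (M := 5) (by norm_num) (by decide +kernel)
      (by norm_num; linarith) (by norm_num; linarith)
  · exact pos_of_walk (K := 4) (M := 25) (by norm_num) (by decide +kernel)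
      (by norm_num; linarith) (by norm_num; linarith)

lemma upB_mid {s : ℝ} (h1 : -1 / 2 ≤ s) (h2 : s ≤ 5 / 8) :
    (1 + s) * log (1 + s) ≤ evL qB s / 10000000 := by
  refine upper_of_conv (D := Set.Icc (-1 / 2) (5 / 8)) (convex_Icc _ _) (by norm_num)
    (fun s hs => by linarith [hs.1]) qB (c := 10000000) (by norm_num) (by simp [evL, qB])
    (by simp [devL, evL, qB]) (fun s hs => ?_) s ⟨h1, h2⟩
  rw [dev2_qB]
  have := hBz_pos (z := 1 + s) (by linarith [hs.1]) (by linarith [hs.2])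
  have h3 : 0 ≤ evL hBz (1 + s) / 10000000 := by positivity
  linarith

theorem log_upB {s : ℝ} (hs : -3 / 4 ≤ s) (hs3 : s ≤ 9 / 4) :
    (1 + s) * Real.log (1 + s) ≤ s + 5004368 / 10000000 * s ^ 2 - 1628934 / 10000000 * s ^ 3
      + 959386 / 10000000 * s ^ 4 - 705207 / 10000000 * s ^ 5 + 311010 / 10000000 * s ^ 6
      - 52199 / 10000000 * s ^ 7 := by
  have hz : 0 < 1 + s := by linarith
  have key : (1 + s) * log (1 + s) ≤ evL qB s / 10000000 := by
    rcases le_total s (-1 / 2) with h1 | h1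
    · rw [evL_qB]
      have e10 : (10000000 : ℝ) = ((10000000 : ℕ) : ℝ) := by norm_num
      rw [e10]
      exact up_of_walk (K := 3) (M := 3) (by norm_num) (by norm_num) (by decide +kernel)
          (by norm_num; linarith) (by norm_num; linarith) hz
    rcases le_total s (5 / 8) with h2 | h2
    · exact upB_mid h1 h2
    · rw [evL_qB]
      have e10 : (10000000 : ℝ) = ((10000000 : ℕ) : ℝ) := by norm_num
      rw [e10]
      rcases le_total (1 + s) (7 / 4) with h3 | h3
      · exact up_of_walk (K := 4) (M := 27) (by norm_num) (by norm_num) (by decide +kernel)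
          (by norm_num; linarith) (by norm_num; linarith) hz
      rcases le_total (1 + s) 2 with h4 | h4
      · exact up_of_walk (K := 3) (M := 15) (by norm_num) (by norm_num) (by decide +kernel)
          (by norm_num; linarith) (by norm_num; linarith) hz
      rcases le_total (1 + s) 3 with h5 | h5
      · exact up_of_walk (K := 1) (M := 5) (by norm_num) (by norm_num) (by decide +kernel)
          (by norm_num; linarith) (by norm_num; linarith) hz
      · exact up_of_walk (K := 3) (M := 25) (by norm_num) (by norm_num) (by decide +kernel)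
          (by norm_num; linarith) (by norm_num; linarith) hz
  have e : evL qB s / 10000000 = s + 5004368 / 10000000 * s ^ 2 - 1628934 / 10000000 * s ^ 3
      + 959386 / 10000000 * s ^ 4 - 705207 / 10000000 * s ^ 5 + 311010 / 10000000 * s ^ 6
      - 52199 / 10000000 * s ^ 7 := by
    simp [evL, qB]
    ring
  rwa [e] at key

end Vale.Agent.P154.Q4
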