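import Vale.Agent.P154.Q4.SPoly
import Vale.Agent.P154.Q4.Scalar
import Vale.Agent.P154.Q4.Cert.S1
import Vale.Agent.P154.Q4.Cert.S2
import Vale.Agent.P154.Q4.Cert.S3

/-!
The subadditivity estimate for unit vectors.
-/

namespace Vale.Agent.P154.Q4

noncomputable section

open Finset

/-- The lower polynomial with `z = 2`. -/
def Phi2 (s : ℝ) : ℝ := s + s ^ 2 / 2 - s ^ 3 / 6 + s ^ 4 / 12 - s ^ 5 / 20 + s ^ 6 / 40 - s ^ 7 / 168

/-- The far lower polynomial. -/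
def PhiP (s : ℝ) : ℝ :=
  -(4096 / 1000000) + 978634 / 1000000 * s + 442041 / 1000000 * s ^ 2 - 167783 / 1000000 * s ^ 3
    + 159264 / 1000000 * s ^ 4 - 72995 / 1000000 * s ^ 5 + 10975 / 1000000 * s ^ 6

theorem low2A_eval (a b : V3) :
    Poly.eval low2A (pt a b) / (120 : Int) = (∑ i, Phi2 (vecOf a i - 1)) / 4 := by
  simp [low2A, pt, Mono.eval, Fin.sum_univ_four, vecOf, Phi2, V3.x, V3.t, V3.g]
  ring

theorem low2B_eval (a b : V3) :
    Poly.eval low2B (pt a b) / (120 : Int) = (∑ i, Phi2 (vecOf b i - 1)) / 4 := by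
  simp [low2B, pt, Mono.eval, Fin.sum_univ_four, vecOf, Phi2, V3.x, V3.t, V3.g]
  ring

theorem lowPA_eval (a b : V3) :
    Poly.eval lowPA (pt a b) / (1000000 : Int) = (∑ i, PhiP (vecOf a i - 1)) / 4 := by
  simp [lowPA, pt, Mono.eval, Fin.sum_univ_four, vecOf, PhiP, V3.x, V3.t, V3.g]
  ring

theorem lowPB_eval (a b : V3) :
    Poly.eval lowPB (pt a b) / (1000000 : Int) = (∑ i, PhiP (vecOf b i - 1)) / 4 := by
  simp [lowPB, pt, Mono.eval, Fin.sum_univ_four, vecOf, PhiP, V3.x, V3.t, V3.g]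
  ring

theorem ent_low2 {a : V3} (ha : ∀ i, 0 < vecOf a i) :
    (∑ i, Phi2 (vecOf a i - 1)) / 4 ≤ (∑ i, vecOf a i * Real.log (vecOf a i)) / 4 := by
  refine div_le_div_of_nonneg_right (Finset.sum_le_sum fun i _ => ?_) (by norm_num)
  have h := log_low2 (s := vecOf a i - 1) (by linarith [ha i])
  have e : 1 + (vecOf a i - 1) = vecOf a i := by ring
  rw [e] at h
  exact h

theorem vec_le_four {a : V3} (ha : ∀ i, 0 < vecOf a i) (i : Fin 4) : vecOf a i ≤ 4 := by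
  have h0 := ha 0
  have h1 := ha 1
  have h2 := ha 2
  have h3 := ha 3
  fin_cases i <;> simp [vecOf] at h0 h1 h2 h3 ⊢ <;> linarith

theorem ent_lowP {a : V3} (ha : ∀ i, 0 < vecOf a i) :
    (∑ i, PhiP (vecOf a i - 1)) / 4 ≤ (∑ i, vecOf a i * Real.log (vecOf a i)) / 4 := by
  refine div_le_div_of_nonneg_right (Finset.sum_le_sum fun i _ => ?_) (by norm_num)
  have h := log_lowP (s := vecOf a i - 1) (by linarith [ha i]) (by linarith [vec_le_four ha i])
  have e : 1 + (vecOf a i - 1) = vecOf a i := by ring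
  rw [e] at h
  unfold PhiP
  linarith

theorem rel_S1 : relOK CertS1.target CertS1.K low2A 120 low2B 120 = true := by
  decide +kernel

theorem rel_S2 : relOK CertS2.target CertS2.K lowPA 1000000 low2B 120 = true := by
  decide +kernel

theorem rel_S3 : relOK CertS3.target CertS3.K lowPA 1000000 lowPB 1000000 = true := by
  decide +kernel

/-- Exchange of the two vectors in a monomial. -/
def swapMono (m : Mono) : Mono := ⟨m.e3, m.e4, m.e5, m.e0, m.e1, m.e2⟩

/-- The exchanged polynomial, in sorted form. -/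
def swapPoly (P : Poly) : Poly := Poly.sum (P.map fun t => [(swapMono t.1, t.2)])

theorem eval_swapPoly (P : Poly) (a b : V3) :
    Poly.eval (swapPoly P) (pt a b) = Poly.eval P (pt b a) := by
  unfold swapPoly
  rw [Poly.eval_sum]
  induction P with
  | nil => simp [Poly.evalList]
  | cons t P ih =>
    have e : Poly.evalList ((t :: P).map fun t => [(swapMono t.1, t.2)]) (pt a b)
        = Poly.eval [(swapMono t.1, t.2)] (pt a b)
          + Poly.evalList (P.map fun t => [(swapMono t.1, t.2)]) (pt a b) := by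
      simp [Poly.evalList]
    have hm : (swapMono t.1).eval (pt a b) = t.1.eval (pt b a) := by
      simp only [swapMono, Mono.eval, pt]
      ring
    rw [e, ih, Poly.eval_cons, Poly.eval_cons, Poly.eval_nil, hm]
    simp only [add_zero]

theorem bbS_symm_check : Poly.isZero (Poly.add (swapPoly bbS) (Poly.smul (-1) bbS)) = true := by
  decide +kernel

theorem bbS_symm (a b : V3) : Poly.eval bbS (pt b a) = Poly.eval bbS (pt a b) := by
  have h := Poly.eval_of_isZero bbS_symm_check (pt a b)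
  rw [Poly.eval_add, Poly.eval_smul, eval_swapPoly] at h
  push_cast at h
  linarith

theorem rVal_symm (a b : V3) (lowA lowB : ℝ) : rVal b a lowB lowA = rVal a b lowA lowB := by
  unfold rVal
  rw [bbS_symm a b]
  ring

section multipliers

variable (a b : V3)

theorem eval_1m_xa : Poly.eval [(⟨0,0,0,0,0,0⟩, 1), (⟨1,0,0,0,0,0⟩, -1)] (pt a b) = 1 - a.x := by
  simp [pt, Mono.eval]
  ring

theorem eval_1m_xb : Poly.eval [(⟨0,0,0,0,0,0⟩, 1), (⟨0,0,0,1,0,0⟩, -1)] (pt a b) = 1 - b.x := by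
  simp [pt, Mono.eval]
  ring

theorem eval_xa_m1 : Poly.eval [(⟨0,0,0,0,0,0⟩, -1), (⟨1,0,0,0,0,0⟩, 1)] (pt a b) = a.x - 1 := by
  simp [pt, Mono.eval]
  ring

theorem eval_xb_m1 : Poly.eval [(⟨0,0,0,0,0,0⟩, -1), (⟨0,0,0,1,0,0⟩, 1)] (pt a b) = b.x - 1 := by
  simp [pt, Mono.eval]
  ring

theorem eval_P2a : Poly.eval [(⟨0,0,0,0,0,0⟩, 3), (⟨1,0,0,0,0,0⟩, -1)] (pt a b) = 3 - a.x := by
  simp [pt, Mono.eval]
  ring

theorem eval_P2b : Poly.eval [(⟨0,0,0,0,0,0⟩, 3), (⟨0,0,0,1,0,0⟩, -1)] (pt a b) = 3 - b.x := by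
  simp [pt, Mono.eval]
  ring

theorem eval_P3a : Poly.eval [(⟨0,0,0,0,0,0⟩, 3), (⟨0,1,0,0,0,0⟩, 6), (⟨1,0,0,0,0,0⟩, -3)] (pt a b)
    = 3 - 3 * a.x + 6 * a.t := by
  simp [pt, Mono.eval]
  ring

theorem eval_P3b : Poly.eval [(⟨0,0,0,0,0,0⟩, 3), (⟨0,0,0,0,1,0⟩, 6), (⟨0,0,0,1,0,0⟩, -3)] (pt a b)
    = 3 - 3 * b.x + 6 * b.t := by
  simp [pt, Mono.eval]
  ring

theorem eval_P4a : Poly.eval [(⟨0,0,0,0,0,0⟩, 1), (⟨0,0,1,0,0,0⟩, -4), (⟨0,1,0,0,0,0⟩, 8),
      (⟨1,0,0,0,0,0⟩, -2), (⟨2,0,0,0,0,0⟩, 1)] (pt a b)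
    = 1 - 2 * a.x + 8 * a.t + a.x ^ 2 - 4 * a.g := by
  simp [pt, Mono.eval]
  ring

theorem eval_P4b : Poly.eval [(⟨0,0,0,0,0,0⟩, 1), (⟨0,0,0,0,0,1⟩, -4), (⟨0,0,0,0,1,0⟩, 8),
      (⟨0,0,0,1,0,0⟩, -2), (⟨0,0,0,2,0,0⟩, 1)] (pt a b)
    = 1 - 2 * b.x + 8 * b.t + b.x ^ 2 - 4 * b.g := by
  simp [pt, Mono.eval]
  ring

end multipliers

theorem mults_S1 {a b : V3} (hx : a.x ≤ 1) (hx' : b.x ≤ 1) :
    ∀ P ∈ CertS1.mults, 0 ≤ Poly.eval P (pt a b) := by
  have h1 := V3.x_nonneg a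
  have h2 := V3.x_nonneg b
  have h3 := V3.g_nonneg a
  have h4 := V3.g_nonneg b
  intro P hP
  simp only [CertS1.mults, List.mem_cons, List.not_mem_nil, or_false] at hP
  rcases hP with rfl | rfl | rfl | rfl
  · simp [Mono.eval]
  · simp [pt, Mono.eval]
    positivity
  · rw [eval_1m_xb]; linarith
  · rw [eval_1m_xa]; linarith

theorem mults_S2 {a b : V3} (ha : ∀ i, 0 < vecOf a i) (hb : ∀ i, 0 < vecOf b i) (hx : 1 ≤ a.x)
    (hx' : b.x ≤ 1) : ∀ P ∈ CertS2.mults, 0 ≤ Poly.eval P (pt a b) := by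
  have h1 := V3.x_nonneg a
  have h2 := V3.x_nonneg b
  intro P hP
  simp only [CertS2.mults, List.mem_cons, List.not_mem_nil, or_false] at hP
  rcases hP with rfl | rfl | rfl | rfl | rfl | rfl | rfl | rfl
  · simp [Mono.eval]
  · simp [pt, Mono.eval]
    positivity
  · rw [eval_1m_xb]; linarith
  · rw [eval_P4b]; exact mult_P4 fun i => (hb i).le
  · rw [eval_xa_m1]; linarith
  · rw [eval_P2a]; exact mult_P2 fun i => (ha i).le
  · rw [eval_P3a]; exact mult_P3 fun i => (ha i).le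
  · rw [eval_P4a]; exact mult_P4 fun i => (ha i).le

theorem mults_S3 {a b : V3} (ha : ∀ i, 0 < vecOf a i) (hb : ∀ i, 0 < vecOf b i) (hx : 1 ≤ a.x)
    (hx' : 1 ≤ b.x) : ∀ P ∈ CertS3.mults, 0 ≤ Poly.eval P (pt a b) := by
  have h1 := V3.x_nonneg a
  have h2 := V3.x_nonneg b
  intro P hP
  simp only [CertS3.mults, List.mem_cons, List.not_mem_nil, or_false] at hP
  rcases hP with rfl | rfl | rfl | rfl | rfl | rfl | rfl | rfl | rfl | rfl
  · simp [Mono.eval]
  · simp [pt, Mono.eval]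
    positivity
  · rw [eval_xb_m1]; linarith
  · rw [eval_xa_m1]; linarith
  · rw [eval_P2b]; exact mult_P2 fun i => (hb i).le
  · rw [eval_P2a]; exact mult_P2 fun i => (ha i).le
  · rw [eval_P4b]; exact mult_P4 fun i => (hb i).le
  · rw [eval_P4a]; exact mult_P4 fun i => (ha i).le
  · rw [eval_P3b]; exact mult_P3 fun i => (hb i).le
  · rw [eval_P3a]; exact mult_P3 fun i => (ha i).le

theorem K_S1_pos : (0 : ℝ) < (CertS1.K : ℝ) := by
  unfold CertS1.K
  norm_num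

theorem K_S2_pos : (0 : ℝ) < (CertS2.K : ℝ) := by
  unfold CertS2.K
  norm_num

theorem K_S3_pos : (0 : ℝ) < (CertS3.K : ℝ) := by
  unfold CertS3.K
  norm_num

/-- The subadditivity estimate for unit vectors. -/
theorem S_unit {a b : V3} (ha : ∀ i, 0 < vecOf a i) (hb : ∀ i, 0 < vecOf b i) :
    (∑ g, yy (pv (vecOf a) (vecOf b) g)) / 24 ≤ yy (vecOf a) + yy (vecOf b)
      - gMul (vecOf b) * psi (vecOf a) - gMul (vecOf a) * psi (vecOf b) := by
  rcases le_total a.x 1 with hx | hx <;> rcases le_total b.x 1 with hx' | hx'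
  · have hT := cert_nonneg _ _ _ CertS1.check a b (mults_S1 hx hx')
    have hR := rVal_nonneg_of_cert rel_S1 K_S1_pos (by norm_num) (by norm_num) a b hT
    rw [low2A_eval, low2B_eval] at hR
    exact S_of_low ha hb (ent_low2 ha) (ent_low2 hb) hR
  · -- exchange of the roles of the vectors
    have hT := cert_nonneg _ _ _ CertS2.check b a (mults_S2 hb ha hx' hx)
    have hR := rVal_nonneg_of_cert rel_S2 K_S2_pos (by norm_num) (by norm_num) b a hT
    rw [lowPA_eval, low2B_eval, rVal_symm] at hR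
    exact S_of_low ha hb (ent_low2 ha) (ent_lowP hb) hR
  · have hT := cert_nonneg _ _ _ CertS2.check a b (mults_S2 ha hb hx hx')
    have hR := rVal_nonneg_of_cert rel_S2 K_S2_pos (by norm_num) (by norm_num) a b hT
    rw [lowPA_eval, low2B_eval] at hR
    exact S_of_low ha hb (ent_lowP ha) (ent_low2 hb) hR
  · have hT := cert_nonneg _ _ _ CertS3.check a b (mults_S3 ha hb hx hx')
    have hR := rVal_nonneg_of_cert rel_S3 K_S3_pos (by norm_num) (by norm_num) a b hT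
    rw [lowPA_eval, lowPB_eval] at hR
    exact S_of_low ha hb (ent_lowP ha) (ent_lowP hb) hR

end

end Vale.Agent.P154.Q4
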