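import Mathlib

/-!
Certificates of positive semidefiniteness for integer matrices given by their upper triangles:
subtracting squares of integer linear forms must leave a diagonally dominant matrix.
-/

namespace Vale.Agent.P154.Q4

/-- First entry of a row, zero if there is none. -/
def hd : List Int → Int
  | [] => 0
  | q :: _ => q

/-- Rest of a row. -/
def tl : List Int → List Int
  | [] => []
  | _ :: l => l

/-- Pairing of an integer row and a real vector, truncated at the shorter. -/
noncomputable def dotR : List Int → List ℝ → ℝ
  | q :: qs, y :: ys => (q : ℝ) * y + dotR qs ys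
  | _, _ => 0

@[simp] theorem dotR_nil_left (ys : List ℝ) : dotR [] ys = 0 := by
  cases ys <;> rfl

@[simp] theorem dotR_nil_right (qs : List Int) : dotR qs [] = 0 := by
  cases qs <;> rfl

@[simp] theorem dotR_cons (q : Int) (qs : List Int) (y : ℝ) (ys : List ℝ) :
    dotR (q :: qs) (y :: ys) = (q : ℝ) * y + dotR qs ys := rfl

/-- The quadratic form of a symmetric matrix given by its upper triangle. -/
noncomputable def qformU : List (List Int) → List ℝ → ℝ
  | row :: rows, y :: ys =>
    (hd row : ℝ) * y ^ 2 + 2 * y * dotR (tl row) ys + qformU rows ys
  | _, _ => 0

@[simp] theorem qformU_nil_left (ys : List ℝ) : qformU [] ys = 0 := by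
  cases ys <;> rfl

@[simp] theorem qformU_nil_right (rows : List (List Int)) : qformU rows [] = 0 := by
  cases rows <;> rfl

@[simp] theorem qformU_cons (row : List Int) (rows : List (List Int)) (y : ℝ) (ys : List ℝ) :
    qformU (row :: rows) (y :: ys)
      = (hd row : ℝ) * y ^ 2 + 2 * y * dotR (tl row) ys + qformU rows ys := rfl

/-- The row `q - c v`, a missing entry counting as zero. -/
def subRow : List Int → Int → List Int → List Int
  | qs, _, [] => qs
  | [], c, v :: vs => (-(c * v)) :: subRow [] c vs
  | q :: qs, c, v :: vs => (q - c * v) :: subRow qs c vs

theorem dotR_subRow (qs : List Int) (c : Int) (vs : List Int) (ys : List ℝ) :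
    dotR (subRow qs c vs) ys = dotR qs ys - (c : ℝ) * dotR vs ys := by
  induction vs generalizing qs ys with
  | nil =>
    cases qs <;> simp [subRow]
  | cons v vs ih =>
    cases ys with
    | nil => simp
    | cons y ys =>
      cases qs with
      | nil =>
        simp only [subRow, dotR_cons, ih, dotR_nil_left]
        push_cast
        ring
      | cons q qs =>
        simp only [subRow, dotR_cons, ih]
        push_cast
        ring

/-- The matrix `Q - v vᵀ` in upper triangular form. -/
def subOuter : List (List Int) → List Int → List (List Int)
  | rows, [] => rows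
  | [], v :: vs => ((-(v * v)) :: subRow [] v vs) :: subOuter [] vs
  | row :: rows, v :: vs => ((hd row - v * v) :: subRow (tl row) v vs) :: subOuter rows vs

theorem qformU_subOuter (rows : List (List Int)) (v : List Int) (y : List ℝ) :
    qformU (subOuter rows v) y = qformU rows y - (dotR v y) ^ 2 := by
  induction v generalizing rows y with
  | nil =>
    cases rows <;> simp [subOuter]
  | cons v vs ih =>
    cases y with
    | nil => simp
    | cons y ys =>
      cases rows with
      | nil =>
        simp only [subOuter, qformU_cons, hd, tl, ih, dotR_subRow, dotR_cons, qformU_nil_left,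
          dotR_nil_left]
        push_cast
        ring
      | cons row rows =>
        simp only [subOuter, qformU_cons, hd, tl, ih, dotR_subRow, dotR_cons]
        push_cast
        ring

theorem qformU_foldl_le (vs : List (List Int)) (rows : List (List Int)) (y : List ℝ) :
    qformU (vs.foldl subOuter rows) y ≤ qformU rows y := by
  induction vs generalizing rows with
  | nil => exact le_refl _
  | cons v vs ih =>
    refine (ih _).trans ?_
    rw [qformU_subOuter]
    nlinarith [sq_nonneg (dotR v y)]

/-- Multiplication of a matrix by an integer. -/
def scaleM (N : Int) (rows : List (List Int)) : List (List Int) :=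
  rows.map fun row => row.map fun q => N * q

theorem dotR_scale (N : Int) (qs : List Int) (ys : List ℝ) :
    dotR (qs.map fun q => N * q) ys = (N : ℝ) * dotR qs ys := by
  induction qs generalizing ys with
  | nil => simp
  | cons q qs ih =>
    cases ys with
    | nil => simp
    | cons y ys =>
      simp only [List.map_cons, dotR_cons, ih]
      push_cast
      ring

theorem hd_scale (N : Int) (qs : List Int) : hd (qs.map fun q => N * q) = N * hd qs := by
  cases qs <;> simp [hd]

theorem tl_scale (N : Int) (qs : List Int) : tl (qs.map fun q => N * q) = (tl qs).map fun q => N * q := by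
  cases qs <;> simp [tl]

theorem qformU_scale (N : Int) (rows : List (List Int)) (y : List ℝ) :
    qformU (scaleM N rows) y = (N : ℝ) * qformU rows y := by
  induction rows generalizing y with
  | nil => simp [scaleM]
  | cons row rows ih =>
    cases y with
    | nil => simp [scaleM]
    | cons y ys =>
      have := ih ys
      simp only [scaleM, List.map_cons, qformU_cons, hd_scale, tl_scale, dotR_scale] at this ⊢
      rw [this]
      push_cast
      ring

/-- Absolute value as an integer. -/
def absI (z : Int) : Int := (Int.natAbs z : Int)

theorem absI_cast (z : Int) : ((absI z : Int) : ℝ) = |(z : ℝ)| := by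
  unfold absI
  have h : (((Int.natAbs z : Nat) : Int) : ℝ) = ((|z| : Int) : ℝ) := by
    rw [Int.abs_eq_natAbs]
  rw [h]
  push_cast
  rfl

/-- Sum of absolute values. -/
def absSum : List Int → Int
  | [] => 0
  | t :: ts => absI t + absSum ts

/-- Weighted sum of squares, truncated at the shorter. -/
noncomputable def wsq : List Int → List ℝ → ℝ
  | t :: ts, y :: ys => |(t : ℝ)| * y ^ 2 + wsq ts ys
  | _, _ => 0

theorem wsq_nonneg (ts : List Int) (ys : List ℝ) : 0 ≤ wsq ts ys := by
  induction ts generalizing ys with
  | nil => cases ys <;> simp [wsq]
  | cons t ts ih =>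
    cases ys with
    | nil => simp [wsq]
    | cons y ys =>
      simp only [wsq]
      have := ih ys
      positivity

theorem absSum_nonneg (ts : List Int) : (0 : ℝ) ≤ (absSum ts : ℝ) := by
  induction ts with
  | nil => simp [absSum]
  | cons t ts ih =>
    simp only [absSum]
    push_cast
    rw [absI_cast]
    positivity

theorem dot_bound (ts : List Int) (y : ℝ) (ys : List ℝ) :
    0 ≤ 2 * y * dotR ts ys + (absSum ts : ℝ) * y ^ 2 + wsq ts ys := by
  induction ts generalizing ys with
  | nil => cases ys <;> simp [absSum, wsq]
  | cons t ts ih =>
    cases ys with
    | nil =>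
      have := absSum_nonneg (t :: ts)
      simp only [dotR_nil_right, mul_zero, zero_add, wsq, add_zero]
      positivity
    | cons z ys =>
      have h := ih ys
      simp only [dotR_cons, absSum, wsq]
      push_cast
      rw [absI_cast]
      have key : 0 ≤ 2 * y * ((t : ℝ) * z) + |(t : ℝ)| * y ^ 2 + |(t : ℝ)| * z ^ 2 := by
        rcases abs_cases (t : ℝ) with ⟨h1, h2⟩ | ⟨h1, h2⟩
        · rw [h1]
          nlinarith [mul_nonneg h2 (sq_nonneg (y + z))]
        · rw [h1]
          nlinarith [mul_nonneg (neg_nonneg.mpr h2.le) (sq_nonneg (y - z))]
      nlinarith

/-- Subtract absolute values from the diagonal entries of the following rows. -/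
def absorb : List Int → List (List Int) → List (List Int)
  | [], rows => rows
  | t :: ts, [] => [-(absI t)] :: absorb ts []
  | t :: ts, row :: rows => ((hd row - absI t) :: tl row) :: absorb ts rows

theorem qformU_absorb (ts : List Int) (rows : List (List Int)) (ys : List ℝ) :
    qformU (absorb ts rows) ys = qformU rows ys - wsq ts ys := by
  induction ts generalizing rows ys with
  | nil => cases ys <;> simp [absorb, wsq]
  | cons t ts ih =>
    cases ys with
    | nil =>
      cases rows <;> simp [wsq]
    | cons y ys =>
      cases rows with
      | nil =>
        simp only [absorb, qformU_cons, hd, tl, ih, wsq, qformU_nil_left, dotR_nil_left]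
        push_cast
        rw [absI_cast]
        ring
      | cons row rows =>
        simp only [absorb, qformU_cons, hd, tl, ih, wsq]
        push_cast
        rw [absI_cast]
        ring

/-- Whether an integer is nonnegative. -/
def nonnegI : Int → Bool
  | .ofNat _ => true
  | .negSucc _ => false

theorem nonnegI_cast {z : Int} (h : nonnegI z = true) : (0 : ℝ) ≤ (z : ℝ) := by
  cases z with
  | ofNat n => simp
  | negSucc n => exact Bool.noConfusion h

/-- Diagonal dominance with fuel. -/
def domOK : Nat → List (List Int) → Bool
  | _, [] => true
  | 0, _ :: _ => false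
  | n + 1, row :: rows =>
    nonnegI (hd row - absSum (tl row)) && domOK n (absorb (tl row) rows)

theorem domOK_nonneg (n : Nat) (rows : List (List Int)) (h : domOK n rows = true) (y : List ℝ) :
    0 ≤ qformU rows y := by
  induction n generalizing rows y with
  | zero =>
    cases rows with
    | nil => simp
    | cons row rows => exact Bool.noConfusion h
  | succ n ih =>
    cases rows with
    | nil => simp
    | cons row rows =>
      cases y with
      | nil => simp
      | cons y ys =>
        simp only [domOK, Bool.and_eq_true] at h
        have h1 := nonnegI_cast h.1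
        have h2 := ih _ h.2 ys
        rw [qformU_absorb] at h2
        have h3 := dot_bound (tl row) y ys
        push_cast at h1
        rw [qformU_cons]
        nlinarith [mul_nonneg h1 (sq_nonneg y)]

/-- Whether an integer is positive. -/
def posI : Int → Bool
  | .ofNat (_ + 1) => true
  | _ => false

theorem posI_cast {z : Int} (h : posI z = true) : (0 : ℝ) < (z : ℝ) := by
  cases z with
  | ofNat n =>
    cases n with
    | zero => exact Bool.noConfusion h
    | succ n =>
      have : (0 : ℝ) < ((n + 1 : Nat) : ℝ) := by positivity
      simpa using this
  | negSucc n => exact Bool.noConfusion h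

/-- The certificate check: `N Q` minus the squares must be diagonally dominant. -/
def psdOK (N : Int) (rows : List (List Int)) (vs : List (List Int)) : Bool :=
  posI N && domOK (rows.length + 1) (vs.foldl subOuter (scaleM N rows))

theorem psdOK_nonneg {N : Int} {rows vs : List (List Int)} (h : psdOK N rows vs = true)
    (y : List ℝ) : 0 ≤ qformU rows y := by
  simp only [psdOK, Bool.and_eq_true] at h
  have h1 := posI_cast h.1
  have h2 := domOK_nonneg _ _ h.2 y
  have h3 := qformU_foldl_le vs (scaleM N rows) y
  rw [qformU_scale] at h3
  have h4 : 0 ≤ (N : ℝ) * qformU rows y := h2.trans h3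
  exact nonneg_of_mul_nonneg_right h4 h1

end Vale.Agent.P154.Q4
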