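import Vale.Agent.P154.Q4.AvgCDefs

/-!
A kernel computation of a sum over the permutations.
-/

namespace Vale.Agent.P154.Q4

theorem AvgCa2_ok : fastOK (mulF (sq4 (aiP pg0)) (horner (eP pg0) lc2)) abS2 = true := by
  decide +kernel

end Vale.Agent.P154.Q4
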