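import Vale.Agent.P154.Q4.AvgCDefs

/-!
A kernel computation of a sum over the permutations.
-/

namespace Vale.Agent.P154.Q4

set_option maxRecDepth 100000 in
theorem AvgCt_ok : avgOK (fun g => horner (eP g) tc3) etS = true := by
  decide +kernel

end Vale.Agent.P154.Q4
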