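import Vale.Agent.P154.Q4.Avg

/-!
Sums over the symmetric group on four points, computed from the value at the identity: the
group acts on the parameters of the second vector by signed permutations of the three parameters.
-/

namespace Vale.Agent.P154.Q4

open Finset

/-- The parameters of a permuted vector. -/
noncomputable def actB (g : Equiv.Perm (Fin 4)) (b : V3) : V3 := coords fun i => vecOf b (g i)

theorem vecOf_actB (g : Equiv.Perm (Fin 4)) (b : V3) : vecOf (actB g b) = fun i => vecOf b (g i) := by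
  apply vecOf_coords
  have h := mass_vecOf b
  unfold mass at h ⊢
  rw [Equiv.sum_comp g (vecOf b)]
  exact h

theorem actB_pg0 (b : V3) : actB pg0 b = ⟨b.a1, b.a2, b.a3⟩ := by
  simp [actB, coords, vecOf, pg0]
  constructor <;> (try constructor) <;> ring

theorem actB_pg1 (b : V3) : actB pg1 b = ⟨b.a1, b.a3, b.a2⟩ := by
  simp [actB, coords, vecOf, pg1]
  constructor <;> (try constructor) <;> ring

theorem actB_pg2 (b : V3) : actB pg2 b = ⟨b.a2, b.a1, b.a3⟩ := by
  simp [actB, coords, vecOf, pg2]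
  constructor <;> (try constructor) <;> ring

theorem actB_pg3 (b : V3) : actB pg3 b = ⟨b.a2, b.a3, b.a1⟩ := by
  simp [actB, coords, vecOf, pg3]
  constructor <;> (try constructor) <;> ring

theorem actB_pg4 (b : V3) : actB pg4 b = ⟨b.a3, b.a1, b.a2⟩ := by
  simp [actB, coords, vecOf, pg4]
  constructor <;> (try constructor) <;> ring

theorem actB_pg5 (b : V3) : actB pg5 b = ⟨b.a3, b.a2, b.a1⟩ := by
  simp [actB, coords, vecOf, pg5]
  constructor <;> (try constructor) <;> ring

theorem actB_pg6 (b : V3) : actB pg6 b = ⟨b.a1, -b.a3, -b.a2⟩ := by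
  simp [actB, coords, vecOf, pg6]
  constructor <;> (try constructor) <;> ring

theorem actB_pg7 (b : V3) : actB pg7 b = ⟨b.a1, -b.a2, -b.a3⟩ := by
  simp [actB, coords, vecOf, pg7]
  constructor <;> (try constructor) <;> ring

theorem actB_pg8 (b : V3) : actB pg8 b = ⟨-b.a3, b.a1, -b.a2⟩ := by
  simp [actB, coords, vecOf, pg8]
  constructor <;> (try constructor) <;> ring

theorem actB_pg9 (b : V3) : actB pg9 b = ⟨-b.a3, -b.a2, b.a1⟩ := by
  simp [actB, coords, vecOf, pg9]
  constructor <;> (try constructor) <;> ring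

theorem actB_pg10 (b : V3) : actB pg10 b = ⟨-b.a2, b.a1, -b.a3⟩ := by
  simp [actB, coords, vecOf, pg10]
  constructor <;> (try constructor) <;> ring

theorem actB_pg11 (b : V3) : actB pg11 b = ⟨-b.a2, -b.a3, b.a1⟩ := by
  simp [actB, coords, vecOf, pg11]
  constructor <;> (try constructor) <;> ring

theorem actB_pg12 (b : V3) : actB pg12 b = ⟨b.a2, -b.a3, -b.a1⟩ := by
  simp [actB, coords, vecOf, pg12]
  constructor <;> (try constructor) <;> ring

theorem actB_pg13 (b : V3) : actB pg13 b = ⟨b.a2, -b.a1, -b.a3⟩ := by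
  simp [actB, coords, vecOf, pg13]
  constructor <;> (try constructor) <;> ring

theorem actB_pg14 (b : V3) : actB pg14 b = ⟨-b.a3, b.a2, -b.a1⟩ := by
  simp [actB, coords, vecOf, pg14]
  constructor <;> (try constructor) <;> ring

theorem actB_pg15 (b : V3) : actB pg15 b = ⟨-b.a3, -b.a1, b.a2⟩ := by
  simp [actB, coords, vecOf, pg15]
  constructor <;> (try constructor) <;> ring

theorem actB_pg16 (b : V3) : actB pg16 b = ⟨-b.a1, b.a2, -b.a3⟩ := by
  simp [actB, coords, vecOf, pg16]
  constructor <;> (try constructor) <;> ring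

theorem actB_pg17 (b : V3) : actB pg17 b = ⟨-b.a1, -b.a3, b.a2⟩ := by
  simp [actB, coords, vecOf, pg17]
  constructor <;> (try constructor) <;> ring

theorem actB_pg18 (b : V3) : actB pg18 b = ⟨b.a3, -b.a2, -b.a1⟩ := by
  simp [actB, coords, vecOf, pg18]
  constructor <;> (try constructor) <;> ring

theorem actB_pg19 (b : V3) : actB pg19 b = ⟨b.a3, -b.a1, -b.a2⟩ := by
  simp [actB, coords, vecOf, pg19]
  constructor <;> (try constructor) <;> ring

theorem actB_pg20 (b : V3) : actB pg20 b = ⟨-b.a2, b.a3, -b.a1⟩ := by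
  simp [actB, coords, vecOf, pg20]
  constructor <;> (try constructor) <;> ring

theorem actB_pg21 (b : V3) : actB pg21 b = ⟨-b.a2, -b.a1, b.a3⟩ := by
  simp [actB, coords, vecOf, pg21]
  constructor <;> (try constructor) <;> ring

theorem actB_pg22 (b : V3) : actB pg22 b = ⟨-b.a1, b.a3, -b.a2⟩ := by
  simp [actB, coords, vecOf, pg22]
  constructor <;> (try constructor) <;> ring

theorem actB_pg23 (b : V3) : actB pg23 b = ⟨-b.a1, -b.a2, b.a3⟩ := by
  simp [actB, coords, vecOf, pg23]
  constructor <;> (try constructor) <;> ring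


/-- Whether the exponents of the second vector have the same parity. -/
def parM (m : Mono) : Bool := Nat.beq (m.e3 % 2) (m.e4 % 2) && Nat.beq (m.e4 % 2) (m.e5 % 2)

/-- The terms with exponents of the second vector of the same parity. -/
def filtP (F : Poly) : Poly := F.filter fun t => parM t.1

/-- The orbit of one term under the permutations of the parameters of the second vector. -/
def orbT (t : Mono × Int) : Poly :=
  let m := t.1
  let c := t.2
  Poly.sum [[(⟨m.e0, m.e1, m.e2, m.e3, m.e4, m.e5⟩, c)], [(⟨m.e0, m.e1, m.e2, m.e3, m.e5, m.e4⟩, c)],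
    [(⟨m.e0, m.e1, m.e2, m.e4, m.e3, m.e5⟩, c)], [(⟨m.e0, m.e1, m.e2, m.e4, m.e5, m.e3⟩, c)],
    [(⟨m.e0, m.e1, m.e2, m.e5, m.e3, m.e4⟩, c)], [(⟨m.e0, m.e1, m.e2, m.e5, m.e4, m.e3⟩, c)]]

/-- The sum of the orbits of the terms. -/
def orbP (F : Poly) : Poly := Poly.sum (F.map orbT)

/-- Product, keeping only the terms with exponents of the second vector of the same parity. -/
def mulF : Poly → Poly → Poly
  | [], _ => []
  | (m, c) :: P, Q => Poly.add (filtP (Poly.mulTerm m c Q)) (mulF P Q)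

/-- The check of a sum over the group. -/
def fastOK (F P : Poly) : Bool :=
  Poly.isZero (Poly.add (Poly.smul 4 (orbP (filtP F))) (Poly.smul (-1) (substInv P)))

/-- The sum over the group of the values of a polynomial at the permuted second vector. -/
noncomputable def AV (F : Poly) (a b : V3) : ℝ := ∑ g, Poly.eval F (ptab a (actB g b))

/-- The value of the orbit of a monomial. -/
noncomputable def orbVal (m : Mono) (a b : V3) : ℝ :=
  a.a1 ^ m.e0 * a.a2 ^ m.e1 * a.a3 ^ m.e2 *
    (b.a1 ^ m.e3 * b.a2 ^ m.e4 * b.a3 ^ m.e5 + b.a1 ^ m.e3 * b.a3 ^ m.e4 * b.a2 ^ m.e5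
      + b.a2 ^ m.e3 * b.a1 ^ m.e4 * b.a3 ^ m.e5 + b.a3 ^ m.e3 * b.a1 ^ m.e4 * b.a2 ^ m.e5
      + b.a2 ^ m.e3 * b.a3 ^ m.e4 * b.a1 ^ m.e5 + b.a3 ^ m.e3 * b.a2 ^ m.e4 * b.a1 ^ m.e5)

theorem eval_orbT (t : Mono × Int) (a b : V3) :
    Poly.eval (orbT t) (ptab a b) = (t.2 : ℝ) * orbVal t.1 a b := by
  simp only [orbT, Poly.eval_sum, Poly.evalList, List.map_cons, List.map_nil, List.sum_cons,
    List.sum_nil, Poly.eval_cons, Poly.eval_nil, Mono.eval, ptab, orbVal]
  ring

/-- The sum over the group of a monomial. -/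
theorem sum_mono_aux (m : Mono) (a b : V3) :
    ∑ g, m.eval (ptab a (actB g b))
      = (1 + (-1 : ℝ) ^ m.e4 * (-1) ^ m.e5 + (-1) ^ m.e3 * (-1) ^ m.e5 + (-1) ^ m.e3 * (-1) ^ m.e4)
        * orbVal m a b := by
  rw [sum_perm]

  simp only [permList, List.map_cons, List.map_nil, List.sum_cons, List.sum_nil, actB_pg0, actB_pg1, actB_pg2, actB_pg3, actB_pg4, actB_pg5, actB_pg6, actB_pg7, actB_pg8, actB_pg9, actB_pg10, actB_pg11, actB_pg12, actB_pg13, actB_pg14, actB_pg15, actB_pg16, actB_pg17, actB_pg18, actB_pg19, actB_pg20, actB_pg21, actB_pg22, actB_pg23]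
  simp only [Mono.eval, ptab, orbVal, neg_pow b.a1, neg_pow b.a2, neg_pow b.a3]
  obtain ⟨s1, hs1⟩ : ∃ s : ℝ, s = (-1) ^ m.e3 := ⟨_, rfl⟩
  obtain ⟨s2, hs2⟩ : ∃ s : ℝ, s = (-1) ^ m.e4 := ⟨_, rfl⟩
  obtain ⟨s3, hs3⟩ : ∃ s : ℝ, s = (-1) ^ m.e5 := ⟨_, rfl⟩
  rw [← hs1, ← hs2, ← hs3]
  ring


theorem par_factor (m : Mono) :
    (1 + (-1 : ℝ) ^ m.e4 * (-1) ^ m.e5 + (-1) ^ m.e3 * (-1) ^ m.e5 + (-1) ^ m.e3 * (-1) ^ m.e4)
      = if parM m = true then 4 else 0 := by
  have key : ∀ n : ℕ, ((-1 : ℝ) ^ n = 1 ∧ n % 2 = 0) ∨ ((-1 : ℝ) ^ n = -1 ∧ n % 2 = 1) := by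
    intro n
    rcases Nat.even_or_odd n with h | h
    · left
      exact ⟨h.neg_one_pow, Nat.even_iff.mp h⟩
    · right
      exact ⟨h.neg_one_pow, Nat.odd_iff.mp h⟩
  rcases key m.e3 with ⟨a3, b3⟩ | ⟨a3, b3⟩ <;> rcases key m.e4 with ⟨a4, b4⟩ | ⟨a4, b4⟩ <;>
    rcases key m.e5 with ⟨a5, b5⟩ | ⟨a5, b5⟩ <;>
    simp only [parM, a3, a4, a5, b3, b4, b5] <;> norm_num [Nat.beq]

theorem sum_mono (m : Mono) (a b : V3) :
    ∑ g, m.eval (ptab a (actB g b)) = if parM m = true then 4 * orbVal m a b else 0 := by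
  rw [sum_mono_aux, par_factor]
  split <;> ring

theorem AV_nil (a b : V3) : AV [] a b = 0 := by
  simp [AV]

theorem AV_cons (t : Mono × Int) (F : Poly) (a b : V3) :
    AV (t :: F) a b = (t.2 : ℝ) * (∑ g, t.1.eval (ptab a (actB g b))) + AV F a b := by
  simp [AV, Finset.sum_add_distrib, Finset.mul_sum]

theorem AV_add (P Q : Poly) (a b : V3) : AV (Poly.add P Q) a b = AV P a b + AV Q a b := by
  simp [AV, Finset.sum_add_distrib]

theorem AV_filt (F : Poly) (a b : V3) : AV (filtP F) a b = AV F a b := by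
  induction F with
  | nil => rfl
  | cons t F ih =>
    unfold filtP at ih ⊢
    rw [List.filter_cons]
    split
    · rw [AV_cons, AV_cons, ih]
    · rw [AV_cons, ih, sum_mono]
      simp_all

theorem AV_mulF (P Q : Poly) (a b : V3) : AV (mulF P Q) a b = AV (Poly.mul P Q) a b := by
  induction P with
  | nil => rfl
  | cons t P ih =>
    obtain ⟨m, c⟩ := t
    simp only [mulF, Poly.mul]
    rw [AV_add, AV_add, AV_filt, ih]

theorem eval_orbP_filt (F : Poly) (a b : V3) :
    4 * Poly.eval (orbP (filtP F)) (ptab a b) = AV F a b := by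
  unfold orbP
  rw [Poly.eval_sum]
  induction F with
  | nil => simp [filtP, Poly.evalList, AV]
  | cons t F ih =>
    unfold filtP at ih ⊢
    rw [List.filter_cons]
    split
    · rename_i h
      have e : Poly.evalList ((t :: F.filter fun t => parM t.1).map orbT) (ptab a b)
          = Poly.eval (orbT t) (ptab a b)
            + Poly.evalList ((F.filter fun t => parM t.1).map orbT) (ptab a b) := by
        simp [Poly.evalList]
      rw [e, AV_cons, ← ih, sum_mono, if_pos h, eval_orbT]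
      ring
    · rename_i h
      rw [AV_cons, ← ih, sum_mono, if_neg h]
      ring

theorem AV_of_fastOK {F P : Poly} (h : fastOK F P = true) (a b : V3) :
    AV F a b = Poly.eval P (pt a b) := by
  have h0 := Poly.eval_of_isZero h (ptab a b)
  rw [Poly.eval_add, Poly.eval_smul, Poly.eval_smul, eval_substInv] at h0
  have e := eval_orbP_filt F a b
  push_cast at h0
  linarith

theorem pg0_apply (i : Fin 4) : pg0 i = i := by
  fin_cases i <;> rfl

theorem eval_uA_any (a b b' : V3) (i : Fin 4) :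
    Poly.eval (uA i) (ptab a b') = Poly.eval (uA i) (ptab a b) := by
  rw [eval_uA, eval_uA]

theorem eval_pP_act (a b : V3) (g : Equiv.Perm (Fin 4)) (i : Fin 4) :
    Poly.eval (pP pg0 i) (ptab a (actB g b)) = Poly.eval (pP g i) (ptab a b) := by
  rw [eval_pP, eval_pP, pv, pv, vecOf_actB, pg0_apply]

theorem eval_zP_act (a b : V3) (g : Equiv.Perm (Fin 4)) :
    Poly.eval (zP pg0) (ptab a (actB g b)) = Poly.eval (zP g) (ptab a b) := by
  simp only [zP, Poly.eval_add, eval_pP_act]

theorem eval_eP_act (a b : V3) (g : Equiv.Perm (Fin 4)) :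
    Poly.eval (eP pg0) (ptab a (actB g b)) = Poly.eval (eP g) (ptab a b) := by
  unfold eP
  rw [Poly.eval_add, Poly.eval_add, eval_zP_act]
  simp [Mono.eval]

end Vale.Agent.P154.Q4
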