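import Vale.Agent.P154.Q4.Avg

/-!
Sum over the permutations for the subadditivity estimate.
-/

namespace Vale.Agent.P154.Q4

/-- The Horner coefficients of the polynomial `4096 L(E / 4)`. -/
def lcS : List Int := [4096, -1024, 256, -64, 12, -1]

/-- The sum over the permutations of `12 W * 4096 L(e)` in terms of the invariants. -/
def bbS : Poly :=
  [(⟨0,0,0,0,0,0⟩, 1179648), (⟨0,0,0,1,0,0⟩, -393216), (⟨0,0,1,0,0,1⟩, 1900544), (⟨0,0,1,0,1,0⟩, -3145728), (⟨0,0,1,1,0,1⟩, -983040), (⟨0,0,1,1,1,0⟩, 2097152), (⟨0,0,1,2,0,0⟩, -589824), (⟨0,0,1,3,0,0⟩, 196608), (⟨0,1,0,0,0,1⟩, -3145728), (⟨0,1,0,0,1,0⟩, -2359296), (⟨0,1,0,1,0,0⟩, 1572864), (⟨0,1,0,1,1,0⟩, 2359296), (⟨0,1,1,0,1,1⟩, -28049408), (⟨0,1,1,0,2,0⟩, 11010048), (⟨0,1,1,1,0,1⟩, 786432), (⟨0,1,1,2,1,0⟩,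 8126464), (⟨0,1,1,3,0,0⟩, -262144), (⟨0,2,0,0,1,1⟩, 11010048), (⟨0,2,0,0,2,0⟩, 41287680), (⟨0,2,0,1,0,1⟩, -5898240), (⟨0,2,0,1,1,0⟩, -9437184), (⟨0,2,0,2,1,0⟩, -1572864), (⟨0,2,0,3,0,0⟩, 786432), (⟨1,0,0,0,0,0⟩, -393216), (⟨1,0,0,0,1,0⟩, 1572864), (⟨1,0,0,2,0,0⟩, -131072), (⟨1,0,1,0,0,1⟩, -983040), (⟨1,0,1,0,1,1⟩, 786432), (⟨1,0,1,0,2,0⟩, -5898240), (⟨1,0,1,1,0,1⟩, 2555904), (⟨1,0,1,1,1,0⟩, -1572864), (⟨1,0,1,2,0,0⟩, 196608), (⟨1,0,1,2,1,0⟩, 262144), (⟨1,0,1,3,0,0⟩, -589824), (⟨1,1,0,0,0,1⟩, 2097152), (⟨1,1,0,0,1,0⟩, 2359296), (⟨1,1,0,0,2,0⟩, -9437184), (⟨1,1,0,1,0,1⟩, -1572864), (⟨1,1,0,1,1,0⟩, 1441792), (⟨1,1,0,2,0,0⟩, 524288), (⟨1,1,0,2,1,0⟩, 655360), (⟨2,0,0,0,0,1⟩, -589824), (⟨2,0,0,1,0,0⟩, -131072), (⟨2,0,0,1,0,1⟩, 196608), (⟨2,0,0,1,1,0⟩,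 524288), (⟨2,0,0,2,0,0⟩, 163840), (⟨2,0,0,3,0,0⟩, -98304), (⟨2,1,0,0,1,1⟩, 8126464), (⟨2,1,0,0,2,0⟩, -1572864), (⟨2,1,0,1,0,1⟩, 262144), (⟨2,1,0,1,1,0⟩, 655360), (⟨2,1,0,2,1,0⟩, -3407872), (⟨2,1,0,3,0,0⟩, 131072), (⟨3,0,0,0,0,1⟩, 196608), (⟨3,0,0,0,1,1⟩, -262144), (⟨3,0,0,0,2,0⟩, 786432), (⟨3,0,0,1,0,1⟩, -589824), (⟨3,0,0,2,0,0⟩, -98304), (⟨3,0,0,2,1,0⟩, 131072), (⟨3,0,0,3,0,0⟩, 163840)]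

set_option maxRecDepth 100000 in
theorem avgS_ok : avgOK (fun g => Poly.mul (wP g) (horner (eP g) lcS)) bbS = true := by
  decide +kernel

set_option maxRecDepth 100000 in
theorem avgE_ok : avgOK (fun g => eP g) [] = true := by
  decide +kernel

end Vale.Agent.P154.Q4
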