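import Vale.Agent.P154.Q4.Coord

/-!
Normalisation of the pointwise statements to vectors of mass one, the entropy identity for the
product of two vectors of mass one, and the lower bound for the chi-squared functional.
-/

namespace Vale.Agent.P154.Q4

noncomputable section

open Finset

/-- The scalar multiple of a vector. -/
def sc (c : ℝ) (v : Fin 4 → ℝ) (i : Fin 4) : ℝ := c * v i

theorem mass_sc (c : ℝ) (v : Fin 4 → ℝ) : mass (sc c v) = c * mass v := by
  unfold mass sc
  rw [Fin.sum_univ_four, Fin.sum_univ_four]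
  ring

theorem nrm_sc {c : ℝ} (hc : 0 < c) (v : Fin 4 → ℝ) : nrm (sc c v) = nrm v := by
  funext i
  unfold nrm
  rw [mass_sc]
  unfold sc
  by_cases h : mass v = 0
  · simp [h]
  · field_simp

theorem yy_sc {c : ℝ} (hc : 0 < c) (v : Fin 4 → ℝ) : yy (sc c v) = c * yy v := by
  unfold yy
  rw [nrm_sc hc, mass_sc]
  ring

theorem gMul_sc {c : ℝ} (hc : 0 < c) (v : Fin 4 → ℝ) : gMul (sc c v) = c * gMul v := by
  unfold gMul
  rw [nrm_sc hc, mass_sc]
  ring

theorem wMul_sc {c : ℝ} (hc : 0 < c) (v : Fin 4 → ℝ) : wMul (sc c v) = c * wMul v := by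
  unfold wMul
  rw [nrm_sc hc, mass_sc]
  ring

theorem mass_pos_of_forall_pos {p : Fin 4 → ℝ} (hp : ∀ i, 0 < p i) : 0 < mass p := by
  have h0 := hp 0
  have h1 := hp 1
  have h2 := hp 2
  have h3 := hp 3
  unfold mass
  rw [Fin.sum_univ_four]
  positivity

theorem ent_sc {c : ℝ} (hc : 0 < c) {v : Fin 4 → ℝ} (hv : ∀ i, 0 < v i) :
    ent (sc c v) = c * ent v := by
  have hM := mass_pos_of_forall_pos hv
  unfold ent
  rw [mass_sc, Real.log_mul hc.ne' hM.ne']
  have hlog : ∀ i, sc c v i * Real.log (sc c v i) = c * (v i * Real.log (v i)) + c * v i * Real.log c := by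
    intro i
    unfold sc
    rw [Real.log_mul hc.ne' (hv i).ne']
    ring
  simp only [hlog]
  have hm : mass v = (v 0 + v 1 + v 2 + v 3) / 4 := by
    unfold mass
    rw [Fin.sum_univ_four]
  rw [hm, Fin.sum_univ_four, Fin.sum_univ_four]
  ring

theorem psi_sc {c : ℝ} (hc : 0 < c) {v : Fin 4 → ℝ} (hv : ∀ i, 0 < v i) :
    psi (sc c v) = c * psi v := by
  unfold psi
  rw [yy_sc hc, ent_sc hc hv]
  ring

theorem pv_sc (c d : ℝ) (u v : Fin 4 → ℝ) (g : Equiv.Perm (Fin 4)) :
    pv (sc c u) (sc d v) g = sc (c * d) (pv u v g) := by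
  funext i
  unfold pv sc
  ring

theorem sc_nrm {v : Fin 4 → ℝ} (hM : 0 < mass v) : sc (mass v) (nrm v) = v := by
  funext i
  unfold sc nrm
  field_simp

theorem mass_nrm {v : Fin 4 → ℝ} (hM : 0 < mass v) : mass (nrm v) = 1 := by
  have h := mass_sc (mass v) (nrm v)
  rw [sc_nrm hM] at h
  have : mass v * (mass (nrm v) - 1) = 0 := by linarith
  rcases mul_eq_zero.mp this with h' | h'
  · exact absurd h' hM.ne'
  · linarith

theorem nrm_pos {v : Fin 4 → ℝ} (hv : ∀ i, 0 < v i) (i : Fin 4) : 0 < nrm v i := by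
  unfold nrm
  exact div_pos (hv i) (mass_pos_of_forall_pos hv)

/-- The vector of parameters of the normalisation. -/
theorem vecOf_coords_nrm {v : Fin 4 → ℝ} (hv : ∀ i, 0 < v i) : vecOf (coords (nrm v)) = nrm v :=
  vecOf_coords (mass_nrm (mass_pos_of_forall_pos hv))

/-- It is enough to prove the subadditivity estimate for vectors of mass one. -/
theorem pointwiseS_of_unit
    (H : ∀ a b : V3, (∀ i, 0 < vecOf a i) → (∀ i, 0 < vecOf b i) →
      (∑ g : Equiv.Perm (Fin 4), yy (pv (vecOf a) (vecOf b) g)) / 24 ≤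
        yy (vecOf a) + yy (vecOf b) - gMul (vecOf b) * psi (vecOf a)
          - gMul (vecOf a) * psi (vecOf b)) : PointwiseS := by
  intro u v hu hv
  have hMu := mass_pos_of_forall_pos hu
  have hMv := mass_pos_of_forall_pos hv
  have hu' := nrm_pos hu
  have hv' := nrm_pos hv
  have h := H (coords (nrm u)) (coords (nrm v))
    (by rw [vecOf_coords_nrm hu]; exact hu') (by rw [vecOf_coords_nrm hv]; exact hv')
  rw [vecOf_coords_nrm hu, vecOf_coords_nrm hv] at h
  have eu := sc_nrm hMu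
  have ev := sc_nrm hMv
  have hsum : (∑ g : Equiv.Perm (Fin 4), yy (pv u v g))
      = mass u * mass v * ∑ g : Equiv.Perm (Fin 4), yy (pv (nrm u) (nrm v) g) := by
    rw [Finset.mul_sum]
    refine Finset.sum_congr rfl fun g _ => ?_
    conv_lhs => rw [← eu, ← ev]
    rw [pv_sc, yy_sc (mul_pos hMu hMv)]
  have e1 : yy u = mass u * yy (nrm u) := by
    conv_lhs => rw [← eu]
    exact yy_sc hMu _
  have e2 : yy v = mass v * yy (nrm v) := by
    conv_lhs => rw [← ev]
    exact yy_sc hMv _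
  have e3 : gMul u = mass u * gMul (nrm u) := by
    conv_lhs => rw [← eu]
    exact gMul_sc hMu _
  have e4 : gMul v = mass v * gMul (nrm v) := by
    conv_lhs => rw [← ev]
    exact gMul_sc hMv _
  have e5 : psi u = mass u * psi (nrm u) := by
    conv_lhs => rw [← eu]
    exact psi_sc hMu hu'
  have e6 : psi v = mass v * psi (nrm v) := by
    conv_lhs => rw [← ev]
    exact psi_sc hMv hv'
  rw [hsum, e1, e2, e3, e4, e5, e6]
  have hc := mul_pos hMu hMv
  have := mul_le_mul_of_nonneg_left h hc.le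
  calc mass u * mass v * (∑ g : Equiv.Perm (Fin 4), yy (pv (nrm u) (nrm v) g)) / 24
      = mass u * mass v * ((∑ g : Equiv.Perm (Fin 4), yy (pv (nrm u) (nrm v) g)) / 24) := by ring
    _ ≤ _ := this
    _ = _ := by ring

/-- It is enough to prove the closure estimate for vectors of mass one. -/
theorem pointwiseC_of_unit (lam0 : ℝ)
    (H : ∀ a b : V3, (∀ i, 0 < vecOf a i) → (∀ i, 0 < vecOf b i) → (∀ i, 1 - lam0 ≤ vecOf b i) →
      wMul (vecOf b) * psi (vecOf a) + wMul (vecOf a) * psi (vecOf b) ≤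
        (∑ g : Equiv.Perm (Fin 4), psi (pv (vecOf a) (vecOf b) g)) / 24) : PointwiseC lam0 := by
  intro u v hu hv hlam
  have hMu := mass_pos_of_forall_pos hu
  have hMv := mass_pos_of_forall_pos hv
  have hu' := nrm_pos hu
  have hv' := nrm_pos hv
  have h := H (coords (nrm u)) (coords (nrm v))
    (by rw [vecOf_coords_nrm hu]; exact hu') (by rw [vecOf_coords_nrm hv]; exact hv')
    (by
      rw [vecOf_coords_nrm hv]
      intro i
      unfold nrm
      rw [le_div_iff₀ hMv]
      exact hlam i)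
  rw [vecOf_coords_nrm hu, vecOf_coords_nrm hv] at h
  have eu := sc_nrm hMu
  have ev := sc_nrm hMv
  have hsum : (∑ g : Equiv.Perm (Fin 4), psi (pv u v g))
      = mass u * mass v * ∑ g : Equiv.Perm (Fin 4), psi (pv (nrm u) (nrm v) g) := by
    rw [Finset.mul_sum]
    refine Finset.sum_congr rfl fun g _ => ?_
    conv_lhs => rw [← eu, ← ev]
    rw [pv_sc]
    exact psi_sc (mul_pos hMu hMv) (v := pv (nrm u) (nrm v) g) (fun i => mul_pos (hu' i) (hv' (g i)))
  have e3 : wMul u = mass u * wMul (nrm u) := by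
    conv_lhs => rw [← eu]
    exact wMul_sc hMu _
  have e4 : wMul v = mass v * wMul (nrm v) := by
    conv_lhs => rw [← ev]
    exact wMul_sc hMv _
  have e5 : psi u = mass u * psi (nrm u) := by
    conv_lhs => rw [← eu]
    exact psi_sc hMu hu'
  have e6 : psi v = mass v * psi (nrm v) := by
    conv_lhs => rw [← ev]
    exact psi_sc hMv hv'
  rw [hsum, e3, e4, e5, e6]
  have hc := mul_pos hMu hMv
  have := mul_le_mul_of_nonneg_left h hc.le
  calc mass v * wMul (nrm v) * (mass u * psi (nrm u)) + mass u * wMul (nrm u) * (mass v * psi (nrm v))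
      = mass u * mass v * (wMul (nrm v) * psi (nrm u) + wMul (nrm u) * psi (nrm v)) := by ring
    _ ≤ _ := this
    _ = _ := by ring

/-- The number of permutations sending a point to a point is six. -/
theorem card_perm_fiber (i j : Fin 4) :
    (Finset.univ.filter fun g : Equiv.Perm (Fin 4) => g i = j).card = 6 := by
  revert i j
  decide

/-- Summing over the permutations distributes the values evenly. -/
theorem sum_perm_apply (f : Fin 4 → ℝ) (i : Fin 4) :
    ∑ g : Equiv.Perm (Fin 4), f (g i) = 6 * ∑ j, f j := by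
  have h : ∑ g : Equiv.Perm (Fin 4), f (g i)
      = ∑ j, ∑ g ∈ Finset.univ.filter (fun g : Equiv.Perm (Fin 4) => g i = j), f (g i) :=
    (Finset.sum_fiberwise Finset.univ (fun g : Equiv.Perm (Fin 4) => g i) _).symm
  rw [h, Finset.mul_sum]
  refine Finset.sum_congr rfl fun j _ => ?_
  have : ∀ g ∈ Finset.univ.filter (fun g : Equiv.Perm (Fin 4) => g i = j), f (g i) = f j := by
    intro g hg
    rw [(Finset.mem_filter.mp hg).2]
  rw [Finset.sum_congr rfl this, Finset.sum_const, card_perm_fiber]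
  simp

/-- The entropy term `E` of a vector. -/
def eTerm (w : Fin 4 → ℝ) : ℝ := (∑ i, w i * Real.log (w i)) / 4

theorem sum_ent_pv {u v : Fin 4 → ℝ} (hu : ∀ i, 0 < u i) (hv : ∀ i, 0 < v i)
    (hMu : mass u = 1) (hMv : mass v = 1) :
    ∑ g : Equiv.Perm (Fin 4), ent (pv u v g)
      = 24 * (eTerm u + eTerm v)
        - ∑ g : Equiv.Perm (Fin 4), mass (pv u v g) * Real.log (mass (pv u v g)) := by
  unfold ent
  rw [Finset.sum_sub_distrib]
  congr 1
  have hSv : ∑ j, v j = 4 := by
    unfold mass at hMv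
    linarith
  have hterm : ∀ g : Equiv.Perm (Fin 4), (∑ i, pv u v g i * Real.log (pv u v g i)) / 4
      = ∑ i, ((u i * Real.log (u i)) * v (g i) + u i * (v (g i) * Real.log (v (g i)))) / 4 := by
    intro g
    rw [Finset.sum_div]
    refine Finset.sum_congr rfl fun i _ => ?_
    unfold pv
    rw [Real.log_mul (hu i).ne' (hv (g i)).ne']
    ring
  simp only [hterm]
  rw [Finset.sum_comm]
  have hin : ∀ i, ∑ g : Equiv.Perm (Fin 4),
      ((u i * Real.log (u i)) * v (g i) + u i * (v (g i) * Real.log (v (g i)))) / 4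
      = ((u i * Real.log (u i)) * (6 * 4) + u i * (6 * ∑ j, v j * Real.log (v j))) / 4 := by
    intro i
    rw [← Finset.sum_div, Finset.sum_add_distrib, ← Finset.mul_sum, ← Finset.mul_sum,
      sum_perm_apply v i, sum_perm_apply (fun j => v j * Real.log (v j)) i, hSv]
  simp only [hin]
  have hSu : ∑ i, u i = 4 := by
    unfold mass at hMu
    linarith
  have e1 : ∑ i, ((u i * Real.log (u i)) * (6 * 4) + u i * (6 * ∑ j, v j * Real.log (v j))) / 4
      = (∑ i, u i * Real.log (u i)) * 6 + (∑ i, u i) * (6 * ∑ j, v j * Real.log (v j)) / 4 := by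
    rw [Finset.sum_mul, Finset.sum_mul, Finset.sum_div, ← Finset.sum_add_distrib]
    refine Finset.sum_congr rfl fun i _ => ?_
    ring
  rw [e1, hSu]
  unfold eTerm
  ring

/-- The entropy identity for the product of vectors of mass one. -/
theorem sum_psi_pv {u v : Fin 4 → ℝ} (hu : ∀ i, 0 < u i) (hv : ∀ i, 0 < v i)
    (hMu : mass u = 1) (hMv : mass v = 1) :
    ∑ g : Equiv.Perm (Fin 4), psi (pv u v g)
      = 9 * ∑ g : Equiv.Perm (Fin 4), yy (pv u v g) - 144 * (eTerm u + eTerm v)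
        + 6 * ∑ g : Equiv.Perm (Fin 4), mass (pv u v g) * Real.log (mass (pv u v g)) := by
  unfold psi
  rw [Finset.sum_sub_distrib, ← Finset.mul_sum, ← Finset.mul_sum, sum_ent_pv hu hv hMu hMv]
  ring

/-- The chi-squared functional through the centred vector. -/
theorem three_yy_eq {p : Fin 4 → ℝ} (hZ : 0 < mass p) :
    3 * yy p = ((∑ i, (p i - mass p) ^ 2) / 4) / mass p := by
  unfold yy xx mom nrm
  have e : ∀ i, (p i / mass p - 1) ^ 2 = (p i - mass p) ^ 2 / mass p ^ 2 := by
    intro i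
    field_simp
  simp only [e]
  rw [← Finset.sum_div]
  field_simp

/-- The lower bound for the chi-squared functional with a free vector `m`. -/
theorem three_yy_ge {p : Fin 4 → ℝ} (hZ : 0 < mass p) (m : Fin 4 → ℝ) {L : ℝ}
    (hL : L * mass p ≤ 1) :
    (∑ i, (p i - mass p - mass p * m i) ^ 2) / 4 * L
        + 2 * (∑ i, (p i - mass p) * m i) / 4 - mass p * (∑ i, m i ^ 2) / 4 ≤ 3 * yy p := by
  rw [three_yy_eq hZ]
  obtain ⟨Z, hZdef⟩ : ∃ Z, Z = mass p := ⟨_, rfl⟩
  rw [← hZdef] at hZ hL ⊢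
  have hL' : L ≤ 1 / Z := by
    rw [le_div_iff₀ hZ]
    exact hL
  have hA : 0 ≤ (∑ i, (p i - Z - Z * m i) ^ 2) / 4 := by positivity
  have h1 := mul_le_mul_of_nonneg_left hL' hA
  have key : ((∑ i, (p i - Z) ^ 2) / 4) / Z
      = (∑ i, (p i - Z - Z * m i) ^ 2) / 4 * (1 / Z)
        + 2 * (∑ i, (p i - Z) * m i) / 4 - Z * (∑ i, m i ^ 2) / 4 := by
    simp only [Fin.sum_univ_four]
    field_simp
    ring
  rw [key]
  linarith

/-- The chi-squared functional through `W`. -/
theorem yy_eq_sub {p : Fin 4 → ℝ} (hZ : 0 < mass p) :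
    yy p = mass p - ((4 * mass p) ^ 2 - ∑ i, p i ^ 2) / 12 / mass p := by
  have h := three_yy_eq hZ
  obtain ⟨Z, hZdef⟩ : ∃ Z, Z = mass p := ⟨_, rfl⟩
  rw [← hZdef] at hZ h ⊢
  have hs : p 0 + p 1 + p 2 + p 3 = 4 * Z := by
    rw [hZdef]
    unfold mass
    rw [Fin.sum_univ_four]
    ring
  have e : (∑ i, (p i - Z) ^ 2) = ∑ i, p i ^ 2 - 4 * Z ^ 2 := by
    simp only [Fin.sum_univ_four]
    have e3 : p 3 = 4 * Z - p 0 - p 1 - p 2 := by linarith
    rw [e3]
    ring
  rw [e] at h
  have h2 : yy p = ((∑ i, p i ^ 2 - 4 * Z ^ 2) / 4 / Z) / 3 := by linarith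
  rw [h2]
  field_simp
  ring

end

end Vale.Agent.P154.Q4
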