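import Vale.Agent.P154.Q4.AvgS

/-!
Assembly of the subadditivity estimate from the sum over permutations.
-/

namespace Vale.Agent.P154.Q4

noncomputable section

open Finset

/-- The chi-squared functional on a positive vector, through `W`. -/
theorem yy_le_of_pos {p : Fin 4 → ℝ} (hp : ∀ i, 0 < p i) {L : ℝ} (hL : L * mass p ≤ 1) :
    yy p ≤ mass p - ((4 * mass p) ^ 2 - ∑ i, p i ^ 2) / 12 * L := by
  have h0 := hp 0
  have h1 := hp 1
  have h2 := hp 2
  have h3 := hp 3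
  have hZ : 0 < mass p := by
    unfold mass
    rw [Fin.sum_univ_four]
    positivity
  obtain ⟨Z, hZdef⟩ : ∃ Z, Z = mass p := ⟨_, rfl⟩
  rw [← hZdef] at hZ hL ⊢
  have hs : p 0 + p 1 + p 2 + p 3 = 4 * Z := by
    rw [hZdef]
    unfold mass
    rw [Fin.sum_univ_four]
    ring
  obtain ⟨S, hSdef⟩ : ∃ S, S = ∑ i, p i ^ 2 := ⟨_, rfl⟩
  have hS : S = p 0 ^ 2 + p 1 ^ 2 + p 2 ^ 2 + p 3 ^ 2 := by
    rw [hSdef, Fin.sum_univ_four]
  have hxx : xx (nrm p) = S / (4 * Z ^ 2) - 1 := by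
    unfold xx mom nrm
    rw [← hZdef, Fin.sum_univ_four, hS]
    have e3 : p 3 = 4 * Z - p 0 - p 1 - p 2 := by linarith
    rw [e3]
    field_simp
    ring
  have hW : 0 ≤ (4 * Z) ^ 2 - S := by
    rw [← hs, hS]
    have : (p 0 + p 1 + p 2 + p 3) ^ 2 - (p 0 ^ 2 + p 1 ^ 2 + p 2 ^ 2 + p 3 ^ 2)
        = 2 * (p 0 * p 1 + p 0 * p 2 + p 0 * p 3 + p 1 * p 2 + p 1 * p 3 + p 2 * p 3) := by ring
    rw [this]
    positivity
  rw [← hSdef]
  unfold yy
  rw [hxx, ← hZdef]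
  have key : Z * (S / (4 * Z ^ 2) - 1) / 3 = Z - ((4 * Z) ^ 2 - S) / 12 * (1 / Z) := by
    field_simp
    ring
  rw [key]
  have hL' : L ≤ 1 / Z := by
    rw [le_div_iff₀ hZ]
    exact hL
  have := mul_le_mul_of_nonneg_left hL' (div_nonneg hW (by norm_num : (0 : ℝ) ≤ 12))
  linarith

/-- The polynomial `L` with `z = 2`, scaled. -/
theorem lcS_bound (Z : ℝ) (hZ : 0 < Z) :
    (hornerR (4 * (Z - 1)) lcS / 4096) * Z ≤ 1 := by
  have e : (hornerR (4 * (Z - 1)) lcS / 4096) * Z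
      = 1 - (1 / 4) * (Z - 1) ^ 4 * (2 - Z) ^ 2 := by
    simp only [lcS, hornerR]
    push_cast
    ring
  rw [e]
  have : 0 ≤ (1 / 4) * (Z - 1) ^ 4 * (2 - Z) ^ 2 := by positivity
  linarith

/-- Positivity of the product vector. -/
theorem pv_pos {a b : V3} (ha : ∀ i, 0 < vecOf a i) (hb : ∀ i, 0 < vecOf b i)
    (g : Equiv.Perm (Fin 4)) (i : Fin 4) : 0 < pv (vecOf a) (vecOf b) g i :=
  mul_pos (ha i) (hb (g i))

theorem mass_pos_of_pos {p : Fin 4 → ℝ} (hp : ∀ i, 0 < p i) : 0 < mass p := by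
  have h0 := hp 0
  have h1 := hp 1
  have h2 := hp 2
  have h3 := hp 3
  unfold mass
  rw [Fin.sum_univ_four]
  positivity

/-- The number of permutations. -/
theorem sum_perm_const (c : ℝ) : ∑ _g : Equiv.Perm (Fin 4), c = 24 * c := by
  simp [Finset.card_univ, Fintype.card_perm]
  norm_num [Nat.factorial]

/-- The sum of the masses. -/
theorem sum_mass_pv (a b : V3) : ∑ g, mass (pv (vecOf a) (vecOf b) g) = 24 := by
  have h := sum_of_avgOK avgE_ok a b
  simp only [eval_eP, Poly.eval_nil] at h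
  rw [← Finset.mul_sum, Finset.sum_sub_distrib, sum_perm_const] at h
  linarith

/-- The sum over permutations of the chi-squared functional. -/
theorem sum_yy_le {a b : V3} (ha : ∀ i, 0 < vecOf a i) (hb : ∀ i, 0 < vecOf b i) :
    ∑ g, yy (pv (vecOf a) (vecOf b) g) ≤ 24 - Poly.eval bbS (pt a b) / 49152 := by
  have hg : ∀ g, yy (pv (vecOf a) (vecOf b) g) ≤ mass (pv (vecOf a) (vecOf b) g)
      - Poly.eval (Poly.mul (wP g) (horner (eP g) lcS)) (ptab a b) / 49152 := by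
    intro g
    have hp := pv_pos ha hb g
    have hZ := mass_pos_of_pos hp
    have h := yy_le_of_pos hp (lcS_bound _ hZ)
    rw [Poly.eval_mul, eval_horner, eval_eP, eval_wP]
    have e : ((4 * mass (pv (vecOf a) (vecOf b) g)) ^ 2 - ∑ i, (pv (vecOf a) (vecOf b) g i) ^ 2)
          * hornerR (4 * (mass (pv (vecOf a) (vecOf b) g) - 1)) lcS / 49152
        = ((4 * mass (pv (vecOf a) (vecOf b) g)) ^ 2 - ∑ i, (pv (vecOf a) (vecOf b) g i) ^ 2) / 12
          * (hornerR (4 * (mass (pv (vecOf a) (vecOf b) g) - 1)) lcS / 4096) := by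
      ring
    rw [e]
    exact h
  have hsum := Finset.sum_le_sum fun g (_ : g ∈ Finset.univ) => hg g
  rw [Finset.sum_sub_distrib, sum_mass_pv, ← Finset.sum_div, sum_of_avgOK avgS_ok a b] at hsum
  exact hsum

/-- The subadditivity estimate from lower bounds on the entropies and a polynomial inequality. -/
theorem S_of_low {a b : V3} (ha : ∀ i, 0 < vecOf a i) (hb : ∀ i, 0 < vecOf b i) {lowA lowB : ℝ}
    (hA : lowA ≤ (∑ i, vecOf a i * Real.log (vecOf a i)) / 4)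
    (hB : lowB ≤ (∑ i, vecOf b i * Real.log (vecOf b i)) / 4)
    (hR : 0 ≤ (a.x + b.x) / 3 - 1 + Poly.eval bbS (pt a b) / (24 * 49152)
      - (2 / 9 * b.x - b.t / 6 - 3 / 20 * b.g) * (3 * a.x - 6 * lowA)
      - (2 / 9 * a.x - a.t / 6 - 3 / 20 * a.g) * (3 * b.x - 6 * lowB)) :
    (∑ g, yy (pv (vecOf a) (vecOf b) g)) / 24 ≤ yy (vecOf a) + yy (vecOf b)
      - gMul (vecOf b) * psi (vecOf a) - gMul (vecOf a) * psi (vecOf b) := by
  have hsum := sum_yy_le ha hb
  rw [yy_vecOf, yy_vecOf, gMul_vecOf, gMul_vecOf, psi_vecOf, psi_vecOf]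
  have hGa : 0 ≤ 2 / 9 * a.x - a.t / 6 - 3 / 20 * a.g := by
    have := gMul_lower (fun i => (ha i).le)
    have := V3.x_nonneg a
    linarith
  have hGb : 0 ≤ 2 / 9 * b.x - b.t / 6 - 3 / 20 * b.g := by
    have := gMul_lower (fun i => (hb i).le)
    have := V3.x_nonneg b
    linarith
  have h1 := mul_le_mul_of_nonneg_left hA hGb
  have h2 := mul_le_mul_of_nonneg_left hB hGa
  nlinarith

end

end Vale.Agent.P154.Q4
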