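import Vale.Agent.P154.Q4.SAsm

/-!
The polynomial form of the subadditivity estimate.
-/

namespace Vale.Agent.P154.Q4

noncomputable section

/-- The multiplier of the first vector, scaled by 180. -/
def gmA : Poly := [(⟨0,0,1,0,0,0⟩, -27), (⟨0,1,0,0,0,0⟩, -30), (⟨1,0,0,0,0,0⟩, 40)]

/-- The multiplier of the second vector, scaled by 180. -/
def gmB : Poly := [(⟨0,0,0,0,0,1⟩, -27), (⟨0,0,0,0,1,0⟩, -30), (⟨0,0,0,1,0,0⟩, 40)]

/-- The invariant `x` of the first vector as a polynomial. -/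
def xaP : Poly := [(⟨1,0,0,0,0,0⟩, 1)]

/-- The invariant `x` of the second vector as a polynomial. -/
def xbP : Poly := [(⟨0,0,0,1,0,0⟩, 1)]

/-- The constant one as a polynomial. -/
def oneP : Poly := [(⟨0,0,0,0,0,0⟩, 1)]

/-- The lower polynomial for the entropy with `z = 2`, on the first vector, scaled by 120. -/
def low2A : Poly := [(⟨0,0,1,0,0,0⟩, 40), (⟨0,1,0,0,0,0⟩, -120), (⟨0,1,1,0,0,0⟩, -40), (⟨0,2,0,0,0,0⟩, 144), (⟨1,0,0,0,0,0⟩, 60), (⟨1,0,1,0,0,0⟩, 36), (⟨1,1,0,0,0,0⟩, -120), (⟨2,0,0,0,0,0⟩, 10), (⟨2,1,0,0,0,0⟩, -30), (⟨3,0,0,0,0,0⟩, 3)]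

/-- The lower polynomial for the entropy with `z = 2`, on the second vector, scaled by 120. -/
def low2B : Poly := [(⟨0,0,0,0,0,1⟩, 40), (⟨0,0,0,0,1,0⟩, -120), (⟨0,0,0,0,1,1⟩, -40), (⟨0,0,0,0,2,0⟩, 144), (⟨0,0,0,1,0,0⟩, 60), (⟨0,0,0,1,0,1⟩, 36), (⟨0,0,0,1,1,0⟩, -120), (⟨0,0,0,2,0,0⟩, 10), (⟨0,0,0,2,1,0⟩, -30), (⟨0,0,0,3,0,0⟩, 3)]

/-- The far lower polynomial for the entropy, on the first vector, scaled by 10 ^ 6. -/
def lowPA : Poly := [(⟨0,0,0,0,0,0⟩, -4096), (⟨0,0,1,0,0,0⟩, 637056), (⟨0,1,0,0,0,0⟩, -1006698), (⟨0,2,0,0,0,0⟩, 526800), (⟨1,0,0,0,0,0⟩, 442041), (⟨1,0,1,0,0,0⟩, 131700), (⟨1,1,0,0,0,0⟩, -1459900), (⟨2,0,0,0,0,0⟩, 159264), (⟨3,0,0,0,0,0⟩, 10975)]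

/-- The far lower polynomial for the entropy, on the second vector, scaled by 10 ^ 6. -/
def lowPB : Poly := [(⟨0,0,0,0,0,0⟩, -4096), (⟨0,0,0,0,0,1⟩, 637056), (⟨0,0,0,0,1,0⟩, -1006698), (⟨0,0,0,0,2,0⟩, 526800), (⟨0,0,0,1,0,0⟩, 442041), (⟨0,0,0,1,0,1⟩, 131700), (⟨0,0,0,1,1,0⟩, -1459900), (⟨0,0,0,2,0,0⟩, 159264), (⟨0,0,0,3,0,0⟩, 10975)]

/-- The polynomial `M R`. -/
def rPoly (lowA : Poly) (DA : Int) (lowB : Poly) (DB : Int) : Poly :=
  Poly.add (Poly.smul (1179648 * 180 * DA * DB) (Poly.add xaP (Poly.add xbP (Poly.smul (-3) oneP))))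
    (Poly.add (Poly.smul (3 * 180 * DA * DB) bbS)
      (Poly.add (Poly.smul (-(3 * 1179648 * DB))
          (Poly.mul gmB (Poly.add (Poly.smul (3 * DA) xaP) (Poly.smul (-6) lowA))))
        (Poly.smul (-(3 * 1179648 * DA))
          (Poly.mul gmA (Poly.add (Poly.smul (3 * DB) xbP) (Poly.smul (-6) lowB))))))

/-- The polynomial quantity whose nonnegativity gives subadditivity. -/
def rVal (a b : V3) (lowA lowB : ℝ) : ℝ :=
  (a.x + b.x) / 3 - 1 + Poly.eval bbS (pt a b) / (24 * 49152)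
    - (2 / 9 * b.x - b.t / 6 - 3 / 20 * b.g) * (3 * a.x - 6 * lowA)
    - (2 / 9 * a.x - a.t / 6 - 3 / 20 * a.g) * (3 * b.x - 6 * lowB)

theorem eval_rPoly (lowA : Poly) (DA : Int) (lowB : Poly) (DB : Int) (hA : (DA : ℝ) ≠ 0)
    (hB : (DB : ℝ) ≠ 0) (a b : V3) :
    Poly.eval (rPoly lowA DA lowB DB) (pt a b)
      = 3 * 1179648 * 180 * (DA : ℝ) * DB
        * rVal a b (Poly.eval lowA (pt a b) / DA) (Poly.eval lowB (pt a b) / DB) := by
  unfold rPoly rVal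
  simp only [Poly.eval_add, Poly.eval_smul, Poly.eval_mul]
  have e1 : Poly.eval xaP (pt a b) = a.x := by simp [xaP, pt, Mono.eval]
  have e2 : Poly.eval xbP (pt a b) = b.x := by simp [xbP, pt, Mono.eval]
  have e3 : Poly.eval oneP (pt a b) = 1 := by simp [oneP, Mono.eval]
  have e4 : Poly.eval gmA (pt a b) = 180 * (2 / 9 * a.x - a.t / 6 - 3 / 20 * a.g) := by
    simp [gmA, pt, Mono.eval]
    ring
  have e5 : Poly.eval gmB (pt a b) = 180 * (2 / 9 * b.x - b.t / 6 - 3 / 20 * b.g) := by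
    simp [gmB, pt, Mono.eval]
    ring
  rw [e1, e2, e3, e4, e5]
  push_cast
  field_simp
  ring

/-- The relation between a certificate target and the polynomial form. -/
def relOK (T : Poly) (K : Int) (lowA : Poly) (DA : Int) (lowB : Poly) (DB : Int) : Bool :=
  Poly.isZero (Poly.add (Poly.smul (3 * 1179648 * 180 * DA * DB) T)
    (Poly.smul (-K) (rPoly lowA DA lowB DB)))

theorem rVal_nonneg_of_cert {T : Poly} {K : Int} {lowA : Poly} {DA : Int} {lowB : Poly} {DB : Int}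
    (h : relOK T K lowA DA lowB DB = true) (hK : (0 : ℝ) < K) (hA : (0 : ℝ) < DA) (hB : (0 : ℝ) < DB)
    (a b : V3) (hT : 0 ≤ Poly.eval T (pt a b)) :
    0 ≤ rVal a b (Poly.eval lowA (pt a b) / DA) (Poly.eval lowB (pt a b) / DB) := by
  have h0 := Poly.eval_of_isZero h (pt a b)
  rw [Poly.eval_add, Poly.eval_smul, Poly.eval_smul, eval_rPoly lowA DA lowB DB hA.ne' hB.ne'] at h0
  push_cast at h0
  have hM : (0 : ℝ) < 3 * 1179648 * 180 * (DA : ℝ) * DB := by positivity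
  have h1 : (K : ℝ) * rVal a b (Poly.eval lowA (pt a b) / DA) (Poly.eval lowB (pt a b) / DB)
      = Poly.eval T (pt a b) := by
    have : (3 * 1179648 * 180 * (DA : ℝ) * DB)
        * ((K : ℝ) * rVal a b (Poly.eval lowA (pt a b) / DA) (Poly.eval lowB (pt a b) / DB)
          - Poly.eval T (pt a b)) = 0 := by
      linarith
    rcases mul_eq_zero.mp this with h2 | h2
    · exact absurd h2 hM.ne'
    · linarith
  have h2 : 0 ≤ (K : ℝ) * rVal a b (Poly.eval lowA (pt a b) / DA) (Poly.eval lowB (pt a b) / DB) := by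
    rw [h1]
    exact hT
  exact nonneg_of_mul_nonneg_right h2 hK

end

end Vale.Agent.P154.Q4
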