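import Vale.Agent.P154.Q4.CPoly
import Vale.Agent.P154.Q4.SAsm
import Vale.Agent.P154.Q4.SPoly

/-!
Assembly of the closure estimate: reduction to a polynomial inequality.
-/

namespace Vale.Agent.P154.Q4

noncomputable section

open Finset

/-- The average of `w log w` over the coordinates. -/
def entAvg (w : Fin 4 → ℝ) : ℝ := (∑ i, w i * Real.log (w i)) / 4

/-- The algebraic reduction of closure to bounds on the three sums. -/
theorem C_of_bounds {a b : V3} {Spsi Syy SZL avgL mx tbar ua ub : ℝ}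
    (hid : Spsi = 9 * Syy - 144 * (entAvg (vecOf a) + entAvg (vecOf b)) + 6 * SZL)
    (hxa : a.x ≤ 3) (hxb : b.x ≤ 3)
    (h1 : 24 * (avgL + mx) ≤ 3 * Syy) (h2 : 24 * tbar ≤ SZL)
    (h3 : entAvg (vecOf a) ≤ ua) (h4 : entAvg (vecOf b) ≤ ub)
    (hR : 0 ≤ rCVal a b avgL mx tbar ua ub) :
    wMul (vecOf b) * psi (vecOf a) + wMul (vecOf a) * psi (vecOf b) ≤ Spsi / 24 := by
  have ha0 := V3.x_nonneg a
  have hb0 := V3.x_nonneg b
  rw [wMul_vecOf, wMul_vecOf, psi_vecOf, psi_vecOf]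
  have hwa : 0 ≤ 1 - (1 - a.x / 3) ^ 3 := by
    have h5 : 0 ≤ 1 - a.x / 3 := by linarith
    have h6 : 1 - a.x / 3 ≤ 1 := by linarith
    have := pow_le_one₀ (n := 3) h5 h6
    linarith
  have hwb : 0 ≤ 1 - (1 - b.x / 3) ^ 3 := by
    have h5 : 0 ≤ 1 - b.x / 3 := by linarith
    have h6 : 1 - b.x / 3 ≤ 1 := by linarith
    have := pow_le_one₀ (n := 3) h5 h6
    linarith
  have h7 := mul_le_mul_of_nonneg_right h3 hwb
  have h8 := mul_le_mul_of_nonneg_right h4 hwa
  unfold rCVal at hR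
  unfold entAvg at *
  rw [hid]
  nlinarith

end

end Vale.Agent.P154.Q4
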