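import Vale.Agent.P154.Q4.CAsm
import Vale.Agent.P154.Q4.Scalar
import Vale.Agent.P154.Q4.AvgCa2
import Vale.Agent.P154.Q4.AvgCa3
import Vale.Agent.P154.Q4.AvgCc2
import Vale.Agent.P154.Q4.AvgCt

/-!
Bounds for the three sums in the closure estimate.
-/

namespace Vale.Agent.P154.Q4

noncomputable section

open Finset

/-- Lower bound of the chi-squared functional of a positive vector. -/
theorem yy_low {p : Fin 4 → ℝ} (hp : ∀ i, 0 < p i) {L : ℝ} (hL : L * mass p ≤ 1) (m : Fin 4 → ℝ) :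
    (∑ i, (p i - mass p - mass p * m i) ^ 2) / 4 * L + 2 * (∑ i, (p i - mass p) * m i) / 4
      - mass p * (∑ i, m i ^ 2) / 4 ≤ 3 * yy p := by
  have hZ := mass_pos_of_pos hp
  obtain ⟨Z, hZdef⟩ : ∃ Z, Z = mass p := ⟨_, rfl⟩
  rw [← hZdef] at hZ hL ⊢
  have hL' : L ≤ 1 / Z := by
    rw [le_div_iff₀ hZ]
    exact hL
  have key : ∀ i, (p i - Z - Z * m i) ^ 2 * L + 2 * ((p i - Z) * m i) - Z * m i ^ 2
      ≤ Z * (p i / Z - 1) ^ 2 := by
    intro i
    have e : Z * (p i / Z - 1) ^ 2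
        = (p i - Z - Z * m i) ^ 2 * (1 / Z) + 2 * ((p i - Z) * m i) - Z * m i ^ 2 := by
      field_simp
      ring
    rw [e]
    have := mul_le_mul_of_nonneg_left hL' (sq_nonneg (p i - Z - Z * m i))
    linarith
  unfold yy xx mom nrm
  rw [← hZdef]
  simp only [Fin.sum_univ_four] at *
  have k0 := key 0
  have k1 := key 1
  have k2 := key 2
  have k3 := key 3
  linarith

theorem eval_aiP (a b : V3) (g : Equiv.Perm (Fin 4)) (i : Fin 4) :
    Poly.eval (aiP g i) (ptab a b) = 4 *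
      (pv (vecOf a) (vecOf b) g i - mass (pv (vecOf a) (vecOf b) g)
        - mass (pv (vecOf a) (vecOf b) g) * (vecOf a i - 1)) := by
  simp only [aiP, Poly.eval_add, Poly.eval_smul, Poly.eval_mul, eval_pP, eval_zP, eval_uA]
  push_cast
  ring

theorem eval_ciP (a b : V3) (g : Equiv.Perm (Fin 4)) (i : Fin 4) :
    Poly.eval (ciP g i) (ptab a b) = 4 *
      (pv (vecOf a) (vecOf b) g i - mass (pv (vecOf a) (vecOf b) g)) := by
  simp only [ciP, Poly.eval_add, Poly.eval_smul, eval_pP, eval_zP]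
  push_cast
  ring

theorem eval_aiP_act (a b : V3) (g : Equiv.Perm (Fin 4)) (i : Fin 4) :
    Poly.eval (aiP pg0 i) (ptab a (actB g b)) = Poly.eval (aiP g i) (ptab a b) := by
  simp only [aiP, Poly.eval_add, Poly.eval_smul, Poly.eval_mul, eval_pP_act, eval_zP_act,
    eval_uA_any a b (actB g b)]

theorem eval_ciP_act (a b : V3) (g : Equiv.Perm (Fin 4)) (i : Fin 4) :
    Poly.eval (ciP pg0 i) (ptab a (actB g b)) = Poly.eval (ciP g i) (ptab a b) := by
  simp only [ciP, Poly.eval_add, Poly.eval_smul, eval_pP_act, eval_zP_act]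

/-- From the value at the identity to the sum over the group, first mode. -/
theorem sum_fast_a {lc : List Int} {P : Poly}
    (h : fastOK (mulF (sq4 (aiP pg0)) (horner (eP pg0) lc)) P = true) (a b : V3) :
    ∑ g, Poly.eval (Poly.mul (sq4 (aiP g)) (horner (eP g) lc)) (ptab a b) = Poly.eval P (pt a b) := by
  rw [← AV_of_fastOK h a b, AV_mulF]
  unfold AV
  refine Finset.sum_congr rfl fun g _ => ?_
  rw [Poly.eval_mul, Poly.eval_mul, eval_sq4, eval_sq4, eval_horner, eval_horner, eval_eP_act]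
  simp only [eval_aiP_act]

/-- From the value at the identity to the sum over the group, zero mode. -/
theorem sum_fast_c {lc : List Int} {P : Poly}
    (h : fastOK (mulF (sq4 (ciP pg0)) (horner (eP pg0) lc)) P = true) (a b : V3) :
    ∑ g, Poly.eval (Poly.mul (sq4 (ciP g)) (horner (eP g) lc)) (ptab a b) = Poly.eval P (pt a b) := by
  rw [← AV_of_fastOK h a b, AV_mulF]
  unfold AV
  refine Finset.sum_congr rfl fun g _ => ?_
  rw [Poly.eval_mul, Poly.eval_mul, eval_sq4, eval_sq4, eval_horner, eval_horner, eval_eP_act]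
  simp only [eval_ciP_act]

/-- The mean zero part of the first vector. -/
def sP (i : Fin 4) : Poly := Poly.add (uA i) [(⟨0,0,0,0,0,0⟩, -1)]

theorem eval_sP (a b : V3) (i : Fin 4) : Poly.eval (sP i) (ptab a b) = vecOf a i - 1 := by
  simp [sP, eval_uA, Mono.eval]
  ring

/-- The polynomial of the linear term. -/
def linP (g : Equiv.Perm (Fin 4)) : Poly :=
  Poly.add (Poly.add (Poly.mul (ciP g 0) (sP 0)) (Poly.mul (ciP g 1) (sP 1)))
    (Poly.add (Poly.mul (ciP g 2) (sP 2)) (Poly.mul (ciP g 3) (sP 3)))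

set_option maxRecDepth 100000 in
theorem linP_ok : avgOK linP [(⟨1,0,0,0,0,0⟩, 384)] = true := by
  decide +kernel

theorem sum_lin (a b : V3) :
    ∑ g, ∑ i, (pv (vecOf a) (vecOf b) g i - mass (pv (vecOf a) (vecOf b) g)) * (vecOf a i - 1)
      = 96 * a.x := by
  have h := sum_of_avgOK linP_ok a b
  have e : ∀ g, Poly.eval (linP g) (ptab a b) = 4 * ∑ i,
      (pv (vecOf a) (vecOf b) g i - mass (pv (vecOf a) (vecOf b) g)) * (vecOf a i - 1) := by
    intro g
    simp only [linP, Poly.eval_add, Poly.eval_mul, eval_ciP, eval_sP, Fin.sum_univ_four]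
    ring
  simp only [e] at h
  rw [← Finset.mul_sum] at h
  have h2 : Poly.eval [(⟨1,0,0,0,0,0⟩, 384)] (pt a b) = 384 * a.x := by
    simp [pt, Mono.eval]
  rw [h2] at h
  linarith

theorem sum_sq_s (a : V3) : ∑ i, (vecOf a i - 1) ^ 2 = 4 * a.x := by
  simp [Fin.sum_univ_four, vecOf, V3.x]
  ring

/-- The bound for the sum of the chi-squared functional, first mode. -/
theorem sum_yy_low_a {lc : List Int} {D : ℝ} {P : Poly} (hD : 0 < D)
    (hLZ : ∀ Z : ℝ, 0 < Z → hornerR (4 * (Z - 1)) lc / D * Z ≤ 1)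
    (h : fastOK (mulF (sq4 (aiP pg0)) (horner (eP pg0) lc)) P = true)
    {a b : V3} (ha : ∀ i, 0 < vecOf a i) (hb : ∀ i, 0 < vecOf b i) :
    Poly.eval P (pt a b) / (64 * D) + 24 * a.x
      ≤ 3 * ∑ g, yy (pv (vecOf a) (vecOf b) g) := by
  have hg : ∀ g, Poly.eval (Poly.mul (sq4 (aiP g)) (horner (eP g) lc)) (ptab a b) / (64 * D)
      + 2 * (∑ i, (pv (vecOf a) (vecOf b) g i - mass (pv (vecOf a) (vecOf b) g)) * (vecOf a i - 1)) / 4
      - mass (pv (vecOf a) (vecOf b) g) * a.x ≤ 3 * yy (pv (vecOf a) (vecOf b) g) := by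
    intro g
    have hp := pv_pos ha hb g
    have hZ := mass_pos_of_pos hp
    have h1 := yy_low hp (hLZ _ hZ) (fun i => vecOf a i - 1)
    rw [sum_sq_s] at h1
    refine le_trans (le_of_eq ?_) h1
    rw [Poly.eval_mul, eval_sq4, eval_horner, eval_eP]
    simp only [eval_aiP]
    have e : ∀ f : Fin 4 → ℝ, ∑ i, (4 * f i) ^ 2 = 16 * ∑ i, f i ^ 2 := by
      intro f
      simp only [Fin.sum_univ_four]
      ring
    rw [e]
    field_simp
    ring
  have hs := Finset.sum_le_sum fun g (_ : g ∈ Finset.univ) => hg g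
  rw [Finset.sum_sub_distrib, Finset.sum_add_distrib, ← Finset.sum_div, sum_fast_a h, ← Finset.sum_div,
    ← Finset.mul_sum, sum_lin, ← Finset.sum_mul, sum_mass_pv, ← Finset.mul_sum] at hs
  linarith

/-- The bound for the sum of the chi-squared functional, zero mode. -/
theorem sum_yy_low_c {lc : List Int} {D : ℝ} {P : Poly} (hD : 0 < D)
    (hLZ : ∀ Z : ℝ, 0 < Z → hornerR (4 * (Z - 1)) lc / D * Z ≤ 1)
    (h : fastOK (mulF (sq4 (ciP pg0)) (horner (eP pg0) lc)) P = true)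
    {a b : V3} (ha : ∀ i, 0 < vecOf a i) (hb : ∀ i, 0 < vecOf b i) :
    Poly.eval P (pt a b) / (64 * D) ≤ 3 * ∑ g, yy (pv (vecOf a) (vecOf b) g) := by
  have hg : ∀ g, Poly.eval (Poly.mul (sq4 (ciP g)) (horner (eP g) lc)) (ptab a b) / (64 * D)
      ≤ 3 * yy (pv (vecOf a) (vecOf b) g) := by
    intro g
    have hp := pv_pos ha hb g
    have hZ := mass_pos_of_pos hp
    have h1 := yy_low hp (hLZ _ hZ) (fun _ => 0)
    refine le_trans (le_of_eq ?_) h1
    rw [Poly.eval_mul, eval_sq4, eval_horner, eval_eP]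
    simp only [eval_ciP]
    have e : ∀ f : Fin 4 → ℝ, ∑ i, (4 * f i) ^ 2 = 16 * ∑ i, f i ^ 2 := by
      intro f
      simp only [Fin.sum_univ_four]
      ring
    rw [e]
    simp only [Fin.sum_univ_four]
    field_simp
    ring
  have hs := Finset.sum_le_sum fun g (_ : g ∈ Finset.univ) => hg g
  rw [← Finset.sum_div, sum_fast_c h, ← Finset.mul_sum] at hs
  exact hs

theorem lc2_bound (Z : ℝ) (_hZ : 0 < Z) : hornerR (4 * (Z - 1)) lc2 / 4096 * Z ≤ 1 := by
  have e : (hornerR (4 * (Z - 1)) lc2 / 4096) * Z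
      = 1 - (1 / 4) * (Z - 1) ^ 4 * (2 - Z) ^ 2 := by
    simp only [lc2, hornerR]
    push_cast
    ring
  rw [e]
  have : 0 ≤ (1 / 4) * (Z - 1) ^ 4 * (2 - Z) ^ 2 := by positivity
  linarith

theorem lc3_bound (Z : ℝ) (_hZ : 0 < Z) : hornerR (4 * (Z - 1)) lc3 / 20736 * Z ≤ 1 := by
  have e : (hornerR (4 * (Z - 1)) lc3 / 20736) * Z
      = 1 - ((1 - Z) * (1 - 2 * Z / 3) * (1 - Z / 3)) ^ 2 := by
    simp only [lc3, hornerR]
    push_cast
    ring
  rw [e]
  have : 0 ≤ ((1 - Z) * (1 - 2 * Z / 3) * (1 - Z / 3)) ^ 2 := by positivity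
  linarith

/-- The sum of `Z log Z`. -/
theorem sum_zlogz_low {a b : V3} (ha : ∀ i, 0 < vecOf a i) (hb : ∀ i, 0 < vecOf b i) :
    Poly.eval etS (pt a b) / 30965760
      ≤ ∑ g, mass (pv (vecOf a) (vecOf b) g) * Real.log (mass (pv (vecOf a) (vecOf b) g)) := by
  have hg : ∀ g, Poly.eval (horner (eP g) tc3) (ptab a b) / 30965760
      ≤ mass (pv (vecOf a) (vecOf b) g) * Real.log (mass (pv (vecOf a) (vecOf b) g)) := by
    intro g
    have hZ := mass_pos_of_pos (pv_pos ha hb g)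
    obtain ⟨Z, hZdef⟩ : ∃ Z, Z = mass (pv (vecOf a) (vecOf b) g) := ⟨_, rfl⟩
    rw [← hZdef] at hZ ⊢
    rw [eval_horner, eval_eP, ← hZdef]
    have h := log_low3 (s := Z - 1) (by linarith)
    rw [show 1 + (Z - 1) = Z by ring] at h
    refine le_trans (le_of_eq ?_) h
    simp only [tc3, hornerR]
    push_cast
    ring
  have hs := Finset.sum_le_sum fun g (_ : g ∈ Finset.univ) => hg g
  rw [← Finset.sum_div, sum_of_avgOK AvgCt_ok] at hs
  exact hs

theorem vec_le_four' {a : V3} (ha : ∀ i, 0 < vecOf a i) (i : Fin 4) : vecOf a i ≤ 4 := by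
  have h0 := ha 0
  have h1 := ha 1
  have h2 := ha 2
  have h3 := ha 3
  fin_cases i <;> simp [vecOf] at h0 h1 h2 h3 ⊢ <;> linarith

/-- The upper polynomial on the first vector. -/
theorem ent_up_a {a : V3} (ha : ∀ i, 0 < vecOf a i) (b : V3) :
    entAvg (vecOf a) ≤ Poly.eval uaP (pt a b) / 10000000 := by
  have hi : ∀ i, vecOf a i * Real.log (vecOf a i) ≤ (vecOf a i - 1)
      + 5073892 / 10000000 * (vecOf a i - 1) ^ 2 - 1384042 / 10000000 * (vecOf a i - 1) ^ 3
      + 695085 / 10000000 * (vecOf a i - 1) ^ 4 - 1238025 / 10000000 * (vecOf a i - 1) ^ 5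
      + 1129390 / 10000000 * (vecOf a i - 1) ^ 6 - 425055 / 10000000 * (vecOf a i - 1) ^ 7
      + 56511 / 10000000 * (vecOf a i - 1) ^ 8 := by
    intro i
    have h := log_upA (s := vecOf a i - 1) (by linarith [ha i]) (by linarith [vec_le_four' ha i])
    rwa [show 1 + (vecOf a i - 1) = vecOf a i by ring] at h
  have e : Poly.eval uaP (pt a b) / 10000000 = (∑ i, ((vecOf a i - 1)
      + 5073892 / 10000000 * (vecOf a i - 1) ^ 2 - 1384042 / 10000000 * (vecOf a i - 1) ^ 3
      + 695085 / 10000000 * (vecOf a i - 1) ^ 4 - 1238025 / 10000000 * (vecOf a i - 1) ^ 5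
      + 1129390 / 10000000 * (vecOf a i - 1) ^ 6 - 425055 / 10000000 * (vecOf a i - 1) ^ 7
      + 56511 / 10000000 * (vecOf a i - 1) ^ 8)) / 4 := by
    simp [uaP, pt, Mono.eval, Fin.sum_univ_four, vecOf, V3.x, V3.t, V3.g]
    ring
  rw [e]
  unfold entAvg
  exact div_le_div_of_nonneg_right (Finset.sum_le_sum fun i _ => hi i) (by norm_num)

/-- The upper polynomial on the second vector. -/
theorem ent_up_b (a : V3) {b : V3} (hb : ∀ i, 1 / 4 ≤ vecOf b i) :
    entAvg (vecOf b) ≤ Poly.eval ubP (pt a b) / 10000000 := by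
  have hb0 : ∀ i, 0 < vecOf b i := fun i => by linarith [hb i]
  have hle : ∀ i, vecOf b i ≤ 13 / 4 := by
    intro i
    have h0 := hb 0
    have h1 := hb 1
    have h2 := hb 2
    have h3 := hb 3
    fin_cases i <;> simp [vecOf] at h0 h1 h2 h3 ⊢ <;> linarith
  have hi : ∀ i, vecOf b i * Real.log (vecOf b i) ≤ (vecOf b i - 1)
      + 5004368 / 10000000 * (vecOf b i - 1) ^ 2 - 1628934 / 10000000 * (vecOf b i - 1) ^ 3
      + 959386 / 10000000 * (vecOf b i - 1) ^ 4 - 705207 / 10000000 * (vecOf b i - 1) ^ 5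
      + 311010 / 10000000 * (vecOf b i - 1) ^ 6 - 52199 / 10000000 * (vecOf b i - 1) ^ 7 := by
    intro i
    have h := log_upB (s := vecOf b i - 1) (by linarith [hb i]) (by linarith [hle i])
    rwa [show 1 + (vecOf b i - 1) = vecOf b i by ring] at h
  have e : Poly.eval ubP (pt a b) / 10000000 = (∑ i, ((vecOf b i - 1)
      + 5004368 / 10000000 * (vecOf b i - 1) ^ 2 - 1628934 / 10000000 * (vecOf b i - 1) ^ 3
      + 959386 / 10000000 * (vecOf b i - 1) ^ 4 - 705207 / 10000000 * (vecOf b i - 1) ^ 5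
      + 311010 / 10000000 * (vecOf b i - 1) ^ 6 - 52199 / 10000000 * (vecOf b i - 1) ^ 7)) / 4 := by
    simp [ubP, pt, Mono.eval, Fin.sum_univ_four, vecOf, V3.x, V3.t, V3.g]
    ring
  rw [e]
  unfold entAvg
  exact div_le_div_of_nonneg_right (Finset.sum_le_sum fun i _ => hi i) (by norm_num)

/-- The sum over the group of the values at the image of a point. -/
theorem sum_perm_apply (f : Fin 4 → ℝ) (i : Fin 4) : ∑ g : Equiv.Perm (Fin 4), f (g i) = 6 * ∑ j, f j := by
  have hc : ∀ i j : Fin 4, (Finset.univ.filter fun g : Equiv.Perm (Fin 4) => g i = j).card = 6 := by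
    decide +kernel
  rw [← Finset.sum_fiberwise Finset.univ (fun g : Equiv.Perm (Fin 4) => g i), Finset.mul_sum]
  refine Finset.sum_congr rfl fun j _ => ?_
  have : ∀ g ∈ Finset.univ.filter (fun g : Equiv.Perm (Fin 4) => g i = j), f (g i) = f j := by
    intro g hg
    rw [(Finset.mem_filter.mp hg).2]
  rw [Finset.sum_congr rfl this, Finset.sum_const, hc]
  simp

end

end Vale.Agent.P154.Q4
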