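import Vale.Agent.P154.Q4.SPoly
import Vale.Agent.P154.Q4.AvgCDefs

/-!
The polynomial form of the closure estimate.
-/

namespace Vale.Agent.P154.Q4

noncomputable section

/-- The upper polynomial for the entropy on the first vector, scaled by 10 ^ 7. -/
def uaP : Poly := [(⟨0,0,1,0,0,0⟩, 2780340), (⟨0,0,2,0,0,0⟩, 904176), (⟨0,1,0,0,0,0⟩, -8304252), (⟨0,1,1,0,0,0⟩, -23803080), (⟨0,2,0,0,0,0⟩, 54210720), (⟨1,0,0,0,0,0⟩, 5073892), (⟨1,0,1,0,0,0⟩, 13552680), (⟨1,1,0,0,0,0⟩, -24760500), (⟨1,2,0,0,0,0⟩, 14466816), (⟨2,0,0,0,0,0⟩, 695085), (⟨2,0,1,0,0,0⟩, 1356264), (⟨2,1,0,0,0,0⟩, -17852310), (⟨3,0,0,0,0,0⟩, 1129390), (⟨4,0,0,0,0,0⟩, 56511)]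

/-- The upper polynomial for the entropy on the second vector, scaled by 10 ^ 7. -/
def ubP : Poly := [(⟨0,0,0,0,0,1⟩, 3837544), (⟨0,0,0,0,1,0⟩, -9773604), (⟨0,0,0,0,1,1⟩, -2923144), (⟨0,0,0,0,2,0⟩, 14928480), (⟨0,0,0,1,0,0⟩, 5004368), (⟨0,0,0,1,0,1⟩, 3732120), (⟨0,0,0,1,1,0⟩, -14104140), (⟨0,0,0,2,0,0⟩, 959386), (⟨0,0,0,2,1,0⟩, -2192358), (⟨0,0,0,3,0,0⟩, 311010)]

/-- The polynomial `27 w` of the first vector. -/
def w3A : Poly := ppow (Poly.add (Poly.smul 3 oneP) (Poly.smul (-1) xaP)) 3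

/-- The polynomial `27 w` of the second vector. -/
def w3B : Poly := ppow (Poly.add (Poly.smul 3 oneP) (Poly.smul (-1) xbP)) 3

/-- The polynomial `M R` for the closure estimate; `mx` is the term from the chosen mode. -/
def rCPoly (avgP : Poly) (A : Int) (mx : Poly) : Poly :=
  let B : Int := 24 * 30965760
  Poly.sum
    [Poly.smul (3 * B * 27 * 10000000) avgP,
     Poly.smul (3 * (A * B * 27 * 10000000)) mx,
     Poly.smul (6 * A * 27 * 10000000) etS,
     Poly.smul (-(3 * A * B * 10000000)) (Poly.mul xaP w3B),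
     Poly.smul (-(3 * A * B * 10000000)) (Poly.mul xbP w3A),
     Poly.smul (-(6 * A * B)) (Poly.mul uaP (Poly.add (Poly.smul 27 oneP) (Poly.smul (-1) w3B))),
     Poly.smul (-(6 * A * B)) (Poly.mul ubP (Poly.add (Poly.smul 27 oneP) (Poly.smul (-1) w3A)))]

/-- The polynomial quantity whose nonnegativity gives closure. -/
def rCVal (a b : V3) (avgL mx tbar ua ub : ℝ) : ℝ :=
  3 * avgL + 3 * mx + 6 * tbar - 3 * a.x * (1 - b.x / 3) ^ 3 - 3 * b.x * (1 - a.x / 3) ^ 3
    - 6 * ua * (1 - (1 - b.x / 3) ^ 3) - 6 * ub * (1 - (1 - a.x / 3) ^ 3)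

theorem eval_rCPoly (avgP : Poly) (A : Int) (mx : Poly) (hA : (A : ℝ) ≠ 0) (a b : V3) :
    Poly.eval (rCPoly avgP A mx) (pt a b)
      = (A : ℝ) * (24 * 30965760) * 27 * 10000000
        * rCVal a b (Poly.eval avgP (pt a b) / A) (Poly.eval mx (pt a b))
            (Poly.eval etS (pt a b) / (24 * 30965760))
            (Poly.eval uaP (pt a b) / 10000000) (Poly.eval ubP (pt a b) / 10000000) := by
  have e1 : Poly.eval xaP (pt a b) = a.x := by simp [xaP, pt, Mono.eval]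
  have e2 : Poly.eval xbP (pt a b) = b.x := by simp [xbP, pt, Mono.eval]
  have e3 : Poly.eval oneP (pt a b) = 1 := by simp [oneP, Mono.eval]
  have e4 : Poly.eval w3A (pt a b) = 27 * (1 - a.x / 3) ^ 3 := by
    unfold w3A
    rw [eval_ppow, Poly.eval_add, Poly.eval_smul, Poly.eval_smul, e1, e3]
    push_cast
    ring
  have e5 : Poly.eval w3B (pt a b) = 27 * (1 - b.x / 3) ^ 3 := by
    unfold w3B
    rw [eval_ppow, Poly.eval_add, Poly.eval_smul, Poly.eval_smul, e2, e3]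
    push_cast
    ring
  unfold rCPoly rCVal
  simp only [Poly.eval_sum, Poly.evalList, List.map_cons, List.map_nil, List.sum_cons, List.sum_nil,
    Poly.eval_smul, Poly.eval_mul, Poly.eval_add, e1, e2, e3, e4, e5]
  push_cast
  field_simp
  ring

/-- The relation between a certificate target and the polynomial form. -/
def relCOK (T : Poly) (K : Int) (avgP : Poly) (A : Int) (mx : Poly) : Bool :=
  Poly.isZero (Poly.add (Poly.smul (A * (24 * 30965760) * 27 * 10000000) T)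
    (Poly.smul (-K) (rCPoly avgP A mx)))

theorem rCVal_nonneg_of_cert {T : Poly} {K : Int} {avgP : Poly} {A : Int} {mx : Poly}
    (h : relCOK T K avgP A mx = true) (hK : (0 : ℝ) < K) (hA : (0 : ℝ) < A)
    (a b : V3) (hT : 0 ≤ Poly.eval T (pt a b)) :
    0 ≤ rCVal a b (Poly.eval avgP (pt a b) / A) (Poly.eval mx (pt a b))
            (Poly.eval etS (pt a b) / (24 * 30965760))
            (Poly.eval uaP (pt a b) / 10000000) (Poly.eval ubP (pt a b) / 10000000) := by
  have h0 := Poly.eval_of_isZero h (pt a b)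
  rw [Poly.eval_add, Poly.eval_smul, Poly.eval_smul, eval_rCPoly avgP A mx hA.ne'] at h0
  push_cast at h0
  have hM : (0 : ℝ) < (A : ℝ) * (24 * 30965760) * 27 * 10000000 := by positivity
  obtain ⟨r, hr⟩ : ∃ r, r = rCVal a b (Poly.eval avgP (pt a b) / A) (Poly.eval mx (pt a b))
            (Poly.eval etS (pt a b) / (24 * 30965760))
            (Poly.eval uaP (pt a b) / 10000000) (Poly.eval ubP (pt a b) / 10000000) := ⟨_, rfl⟩
  rw [← hr] at h0 ⊢
  have h1 : (K : ℝ) * r = Poly.eval T (pt a b) := by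
    have : ((A : ℝ) * (24 * 30965760) * 27 * 10000000)
        * ((K : ℝ) * r - Poly.eval T (pt a b)) = 0 := by
      linarith
    rcases mul_eq_zero.mp this with h2 | h2
    · exact absurd h2 hM.ne'
    · linarith
  have h2 : 0 ≤ (K : ℝ) * r := by
    rw [h1]
    exact hT
  exact nonneg_of_mul_nonneg_right h2 hK

end

end Vale.Agent.P154.Q4
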