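import Vale.Agent.P154.Q4.Poly
import Vale.Agent.P154.Q4.Psd

/-!
Sums of squares of products of covariants of two vectors in three dimensions, checked by computation.
-/

namespace Vale.Agent.P154.Q4

open Finset

/-- Three real coordinates. -/
structure V3 where
  a1 : ℝ
  a2 : ℝ
  a3 : ℝ

namespace V3

/-- The invariant `x`. -/
def x (v : V3) : ℝ := v.a1 ^ 2 + v.a2 ^ 2 + v.a3 ^ 2

/-- The invariant `τ`. -/
def t (v : V3) : ℝ := v.a1 * v.a2 * v.a3

/-- The invariant `g`. -/
def g (v : V3) : ℝ := v.a1 ^ 2 * v.a2 ^ 2 + v.a2 ^ 2 * v.a3 ^ 2 + v.a3 ^ 2 * v.a1 ^ 2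

/-- A cross product. -/
def cross (u w : Fin 3 → ℝ) : Fin 3 → ℝ :=
  ![u 1 * w 2 - u 2 * w 1, u 2 * w 0 - u 0 * w 2, u 0 * w 1 - u 1 * w 0]

/-- The vector itself. -/
def std0 (v : V3) : Fin 3 → ℝ := ![v.a1, v.a2, v.a3]

/-- Products of pairs of coordinates. -/
def std1 (v : V3) : Fin 3 → ℝ := ![v.a2 * v.a3, v.a3 * v.a1, v.a1 * v.a2]

/-- Cubes of the coordinates. -/
def std2 (v : V3) : Fin 3 → ℝ := ![v.a1 ^ 3, v.a2 ^ 3, v.a3 ^ 3]

/-- Base covariants, by representation type and index. -/
def base : Nat → Nat → V3 → Fin 3 → ℝ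
  | 0, 0, _ => ![1, 0, 0]
  | 1, 0, v => std0 v
  | 1, 1, v => std1 v
  | 1, 2, v => std2 v
  | 2, 0, v => ![3 * v.a1 ^ 2 - v.x, 3 * v.a2 ^ 2 - v.x, 3 * v.a3 ^ 2 - v.x]
  | 2, 1, v =>
    ![3 * (v.a2 ^ 2 * v.a3 ^ 2) - v.g, 3 * (v.a3 ^ 2 * v.a1 ^ 2) - v.g,
      3 * (v.a1 ^ 2 * v.a2 ^ 2) - v.g]
  | 3, 0, v => cross (std0 v) (std1 v)
  | 3, 1, v => cross (std0 v) (std2 v)
  | 3, 2, v => cross (std1 v) (std2 v)
  | _, _, _ => ![0, 0, 0]

end V3

/-- Monomial `x ^ i τ ^ j g ^ k` on the first three variables. -/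
def m3 (i j k : Nat) : Mono := ⟨i, j, k, 0, 0, 0⟩

/-- Gram entries of the base covariants as polynomials in `x, τ, g`. -/
def gram : Nat → Nat → Nat → Poly
  | 0, 0, 0 => [(m3 0 0 0, 1)]
  | 1, 0, 0 => [(m3 1 0 0, 1)]
  | 1, 0, 1 => [(m3 0 1 0, 3)]
  | 1, 1, 0 => [(m3 0 1 0, 3)]
  | 1, 0, 2 => [(m3 0 0 1, -2), (m3 2 0 0, 1)]
  | 1, 2, 0 => [(m3 0 0 1, -2), (m3 2 0 0, 1)]
  | 1, 1, 1 => [(m3 0 0 1, 1)]
  | 1, 1, 2 => [(m3 1 1 0, 1)]
  | 1, 2, 1 => [(m3 1 1 0, 1)]
  | 1, 2, 2 => [(m3 0 2 0, 3), (m3 1 0 1, -3), (m3 3 0 0, 1)]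
  | 2, 0, 0 => [(m3 0 0 1, -18), (m3 2 0 0, 6)]
  | 2, 0, 1 => [(m3 0 2 0, 27), (m3 1 0 1, -3)]
  | 2, 1, 0 => [(m3 0 2 0, 27), (m3 1 0 1, -3)]
  | 2, 1, 1 => [(m3 0 0 2, 6), (m3 1 2 0, -18)]
  | 3, 0, 0 => [(m3 0 2 0, -9), (m3 1 0 1, 1)]
  | 3, 0, 1 => [(m3 0 1 1, 6), (m3 2 1 0, -2)]
  | 3, 1, 0 => [(m3 0 1 1, 6), (m3 2 1 0, -2)]
  | 3, 0, 2 => [(m3 0 0 2, 2), (m3 1 2 0, 3), (m3 2 0 1, -1)]
  | 3, 2, 0 => [(m3 0 0 2, 2), (m3 1 2 0, 3), (m3 2 0 1, -1)]
  | 3, 1, 1 => [(m3 0 0 2, -4), (m3 1 2 0, 3), (m3 2 0 1, 1)]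
  | 3, 1, 2 => [(m3 0 3 0, 9), (m3 1 1 1, -7), (m3 3 1 0, 2)]
  | 3, 2, 1 => [(m3 0 3 0, 9), (m3 1 1 1, -7), (m3 3 1 0, 2)]
  | 3, 2, 2 => [(m3 0 2 1, 3), (m3 1 0 2, -3), (m3 2 2 0, -1), (m3 3 0 1, 1)]
  | _, _, _ => []

end Vale.Agent.P154.Q4

namespace Vale.Agent.P154.Q4

theorem eval_m3 (i j k : Nat) (q : Pt) :
    (m3 i j k).eval q = q.x0 ^ i * q.x1 ^ j * q.x2 ^ k := by
  simp [m3, Mono.eval]

theorem gram_spec (rep i j : Nat) (v : V3) (q : Pt) (h0 : q.x0 = v.x) (h1 : q.x1 = v.t)
    (h2 : q.x2 = v.g) :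
    Poly.eval (gram rep i j) q = ∑ k : Fin 3, V3.base rep i v k * V3.base rep j v k := by
  obtain ⟨a1, a2, a3⟩ := v
  have hb : ∀ r s : Nat, (∃ e : Poly, gram r s 0 = e) := fun r s => ⟨_, rfl⟩
  rcases rep with _ | _ | _ | _ | rep <;> rcases i with _ | _ | _ | i <;>
    rcases j with _ | _ | _ | j <;>
    simp only [gram, V3.base, Fin.sum_univ_three, Poly.eval_cons, Poly.eval_nil, eval_m3, h0, h1, h2,
      V3.x, V3.t, V3.g, V3.std0, V3.std1, V3.std2, V3.cross] <;>
    simp <;> ring

end Vale.Agent.P154.Q4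

namespace Vale.Agent.P154.Q4

/-- The point of six variables attached to two vectors. -/
noncomputable def pt (a b : V3) : Pt := ⟨a.x, a.t, a.g, b.x, b.t, b.g⟩

/-- Move a monomial from the first three variables to the last three. -/
def Mono.shift (m : Mono) : Mono := ⟨0, 0, 0, m.e0, m.e1, m.e2⟩

/-- Move a polynomial from the first three variables to the last three. -/
def Poly.shift (P : Poly) : Poly := P.map fun t => (Mono.shift t.1, t.2)

/-- The point seen by the shifted polynomial. -/
def Pt.second (p : Pt) : Pt := ⟨p.x3, p.x4, p.x5, 1, 1, 1⟩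

theorem eval_shift (P : Poly) (p : Pt) : Poly.eval (Poly.shift P) p = Poly.eval P p.second := by
  induction P with
  | nil => rfl
  | cons t P ih =>
    have e : Poly.shift (t :: P) = (Mono.shift t.1, t.2) :: Poly.shift P := rfl
    rw [e, Poly.eval_cons, Poly.eval_cons, ih]
    simp [Mono.shift, Mono.eval, Pt.second]

/-- One product of covariants: base covariants and monomial multipliers on both sides. -/
structure Gen0 where
  ba : Nat
  ma : Mono
  bb : Nat
  mb : Mono

/-- A generator of a block: an integer combination of products of covariants. -/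
abbrev Gen := List (Int × Gen0)

/-- Polynomial for a pair of products. -/
def genPoly0 (repA repB : Nat) (g h : Gen0) : Poly :=
  Poly.mul (Poly.mulTerm (Mono.mul g.ma h.ma) 1 (gram repA g.ba h.ba))
    (Poly.mulTerm (Mono.mul g.mb h.mb) 1 (Poly.shift (gram repB g.bb h.bb)))

/-- Value of a product of covariants at two vectors, at a pair of coordinates. -/
noncomputable def genVal0 (repA repB : Nat) (a b : V3) (ij : Fin 3 × Fin 3) (g : Gen0) : ℝ :=
  g.ma.eval (pt a b) * V3.base repA g.ba a ij.1 * (g.mb.eval (pt a b) * V3.base repB g.bb b ij.2)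

theorem eval_genPoly0 (repA repB : Nat) (g h : Gen0) (a b : V3) :
    Poly.eval (genPoly0 repA repB g h) (pt a b)
      = ∑ ij : Fin 3 × Fin 3, genVal0 repA repB a b ij g * genVal0 repA repB a b ij h := by
  have h1 := gram_spec repA g.ba h.ba a (pt a b) rfl rfl rfl
  have h2 := gram_spec repB g.bb h.bb b (pt a b).second rfl rfl rfl
  unfold genPoly0
  rw [Poly.eval_mul, Poly.eval_mulTerm, Poly.eval_mulTerm, eval_shift, h1, h2, Fintype.sum_prod_type]
  simp only [Mono.eval_mul, genVal0, Int.cast_one, one_mul, Finset.mul_sum, Finset.sum_mul]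
  rw [Finset.sum_comm]
  refine Finset.sum_congr rfl fun j _ => Finset.sum_congr rfl fun i _ => ?_
  ring

/-- Polynomial for a pair of generators. -/
def genPoly (repA repB : Nat) (G H : Gen) : Poly :=
  Poly.sum (G.flatMap fun t => H.map fun s => Poly.smul (t.1 * s.1) (genPoly0 repA repB t.2 s.2))

/-- Value of a generator. -/
noncomputable def genVal (repA repB : Nat) (a b : V3) (ij : Fin 3 × Fin 3) (G : Gen) : ℝ :=
  (G.map fun t => (t.1 : ℝ) * genVal0 repA repB a b ij t.2).sum

theorem evalList_flatMap {α : Type} (G : List α) (f : α → List Poly) (p : Pt) :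
    Poly.evalList (G.flatMap f) p = (G.map fun t => Poly.evalList (f t) p).sum := by
  induction G with
  | nil => rfl
  | cons t G ih =>
    simp only [List.flatMap_cons, List.map_cons, List.sum_cons]
    rw [← ih]
    simp [Poly.evalList]

theorem eval_genPoly (repA repB : Nat) (G H : Gen) (a b : V3) :
    Poly.eval (genPoly repA repB G H) (pt a b)
      = ∑ ij : Fin 3 × Fin 3, genVal repA repB a b ij G * genVal repA repB a b ij H := by
  unfold genPoly
  rw [Poly.eval_sum, evalList_flatMap]
  have inner : ∀ t : Int × Gen0, Poly.evalList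
      (H.map fun s => Poly.smul (t.1 * s.1) (genPoly0 repA repB t.2 s.2)) (pt a b)
      = ∑ ij : Fin 3 × Fin 3, (t.1 : ℝ) * genVal0 repA repB a b ij t.2 * genVal repA repB a b ij H := by
    intro t
    induction H with
    | nil => simp [Poly.evalList, genVal]
    | cons s H ih =>
      have e : Poly.evalList ((s :: H).map fun s => Poly.smul (t.1 * s.1) (genPoly0 repA repB t.2 s.2))
          (pt a b) = Poly.eval (Poly.smul (t.1 * s.1) (genPoly0 repA repB t.2 s.2)) (pt a b)
            + Poly.evalList (H.map fun s => Poly.smul (t.1 * s.1) (genPoly0 repA repB t.2 s.2))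
              (pt a b) := by
        simp [Poly.evalList]
      rw [e, ih, Poly.eval_smul, eval_genPoly0, Finset.mul_sum, ← Finset.sum_add_distrib]
      refine Finset.sum_congr rfl fun ij _ => ?_
      simp only [genVal, List.map_cons, List.sum_cons]
      push_cast
      ring
  simp only [inner]
  induction G with
  | nil => simp [genVal]
  | cons t G ih =>
    simp only [List.map_cons, List.sum_cons, ih, ← Finset.sum_add_distrib]
    refine Finset.sum_congr rfl fun ij _ => ?_
    simp only [genVal, List.map_cons, List.sum_cons]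
    ring

/-- The terms of a row of the quadratic form. -/
def rowList (F : Gen → Gen → Poly) (g : Gen) : List Int → List Gen → List Poly
  | q :: qs, h :: hs => Poly.smul (2 * q) (F g h) :: rowList F g qs hs
  | _, _ => []

/-- The terms of the quadratic form, as polynomials. -/
def qList (F : Gen → Gen → Poly) : List (List Int) → List Gen → List Poly
  | row :: rows, g :: gs =>
    Poly.smul (hd row) (F g g) :: (rowList F g (tl row) gs ++ qList F rows gs)
  | _, _ => []

/-- The same with real values. -/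
noncomputable def rowR (G : Gen → Gen → ℝ) (g : Gen) : List Int → List Gen → ℝ
  | q :: qs, h :: hs => 2 * (q : ℝ) * G g h + rowR G g qs hs
  | _, _ => 0

/-- The same with real values. -/
noncomputable def qR (G : Gen → Gen → ℝ) : List (List Int) → List Gen → ℝ
  | row :: rows, g :: gs => (hd row : ℝ) * G g g + rowR G g (tl row) gs + qR G rows gs
  | _, _ => 0

theorem evalList_append (l m : List Poly) (p : Pt) :
    Poly.evalList (l ++ m) p = Poly.evalList l p + Poly.evalList m p := by
  simp [Poly.evalList]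

theorem evalList_rowList (F : Gen → Gen → Poly) (g : Gen) (qs : List Int) (hs : List Gen) (p : Pt) :
    Poly.evalList (rowList F g qs hs) p = rowR (fun g h => Poly.eval (F g h) p) g qs hs := by
  induction qs generalizing hs with
  | nil => rfl
  | cons q qs ih =>
    cases hs with
    | nil => rfl
    | cons h hs =>
      have := ih hs
      simp only [Poly.evalList] at this
      simp only [rowList, rowR, Poly.evalList, List.map_cons, List.sum_cons, Poly.eval_smul, this]
      push_cast
      ring

theorem evalList_qList (F : Gen → Gen → Poly) (rows : List (List Int)) (gs : List Gen) (p : Pt) :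
    Poly.evalList (qList F rows gs) p = qR (fun g h => Poly.eval (F g h) p) rows gs := by
  induction rows generalizing gs with
  | nil => rfl
  | cons row rows ih =>
    cases gs with
    | nil => rfl
    | cons g gs =>
      have h1 := ih gs
      have h2 := evalList_rowList F g (tl row) gs p
      have e : qList F (row :: rows) (g :: gs)
        = Poly.smul (hd row) (F g g) :: (rowList F g (tl row) gs ++ qList F rows gs) := rfl
      rw [e]
      have e2 : Poly.evalList (Poly.smul (hd row) (F g g) :: (rowList F g (tl row) gs ++ qList F rows gs)) p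
          = Poly.eval (Poly.smul (hd row) (F g g)) p
            + Poly.evalList (rowList F g (tl row) gs ++ qList F rows gs) p := by
        simp [Poly.evalList]
      rw [e2, evalList_append, h1, h2, Poly.eval_smul]
      simp only [qR]
      ring

theorem rowR_prod (φ : Gen → ℝ) (g : Gen) (qs : List Int) (hs : List Gen) :
    rowR (fun g h => φ g * φ h) g qs hs = 2 * φ g * dotR qs (hs.map φ) := by
  induction qs generalizing hs with
  | nil => simp [rowR]
  | cons q qs ih =>
    cases hs with
    | nil => simp [rowR]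
    | cons h hs =>
      simp only [rowR, List.map_cons, dotR_cons, ih]
      ring

theorem qR_prod (φ : Gen → ℝ) (rows : List (List Int)) (gs : List Gen) :
    qR (fun g h => φ g * φ h) rows gs = qformU rows (gs.map φ) := by
  induction rows generalizing gs with
  | nil => simp [qR]
  | cons row rows ih =>
    cases gs with
    | nil => simp [qR]
    | cons g gs =>
      simp only [qR, List.map_cons, qformU_cons, rowR_prod, ih]
      ring

theorem rowR_sum {ι : Type} (s : Finset ι) (G : ι → Gen → Gen → ℝ) (g : Gen) (qs : List Int)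
    (hs : List Gen) :
    rowR (fun g h => ∑ i ∈ s, G i g h) g qs hs = ∑ i ∈ s, rowR (G i) g qs hs := by
  induction qs generalizing hs with
  | nil => simp [rowR]
  | cons q qs ih =>
    cases hs with
    | nil => simp [rowR]
    | cons h hs =>
      simp only [rowR, ih, Finset.sum_add_distrib, Finset.mul_sum]

theorem qR_sum {ι : Type} (s : Finset ι) (G : ι → Gen → Gen → ℝ) (rows : List (List Int))
    (gs : List Gen) :
    qR (fun g h => ∑ i ∈ s, G i g h) rows gs = ∑ i ∈ s, qR (G i) rows gs := by
  induction rows generalizing gs with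
  | nil => simp [qR]
  | cons row rows ih =>
    cases gs with
    | nil => simp [qR]
    | cons g gs =>
      simp only [qR, ih, rowR_sum, Finset.sum_add_distrib, Finset.mul_sum]

/-- A block of the certificate. -/
structure Block where
  repA : Nat
  repB : Nat
  ia : Nat
  ib : Nat
  gens : List Gen
  rows : List (List Int)
  N : Int
  vs : List (List Int)

/-- The polynomial of a block, given a list of multipliers. -/
def Block.poly (mults : List Poly) (B : Block) : Poly :=
  Poly.mul (Poly.mul (mults.getD B.ia []) (mults.getD B.ib []))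
    (Poly.sum (qList (genPoly B.repA B.repB) B.rows B.gens))

/-- Psd check of a block. -/
def Block.ok (B : Block) : Bool := psdOK B.N B.rows B.vs

theorem getD_nonneg (mults : List Poly) (p : Pt) (hm : ∀ P ∈ mults, 0 ≤ Poly.eval P p) (i : Nat) :
    0 ≤ Poly.eval (mults.getD i []) p := by
  rcases lt_or_ge i mults.length with h | h
  · rw [List.getD_eq_getElem _ _ h]
    exact hm _ (List.getElem_mem h)
  · rw [List.getD_eq_default _ _ h]
    simp

theorem Block.poly_nonneg (mults : List Poly) (B : Block) (hB : B.ok = true) (a b : V3)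
    (hm : ∀ P ∈ mults, 0 ≤ Poly.eval P (pt a b)) : 0 ≤ Poly.eval (B.poly mults) (pt a b) := by
  unfold Block.poly
  rw [Poly.eval_mul, Poly.eval_mul, Poly.eval_sum, evalList_qList]
  refine mul_nonneg (mul_nonneg (getD_nonneg _ _ hm _) (getD_nonneg _ _ hm _)) ?_
  simp only [eval_genPoly]
  rw [qR_sum]
  refine Finset.sum_nonneg fun ij _ => ?_
  rw [qR_prod]
  exact psdOK_nonneg hB _

/-- The total check of a certificate: the blocks are valid and sum to the target. -/
def certOK (mults : List Poly) (blocks : List Block) (target : Poly) : Bool :=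
  blocks.all Block.ok &&
    Poly.isZero (Poly.add target (Poly.smul (-1) (Poly.sum (blocks.map (Block.poly mults)))))

theorem evalList_nonneg (l : List Poly) (p : Pt) (h : ∀ P ∈ l, 0 ≤ Poly.eval P p) :
    0 ≤ Poly.evalList l p := by
  induction l with
  | nil => simp [Poly.evalList]
  | cons P l ih =>
    have h1 := h P (by simp)
    have h2 := ih fun Q hQ => h Q (by simp [hQ])
    simp only [Poly.evalList, List.map_cons, List.sum_cons] at h2 ⊢
    linarith

theorem cert_nonneg (mults : List Poly) (blocks : List Block) (target : Poly)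
    (hc : certOK mults blocks target = true) (a b : V3)
    (hm : ∀ P ∈ mults, 0 ≤ Poly.eval P (pt a b)) : 0 ≤ Poly.eval target (pt a b) := by
  simp only [certOK, Bool.and_eq_true, List.all_eq_true] at hc
  have h0 := Poly.eval_of_isZero hc.2 (pt a b)
  rw [Poly.eval_add, Poly.eval_smul, Poly.eval_sum] at h0
  have h1 : 0 ≤ Poly.evalList (blocks.map (Block.poly mults)) (pt a b) := by
    refine evalList_nonneg _ _ fun P hP => ?_
    obtain ⟨B, hB, rfl⟩ := List.mem_map.mp hP
    exact B.poly_nonneg mults (hc.1 B hB) a b hm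
  push_cast at h0
  linarith

end Vale.Agent.P154.Q4
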