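import Vale.Agent.P154.Q4.Defs
import Vale.Agent.P154.Q4.Sos

/-!
Coordinates on mass one vectors: a vector with four entries of mean one is `1 + s`, where `s` is
given by three real parameters. The moments are polynomials in the invariants of these parameters.
-/

namespace Vale.Agent.P154.Q4

noncomputable section

open Finset

/-- The vector with mean one attached to three parameters. -/
def vecOf (a : V3) : Fin 4 → ℝ :=
  ![1 + (a.a1 + a.a2 + a.a3), 1 + (a.a1 - a.a2 - a.a3), 1 + (-a.a1 + a.a2 - a.a3),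
    1 + (-a.a1 - a.a2 + a.a3)]

/-- The parameters of a vector. -/
def coords (u : Fin 4 → ℝ) : V3 :=
  ⟨(u 0 + u 1 - u 2 - u 3) / 4, (u 0 - u 1 + u 2 - u 3) / 4, (u 0 - u 1 - u 2 + u 3) / 4⟩

theorem vecOf_coords {u : Fin 4 → ℝ} (hu : mass u = 1) : vecOf (coords u) = u := by
  have h : u 0 + u 1 + u 2 + u 3 = 4 := by
    unfold mass at hu
    rw [Fin.sum_univ_four] at hu
    linarith
  funext i
  fin_cases i <;> simp [vecOf, coords] <;> linarith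

theorem mass_vecOf (a : V3) : mass (vecOf a) = 1 := by
  unfold mass
  simp [Fin.sum_univ_four, vecOf]
  ring

theorem nrm_eq_self {u : Fin 4 → ℝ} (hu : mass u = 1) : nrm u = u := by
  funext i
  simp [nrm, hu]

theorem xx_vecOf (a : V3) : xx (vecOf a) = a.x := by
  simp [xx, mom, Fin.sum_univ_four, vecOf, V3.x]
  ring

theorem tt_vecOf (a : V3) : tt (vecOf a) = 6 * a.t := by
  simp [tt, mom, Fin.sum_univ_four, vecOf, V3.t]
  ring

theorem gg_vecOf (a : V3) : gg (vecOf a) = a.g := by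
  simp [gg, xx, mom, Fin.sum_univ_four, vecOf, V3.g, V3.x]
  ring

theorem yy_vecOf (a : V3) : yy (vecOf a) = a.x / 3 := by
  unfold yy
  rw [nrm_eq_self (mass_vecOf a), mass_vecOf, xx_vecOf]
  ring

theorem gMul_vecOf (a : V3) :
    gMul (vecOf a) = 2 / 9 * a.x - a.t / 6 - 3 / 20 * a.g := by
  unfold gMul
  rw [nrm_eq_self (mass_vecOf a), mass_vecOf, xx_vecOf, tt_vecOf, gg_vecOf]
  ring

theorem wMul_vecOf (a : V3) : wMul (vecOf a) = (1 - a.x / 3) ^ 3 := by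
  unfold wMul
  rw [nrm_eq_self (mass_vecOf a), mass_vecOf, xx_vecOf]
  ring

theorem ent_vecOf (a : V3) :
    ent (vecOf a) = (∑ i, vecOf a i * Real.log (vecOf a i)) / 4 := by
  unfold ent
  rw [mass_vecOf]
  simp

theorem psi_vecOf (a : V3) :
    psi (vecOf a) = 3 * a.x - 6 * ((∑ i, vecOf a i * Real.log (vecOf a i)) / 4) := by
  unfold psi
  rw [yy_vecOf, ent_vecOf]
  ring

theorem V3.x_nonneg (a : V3) : 0 ≤ a.x := by
  unfold V3.x
  positivity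

theorem V3.g_nonneg (a : V3) : 0 ≤ a.g := by
  unfold V3.g
  positivity

section simplex

variable {a : V3} (h : ∀ i, 0 ≤ vecOf a i)

include h

theorem entries_nonneg :
    0 ≤ 1 + (a.a1 + a.a2 + a.a3) ∧ 0 ≤ 1 + (a.a1 - a.a2 - a.a3) ∧ 0 ≤ 1 + (-a.a1 + a.a2 - a.a3) ∧
      0 ≤ 1 + (-a.a1 - a.a2 + a.a3) := by
  have h0 := h 0
  have h1 := h 1
  have h2 := h 2
  have h3 := h 3
  simp [vecOf] at h0 h1 h2 h3
  exact ⟨h0, h1, h2, h3⟩

/-- The second symmetric function of the entries. -/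
theorem mult_P2 : 0 ≤ 3 - a.x := by
  obtain ⟨h0, h1, h2, h3⟩ := entries_nonneg h
  have e : 3 - a.x = ((1 + (a.a1 + a.a2 + a.a3)) * (1 + (a.a1 - a.a2 - a.a3))
      + (1 + (a.a1 + a.a2 + a.a3)) * (1 + (-a.a1 + a.a2 - a.a3))
      + (1 + (a.a1 + a.a2 + a.a3)) * (1 + (-a.a1 - a.a2 + a.a3))
      + (1 + (a.a1 - a.a2 - a.a3)) * (1 + (-a.a1 + a.a2 - a.a3))
      + (1 + (a.a1 - a.a2 - a.a3)) * (1 + (-a.a1 - a.a2 + a.a3))
      + (1 + (-a.a1 + a.a2 - a.a3)) * (1 + (-a.a1 - a.a2 + a.a3))) / 2 := by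
    unfold V3.x
    ring
  rw [e]
  positivity

theorem mult_P3 : 0 ≤ 3 - 3 * a.x + 6 * a.t := by
  obtain ⟨h0, h1, h2, h3⟩ := entries_nonneg h
  have e : 3 - 3 * a.x + 6 * a.t = (3 / 4) * ((1 + (a.a1 + a.a2 + a.a3)) * (1 + (a.a1 - a.a2 - a.a3))
        * (1 + (-a.a1 + a.a2 - a.a3))
      + (1 + (a.a1 + a.a2 + a.a3)) * (1 + (a.a1 - a.a2 - a.a3)) * (1 + (-a.a1 - a.a2 + a.a3))
      + (1 + (a.a1 + a.a2 + a.a3)) * (1 + (-a.a1 + a.a2 - a.a3)) * (1 + (-a.a1 - a.a2 + a.a3))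
      + (1 + (a.a1 - a.a2 - a.a3)) * (1 + (-a.a1 + a.a2 - a.a3)) * (1 + (-a.a1 - a.a2 + a.a3))) := by
    unfold V3.x V3.t
    ring
  rw [e]
  positivity

theorem mult_P4 : 0 ≤ 1 - 2 * a.x + 8 * a.t + a.x ^ 2 - 4 * a.g := by
  obtain ⟨h0, h1, h2, h3⟩ := entries_nonneg h
  have e : 1 - 2 * a.x + 8 * a.t + a.x ^ 2 - 4 * a.g = (1 + (a.a1 + a.a2 + a.a3))
      * (1 + (a.a1 - a.a2 - a.a3)) * (1 + (-a.a1 + a.a2 - a.a3)) * (1 + (-a.a1 - a.a2 + a.a3)) := by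
    unfold V3.x V3.t V3.g
    ring
  rw [e]
  positivity

/-- Each parameter has absolute value at most one. -/
theorem abs_params : |a.a1| ≤ 1 ∧ |a.a2| ≤ 1 ∧ |a.a3| ≤ 1 := by
  obtain ⟨h0, h1, h2, h3⟩ := entries_nonneg h
  refine ⟨abs_le.mpr ⟨?_, ?_⟩, abs_le.mpr ⟨?_, ?_⟩, abs_le.mpr ⟨?_, ?_⟩⟩ <;> linarith

/-- The bound for the multiplier. -/
theorem gMul_lower : a.x / 60 ≤ 2 / 9 * a.x - a.t / 6 - 3 / 20 * a.g := by
  obtain ⟨h1, h2, h3⟩ := abs_params h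
  have s1 : a.a1 ^ 2 ≤ 1 := by nlinarith [abs_nonneg a.a1, sq_abs a.a1]
  have s2 : a.a2 ^ 2 ≤ 1 := by nlinarith [abs_nonneg a.a2, sq_abs a.a2]
  have s3 : a.a3 ^ 2 ≤ 1 := by nlinarith [abs_nonneg a.a3, sq_abs a.a3]
  have g1 : a.g ≤ a.x := by
    unfold V3.g V3.x
    nlinarith [mul_nonneg (sq_nonneg a.a1) (sub_nonneg.mpr s2), mul_nonneg (sq_nonneg a.a2) (sub_nonneg.mpr s3),
      mul_nonneg (sq_nonneg a.a3) (sub_nonneg.mpr s1)]
  have t1 : a.t ≤ a.x / 3 := by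
    have b1 : a.a1 * a.a2 * a.a3 ≤ |a.a1 * a.a2| := by
      have : a.a1 * a.a2 * a.a3 ≤ |a.a1 * a.a2 * a.a3| := le_abs_self _
      rw [abs_mul] at this
      have h4 : |a.a1 * a.a2| * |a.a3| ≤ |a.a1 * a.a2| * 1 :=
        mul_le_mul_of_nonneg_left h3 (abs_nonneg _)
      linarith
    have b2 : a.a1 * a.a2 * a.a3 ≤ |a.a2 * a.a3| := by
      have : a.a1 * a.a2 * a.a3 ≤ |a.a1 * a.a2 * a.a3| := le_abs_self _
      have e : |a.a1 * a.a2 * a.a3| = |a.a1| * |a.a2 * a.a3| := by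
        rw [mul_assoc, abs_mul]
      rw [e] at this
      have h4 : |a.a1| * |a.a2 * a.a3| ≤ 1 * |a.a2 * a.a3| :=
        mul_le_mul_of_nonneg_right h1 (abs_nonneg _)
      linarith
    have b3 : a.a1 * a.a2 * a.a3 ≤ |a.a3 * a.a1| := by
      have : a.a1 * a.a2 * a.a3 ≤ |a.a1 * a.a2 * a.a3| := le_abs_self _
      have e : |a.a1 * a.a2 * a.a3| = |a.a2| * |a.a3 * a.a1| := by
        rw [show a.a1 * a.a2 * a.a3 = a.a2 * (a.a3 * a.a1) by ring, abs_mul]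
      rw [e] at this
      have h4 : |a.a2| * |a.a3 * a.a1| ≤ 1 * |a.a3 * a.a1| :=
        mul_le_mul_of_nonneg_right h2 (abs_nonneg _)
      linarith
    have c1 : |a.a1 * a.a2| ≤ (a.a1 ^ 2 + a.a2 ^ 2) / 2 := by
      rw [abs_mul]
      nlinarith [sq_nonneg (|a.a1| - |a.a2|), sq_abs a.a1, sq_abs a.a2]
    have c2 : |a.a2 * a.a3| ≤ (a.a2 ^ 2 + a.a3 ^ 2) / 2 := by
      rw [abs_mul]
      nlinarith [sq_nonneg (|a.a2| - |a.a3|), sq_abs a.a2, sq_abs a.a3]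
    have c3 : |a.a3 * a.a1| ≤ (a.a3 ^ 2 + a.a1 ^ 2) / 2 := by
      rw [abs_mul]
      nlinarith [sq_nonneg (|a.a3| - |a.a1|), sq_abs a.a3, sq_abs a.a1]
    unfold V3.t V3.x
    linarith
  linarith

theorem x_le_three : a.x ≤ 3 := by
  have := mult_P2 h
  linarith

end simplex

end

end Vale.Agent.P154.Q4
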