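import Mathlib

/-!
Four-state Potts channel: the functionals on likelihood vectors used in the nonreconstruction proof.
All functionals are homogeneous of degree one in the likelihood vector.
-/

namespace Vale.Agent.P154.Q4

noncomputable section

open Finset

/-- Average of a likelihood vector. -/
def mass (v : Fin 4 → ℝ) : ℝ := (∑ i, v i) / 4

/-- Normalisation of a likelihood vector to mass one. -/
def nrm (v : Fin 4 → ℝ) (i : Fin 4) : ℝ := v i / mass v

/-- The moment `avg (u_i - 1) ^ k` of a vector. -/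
def mom (k : ℕ) (u : Fin 4 → ℝ) : ℝ := (∑ i, (u i - 1) ^ k) / 4

/-- The invariant `x`: second moment. -/
def xx (u : Fin 4 → ℝ) : ℝ := mom 2 u

/-- The invariant `t`: third moment. -/
def tt (u : Fin 4 → ℝ) : ℝ := mom 3 u

/-- The invariant `g`, determined by `avg s ^ 4 = x ^ 2 + 4 g`. -/
def gg (u : Fin 4 → ℝ) : ℝ := (mom 4 u - xx u ^ 2) / 4

/-- Chi-squared functional, homogeneous of degree one: `mass v * x(nrm v) / 3`. -/
def yy (v : Fin 4 → ℝ) : ℝ := mass v * xx (nrm v) / 3

/-- Entropy functional, homogeneous of degree one: `avg v log v - M log M`. -/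
def ent (v : Fin 4 → ℝ) : ℝ :=
  (∑ i, v i * Real.log (v i)) / 4 - mass v * Real.log (mass v)

/-- The class functional: `psi = 3 x - 6 Ent`, homogeneous of degree one. -/
def psi (v : Fin 4 → ℝ) : ℝ := 9 * yy v - 6 * ent v

/-- The multiplier `G = 2 x / 9 - t / 36 - 3 g / 20`, homogeneous of degree one. -/
def gMul (v : Fin 4 → ℝ) : ℝ :=
  mass v * (2 / 9 * xx (nrm v) - tt (nrm v) / 36 - 3 / 20 * gg (nrm v))

/-- The multiplier `w = (1 - x / 3) ^ 3`, homogeneous of degree one. -/
def wMul (v : Fin 4 → ℝ) : ℝ := mass v * (1 - xx (nrm v) / 3) ^ 3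

/-- Coordinatewise product of `u` and of `v` permuted by `g`. -/
def pv (u v : Fin 4 → ℝ) (g : Equiv.Perm (Fin 4)) (i : Fin 4) : ℝ := u i * v (g i)

/-- The Potts channel acting on a likelihood vector. -/
def chan (lam : ℝ) (v : Fin 4 → ℝ) (i : Fin 4) : ℝ := lam * v i + (1 - lam) * mass v

/-- Subadditivity of the chi-squared functional with entropy corrections. -/
def PointwiseS : Prop :=
  ∀ u v : Fin 4 → ℝ, (∀ i, 0 < u i) → (∀ i, 0 < v i) →
    (∑ g : Equiv.Perm (Fin 4), yy (pv u v g)) / 24 ≤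
      mass v * yy u + mass u * yy v - gMul v * psi u - gMul u * psi v

/-- Closure of the entropy class under products when one factor has been through the channel
with eigenvalue at most `lam0`. -/
def PointwiseC (lam0 : ℝ) : Prop :=
  ∀ u v : Fin 4 → ℝ, (∀ i, 0 < u i) → (∀ i, 0 < v i) → (∀ i, (1 - lam0) * mass v ≤ v i) →
    wMul v * psi u + wMul u * psi v ≤ (∑ g : Equiv.Perm (Fin 4), psi (pv u v g)) / 24

/-- Behaviour of the class functional under the channel. -/
def PointwiseT : Prop :=
  ∀ (lam : ℝ) (v : Fin 4 → ℝ), 0 ≤ lam → lam ≤ 1 → (∀ i, 0 ≤ v i) → 0 < mass v →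
    lam ^ 3 * psi v + lam ^ 3 * (1 - lam) / 32 * (mass v * xx (nrm v) ^ 2) ≤ psi (chan lam v)

end

end Vale.Agent.P154.Q4
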