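import Vale.Agent.P154.Q4.Main
import Vale.Agent.P154.Q4.Chan
import Vale.Agent.P154.Q4.Reduce
import Vale.Agent.P154.Q4.SFinal
import Vale.Agent.P154.Q4.CFinal

/-!
Assembly of the four state theorem from the closure estimate in the remaining region
`7 / 10 ≤ a.x`, `1 ≤ b.x`.
-/

namespace Vale.Agent.P154.Q4

noncomputable section

open Finset

/-- The sum inequality of the class holds unconditionally. -/
theorem pointwiseS_final : PointwiseS :=
  pointwiseS_of_unit fun _ _ ha hb => S_unit ha hb

/-- The closure estimate in the remaining region. -/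
def ClosureRest : Prop :=
  ∀ a b : V3, (∀ i, 0 < vecOf a i) → (∀ i, 1 / 4 ≤ vecOf b i) → 7 / 10 ≤ a.x → 1 ≤ b.x →
    wMul (vecOf b) * psi (vecOf a) + wMul (vecOf a) * psi (vecOf b)
      ≤ (∑ g, psi (pv (vecOf a) (vecOf b) g)) / 24

/-- The closure estimate at `3 / 4` follows from the remaining region. -/
theorem pointwiseC_of_rest (h : ClosureRest) : PointwiseC (3 / 4) := by
  refine pointwiseC_of_unit (3 / 4) fun a b ha _ hb => ?_
  have hb' : ∀ i, 1 / 4 ≤ vecOf b i := fun i => by
    have := hb i
    norm_num at this ⊢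
    linarith
  rcases le_total b.x 1 with hx | hx
  · exact C_case1 ha hb' hx
  · rcases le_total a.x (7 / 10) with hy | hy
    · exact C_case2 ha hb' hy hx
    · exact h a b ha hb' hy hx

end

end Vale.Agent.P154.Q4
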