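import Vale.Agent.P154.Q4.Tree

/-!
Per-tree laws on truncated trees, the expectation recursion on Galton-Watson trees and
nonreconstruction for `q = 4`, for an abstract class.
-/

namespace Vale.Agent.P154.Q4

noncomputable section

open Finset Filter Topology

/-- Expectation of a function of the last two coordinates. -/
theorem Ek_last2 {X : Type*} {p : X → ℝ} (hp0 : ∀ x, 0 ≤ p x) (hp : HasSum p 1) {g h : X → ℝ}
    {C D : ℝ} (hg : ∀ x, |g x| ≤ C) (hh : ∀ x, |h x| ≤ D) (k : ℕ) :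
    Ek p (k + 2) (fun t => g (t ⟨k, by omega⟩) * h (t ⟨k + 1, by omega⟩)) = E1 p g * E1 p h := by
  have hD : ∀ (x y : X), |g x * h y| ≤ C * D := fun x y => by
    rw [abs_mul]
    exact mul_le_mul (hg x) (hh y) (abs_nonneg _) ((abs_nonneg _).trans (hg x))
  induction k with
  | zero => exact Ek_two hp0 hp hg hh 0
  | succ k ih =>
    rw [Ek_cons hp0 hp (k + 2) (C := C * D) (fun t => hD _ _)]
    have e : ∀ x, Ek p (k + 2) (fun t =>
        g ((Fin.cons x t : Fin (k + 1 + 2) → X) ⟨k + 1, by omega⟩)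
          * h ((Fin.cons x t : Fin (k + 1 + 2) → X) ⟨k + 1 + 1, by omega⟩)) = E1 p g * E1 p h := by
      intro x
      exact ih
    simp only [e]
    rw [E1_const hp]

/-- The law of the spins at depth `n` of a truncated tree. -/
def Lt (lam : ℝ) {n : ℕ} (T : DTree n) : DTree.Config 4 T → Fin 4 → ℝ :=
  fun τ i => DTree.lik 4 lam T i τ

/-- The recursion for the law of the spins. -/
theorem Lt_node (lam : ℝ) {n : ℕ} (k : ℕ) (child : Fin k → DTree n) :
    Lt lam (DTree.node k child) = piLaw (fun c => chanLaw lam (Lt lam (child c))) := by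
  funext τ i
  show DTree.lik 4 lam (DTree.node k child) i τ = _
  unfold piLaw chanLaw
  simp only [DTree.lik]
  refine Finset.prod_congr rfl fun c _ => ?_
  exact sum_channel lam (fun j => DTree.lik 4 lam (child c) j (τ c)) i

theorem lik_leaf (lam : ℝ) (t i : Fin 4) :
    DTree.lik 4 lam DTree.leaf i t = if t = i then 1 else 0 := rfl

theorem chan_leaf (lam : ℝ) : chanLaw lam (Lt lam DTree.leaf) = firstLaw lam := by
  funext (τ : Fin 4) i
  rfl

section class_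

variable {lam0 c0 c1 : ℝ} {Psi Gm Wm : (Fin 4 → ℝ) → ℝ} {lam : ℝ}

/-- After the channel the law of any truncated tree is in the class. -/
theorem Lt_good (hc : Cls lam0 c0 c1 Psi Gm Wm) (hc1 : 0 ≤ c1) (hl : lam0 < 1)
    (h0 : 0 ≤ lam) (h1 : lam ≤ lam0) {n : ℕ} (T : DTree n) :
    IsLaw (chanLaw lam (Lt lam T)) ∧ (∀ τ, ChanOut lam0 (chanLaw lam (Lt lam T) τ))
      ∧ 0 ≤ sumF Psi (chanLaw lam (Lt lam T)) := by
  have h1' : lam < 1 := lt_of_le_of_lt h1 hl
  induction T with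
  | leaf =>
    rw [chan_leaf]
    exact ⟨firstLaw_isLaw h0 h1', fun τ => firstLaw_out h0 h1 τ, firstLaw_PP hc h0 h1⟩
  | node k child ih =>
    have hL : IsLaw (Lt lam (DTree.node k child)) := by
      rw [Lt_node]
      exact IsLaw.pi fun c => (ih c).1
    have hH : 0 ≤ sumF Psi (Lt lam (DTree.node k child)) := by
      rw [Lt_node]
      exact PP_pi_nonneg hc (fun c => (ih c).1) (fun c => (ih c).2.1) (fun c => (ih c).2.2)
    refine ⟨hL.chan h0 h1'.le, fun τ => chanOut_chan h0 h1 (fun i => (hL.pos τ i).le), ?_⟩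
    have := PP_chan hc hc1 hL h0 h1 h1'.le
    have h2 : 0 ≤ lam ^ 3 * sumF Psi (Lt lam (DTree.node k child)) := by positivity
    have h3 : 0 ≤ 9 * c1 * lam ^ 3 * (1 - lam) * (sumF yy (Lt lam (DTree.node k child))) ^ 2 := by
      have : 0 ≤ 1 - lam := by linarith
      positivity
    linarith

theorem Lt_isLaw (hc : Cls lam0 c0 c1 Psi Gm Wm) (hc1 : 0 ≤ c1) (hl : lam0 < 1)
    (h0 : 0 ≤ lam) (h1 : lam ≤ lam0) {n : ℕ} (T : DTree (n + 1)) : IsLaw (Lt lam T) := by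
  cases T with
  | node k child =>
    rw [Lt_node]
    exact IsLaw.pi fun c => (Lt_good hc hc1 hl h0 h1 (child c)).1

theorem Lt_PP (hc : Cls lam0 c0 c1 Psi Gm Wm) (hc1 : 0 ≤ c1) (hl : lam0 < 1)
    (h0 : 0 ≤ lam) (h1 : lam ≤ lam0) {n : ℕ} (T : DTree (n + 1)) : 0 ≤ sumF Psi (Lt lam T) := by
  cases T with
  | node k child =>
    rw [Lt_node]
    exact PP_pi_nonneg hc (fun c => (Lt_good hc hc1 hl h0 h1 (child c)).1)
      (fun c => (Lt_good hc hc1 hl h0 h1 (child c)).2.1)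
      (fun c => (Lt_good hc hc1 hl h0 h1 (child c)).2.2)

/-- The plain recursive bound at a vertex. -/
theorem y_node_le (hc : Cls lam0 c0 c1 Psi Gm Wm) (hc1 : 0 ≤ c1) (hl : lam0 < 1)
    (h0 : 0 ≤ lam) (h1 : lam ≤ lam0) {n : ℕ} (k : ℕ) (child : Fin k → DTree (n + 1)) :
    sumF yy (Lt lam (DTree.node k child)) ≤ lam ^ 2 * ∑ c, sumF yy (Lt lam (child c)) := by
  rw [Lt_node]
  refine (YY_pi_le hc (fun c => (Lt_good hc hc1 hl h0 h1 (child c)).1)
    (fun c => (Lt_good hc hc1 hl h0 h1 (child c)).2.1)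
    (fun c => (Lt_good hc hc1 hl h0 h1 (child c)).2.2)).trans (le_of_eq ?_)
  rw [Finset.mul_sum]
  exact Finset.sum_congr rfl fun c _ => YY_chan (Lt_isLaw hc hc1 hl h0 h1 (child c)) lam

/-- The recursive bound with saving at a vertex with at least two children. -/
theorem y_node_le2 (hc : Cls lam0 c0 c1 Psi Gm Wm) (hc0 : 0 ≤ c0) (hc1 : 0 ≤ c1) (hl : lam0 < 1)
    (h0 : 0 ≤ lam) (h1 : lam ≤ lam0) {n : ℕ} (k : ℕ) (child : Fin (k + 2) → DTree (n + 1)) :
    sumF yy (Lt lam (DTree.node (k + 2) child)) ≤ lam ^ 2 * ∑ c, sumF yy (Lt lam (child c))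
      - (27 * c0 * c1 * lam ^ 5 * (1 - lam)) *
        (sumF yy (Lt lam (child ⟨k, by omega⟩)) *
          (sumF yy (Lt lam (child ⟨k + 1, by omega⟩))) ^ 2) := by
  have h1' : lam < 1 := lt_of_le_of_lt h1 hl
  rw [Lt_node]
  have hg := fun c => Lt_good hc hc1 hl h0 h1 (child c)
  have hlaw := fun c => Lt_isLaw hc hc1 hl h0 h1 (child c)
  have h2 := YY_pi_le2 hc (L := fun c => chanLaw lam (Lt lam (child c)))
    (fun c => (hg c).1) (fun c => (hg c).2.1) (fun c => (hg c).2.2)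
  have e : ∑ c, sumF yy (chanLaw lam (Lt lam (child c)))
      = lam ^ 2 * ∑ c, sumF yy (Lt lam (child c)) := by
    rw [Finset.mul_sum]
    exact Finset.sum_congr rfl fun c _ => YY_chan (hlaw c) lam
  rw [e] at h2
  obtain ⟨a, ha⟩ : ∃ a : Fin (k + 2), a = ⟨k, by omega⟩ := ⟨_, rfl⟩
  obtain ⟨b, hb⟩ : ∃ b : Fin (k + 2), b = ⟨k + 1, by omega⟩ := ⟨_, rfl⟩
  rw [← ha, ← hb] at h2 ⊢
  have hG := GG_ge hc (hg a).1 (hg a).2.1
  rw [YY_chan (hlaw a)] at hG
  have hP := PP_chan hc hc1 (hlaw b) h0 h1 h1'.le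
  have hPb := Lt_PP hc hc1 hl h0 h1 (child b)
  have hya := YY_nonneg (hlaw a)
  have hyb := YY_nonneg (hlaw b)
  have h3 : 0 ≤ lam ^ 3 * sumF Psi (Lt lam (child b)) := by positivity
  have h4 : 9 * c1 * lam ^ 3 * (1 - lam) * (sumF yy (Lt lam (child b))) ^ 2
      ≤ sumF Psi (chanLaw lam (Lt lam (child b))) := by linarith
  have h5 : 0 ≤ 3 * c0 * (lam ^ 2 * sumF yy (Lt lam (child a))) := by positivity
  have h6 : 0 ≤ 9 * c1 * lam ^ 3 * (1 - lam) * (sumF yy (Lt lam (child b))) ^ 2 := by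
    have : 0 ≤ 1 - lam := by linarith
    positivity
  have h7 := mul_le_mul hG h4 h6 (h5.trans hG)
  refine h2.trans ?_
  have e2 : (27 * c0 * c1 * lam ^ 5 * (1 - lam))
        * (sumF yy (Lt lam (child a)) * (sumF yy (Lt lam (child b))) ^ 2)
      = 3 * c0 * (lam ^ 2 * sumF yy (Lt lam (child a)))
        * (9 * c1 * lam ^ 3 * (1 - lam) * (sumF yy (Lt lam (child b))) ^ 2) := by ring
  rw [e2]
  linarith

theorem abs_YY_le (hc : Cls lam0 c0 c1 Psi Gm Wm) (hc1 : 0 ≤ c1) (hl : lam0 < 1)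
    (h0 : 0 ≤ lam) (h1 : lam ≤ lam0) {n : ℕ} (T : DTree (n + 1)) :
    |sumF yy (Lt lam T)| ≤ 1 := by
  rw [abs_of_nonneg (YY_nonneg (Lt_isLaw hc hc1 hl h0 h1 T))]
  exact YY_le_one (Lt_isLaw hc hc1 hl h0 h1 T)

end class_

/-- The mean of the functional. -/
def ybar (w : ℕ → ℝ) (lam : ℝ) (n : ℕ) : ℝ :=
  E1 (fun T : DTree (n + 1) => T.prob w) (fun T => sumF yy (Lt lam T))

section class2

variable {lam0 c0 c1 : ℝ} {Psi Gm Wm : (Fin 4 → ℝ) → ℝ} {lam : ℝ}

theorem ybar_nonneg (hc : Cls lam0 c0 c1 Psi Gm Wm) (hc1 : 0 ≤ c1) (hl : lam0 < 1)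
    {w : ℕ → ℝ} (hw0 : ∀ k, 0 ≤ w k) (h0 : 0 ≤ lam) (h1 : lam ≤ lam0) (n : ℕ) :
    0 ≤ ybar w lam n :=
  tsum_nonneg fun T => mul_nonneg (prob_nonneg hw0 T) (YY_nonneg (Lt_isLaw hc hc1 hl h0 h1 T))

/-- The recursion for the mean of the functional. -/
theorem ybar_step (hc : Cls lam0 c0 c1 Psi Gm Wm) (hc00 : 0 ≤ c0) (hc1 : 0 ≤ c1) (hl : lam0 < 1)
    {w : ℕ → ℝ} (hw0 : ∀ k, 0 ≤ w k) (hw : HasSum w 1) {m : ℝ}
    (hm : HasSum (fun k : ℕ => (k : ℝ) * w k) m) (k₂ : ℕ) (h0 : 0 ≤ lam) (h1 : lam ≤ lam0)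
    (n : ℕ) :
    ybar w lam (n + 1) ≤ m * (lam ^ 2 * ybar w lam n)
      - w (k₂ + 2) * ((27 * c0 * c1 * lam ^ 5 * (1 - lam)) * (ybar w lam n) ^ 3) := by
  have h1' : lam < 1 := lt_of_le_of_lt h1 hl
  obtain ⟨p, hpd⟩ : ∃ p : DTree (n + 1) → ℝ, p = fun T => T.prob w := ⟨_, rfl⟩
  have hp : HasSum p 1 := by rw [hpd]; exact prob_hasSum hw0 hw (n + 1)
  have hp0 : ∀ T, 0 ≤ p T := fun T => by rw [hpd]; exact prob_nonneg hw0 T
  obtain ⟨y, hyd⟩ : ∃ y : DTree (n + 1) → ℝ, y = fun T => sumF yy (Lt lam T) := ⟨_, rfl⟩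
  have hy : ∀ T, |y T| ≤ 1 := fun T => by rw [hyd]; exact abs_YY_le hc hc1 hl h0 h1 T
  have hy0 : ∀ T, 0 ≤ y T := fun T => by
    rw [hyd]; exact YY_nonneg (Lt_isLaw hc hc1 hl h0 h1 T)
  obtain ⟨b, hb⟩ : ∃ b, b = E1 p y := ⟨_, rfl⟩
  have hbn : ybar w lam n = b := by rw [hb, hpd, hyd]; rfl
  have hb0 : 0 ≤ b := by rw [← hbn]; exact ybar_nonneg hc hc1 hl hw0 h0 h1 n
  obtain ⟨c₀, hc₀⟩ : ∃ c₀, c₀ = 27 * c0 * c1 * lam ^ 5 * (1 - lam) := ⟨_, rfl⟩
  have hc₀0 : 0 ≤ c₀ := by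
    rw [hc₀]
    have : 0 ≤ 1 - lam := by linarith
    positivity
  rw [← hc₀, hbn]
  have hF : ∀ T : DTree (n + 1 + 1), |sumF yy (Lt lam T)| ≤ 1 :=
    fun T => abs_YY_le hc hc1 hl h0 h1 T
  have hE := E1_succ hw0 hw hF
  show E1 (fun T : DTree (n + 1 + 1) => T.prob w) (fun T => sumF yy (Lt lam T)) ≤ _
  rw [hE, ← hpd]
  -- the expectation of the bound at a vertex with `k` children
  have hbdk : ∀ (k : ℕ) (t : Fin k → DTree (n + 1)), |sumF yy (Lt lam (DTree.node k t))| ≤ 1 :=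
    fun k t => hF _
  have hsumb : ∀ (k : ℕ) (t : Fin k → DTree (n + 1)),
      |lam ^ 2 * ∑ c, y (t c)| ≤ |lam ^ 2| * (k * 1) := by
    intro k t
    rw [abs_mul]
    refine mul_le_mul_of_nonneg_left ?_ (abs_nonneg _)
    refine (Finset.abs_sum_le_sum_abs _ _).trans ?_
    calc ∑ c, |y (t c)| ≤ ∑ _c : Fin k, (1 : ℝ) := Finset.sum_le_sum fun c _ => hy _
      _ = k * 1 := by simp
  have hsumE : ∀ k : ℕ, Ek p k (fun t => lam ^ 2 * ∑ c, y (t c)) = k * (lam ^ 2 * b) := by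
    intro k
    rw [Ek_const_mul, Ek_sum hp0 hp hy k, ← hb]
    ring
  have hk_le : ∀ k : ℕ, Ek p k (fun t => sumF yy (Lt lam (DTree.node k t))) ≤ k * (lam ^ 2 * b) := by
    intro k
    rw [← hsumE k]
    refine Ek_mono hp0 hp k (hbdk k) (hsumb k) (fun t => ?_)
    rw [hyd]
    exact y_node_le hc hc1 hl h0 h1 k t
  -- the saving at `k₂ + 2`
  have hk_le2 : Ek p (k₂ + 2) (fun t => sumF yy (Lt lam (DTree.node (k₂ + 2) t)))
      ≤ ((k₂ + 2 : ℕ) : ℝ) * (lam ^ 2 * b) - c₀ * b ^ 3 := by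
    have hg : ∀ x, |(y x) ^ 2| ≤ 1 := fun x => by
      rw [abs_pow]; exact pow_le_one₀ (abs_nonneg _) (hy x)
    have hprod : ∀ t : Fin (k₂ + 2) → DTree (n + 1),
        |y (t ⟨k₂, by omega⟩) * (y (t ⟨k₂ + 1, by omega⟩)) ^ 2| ≤ 1 := by
      intro t
      rw [abs_mul]
      exact mul_le_one₀ (hy _) (abs_nonneg _) (hg _)
    have hneg : ∀ t : Fin (k₂ + 2) → DTree (n + 1),
        |(- c₀) * (y (t ⟨k₂, by omega⟩) * (y (t ⟨k₂ + 1, by omega⟩)) ^ 2)| ≤ |(- c₀)| * 1 := by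
      intro t
      rw [abs_mul]
      exact mul_le_mul_of_nonneg_left (hprod t) (abs_nonneg _)
    have hle : Ek p (k₂ + 2) (fun t => sumF yy (Lt lam (DTree.node (k₂ + 2) t)))
        ≤ Ek p (k₂ + 2) (fun t => lam ^ 2 * ∑ c, y (t c)
            + (- c₀) * (y (t ⟨k₂, by omega⟩) * (y (t ⟨k₂ + 1, by omega⟩)) ^ 2)) := by
      refine Ek_mono hp0 hp (k₂ + 2) (hbdk (k₂ + 2))
        (D := |lam ^ 2| * (((k₂ + 2 : ℕ) : ℝ) * 1) + |(- c₀)| * 1)
        (fun t => (abs_add_le _ _).trans (add_le_add (hsumb _ t) (hneg t))) (fun t => ?_)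
      have := y_node_le2 hc hc00 hc1 hl h0 h1 k₂ t
      rw [← hc₀] at this
      rw [hyd]
      linarith
    rw [Ek_add hp0 hp (k₂ + 2) (hsumb (k₂ + 2)) hneg, hsumE, Ek_const_mul,
      Ek_last2 hp0 hp hy hg k₂, ← hb] at hle
    have hq := E1_sq_ge hp0 hp hy
    rw [← hb] at hq
    have : c₀ * b ^ 3 ≤ c₀ * (b * E1 p (fun x => (y x) ^ 2)) := by
      refine mul_le_mul_of_nonneg_left ?_ hc₀0
      have : b ^ 3 = b * b ^ 2 := by ring
      rw [this]
      exact mul_le_mul_of_nonneg_left hq hb0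
    linarith
  -- summing over `k`
  have hS1 : HasSum (fun k : ℕ => w k * ((k : ℝ) * (lam ^ 2 * b))) (m * (lam ^ 2 * b)) := by
    have e : (fun k : ℕ => w k * ((k : ℝ) * (lam ^ 2 * b)))
        = fun k : ℕ => (k : ℝ) * w k * (lam ^ 2 * b) := by
      funext k; ring
    rw [e]
    exact hm.mul_right (lam ^ 2 * b)
  have hS2 : HasSum (fun k : ℕ => if k = k₂ + 2 then w (k₂ + 2) * (c₀ * b ^ 3) else 0)
      (w (k₂ + 2) * (c₀ * b ^ 3)) := hasSum_ite_eq _ _
  have hS := hS1.sub hS2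
  have hLs : Summable fun k => w k * Ek p k (fun t => sumF yy (Lt lam (DTree.node k t))) := by
    refine Summable.of_norm_bounded (g := fun k => w k * 1) (hw.summable.mul_right 1) fun k => ?_
    rw [Real.norm_eq_abs, abs_mul, abs_of_nonneg (hw0 k)]
    exact mul_le_mul_of_nonneg_left (abs_Ek_le hp0 hp k (hbdk k)) (hw0 k)
  refine (hLs.tsum_le_tsum (fun k => ?_) hS.summable).trans (le_of_eq hS.tsum_eq)
  by_cases hk : k = k₂ + 2
  · subst hk
    simp only [if_true]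
    have := mul_le_mul_of_nonneg_left hk_le2 (hw0 (k₂ + 2))
    linarith
  · simp only [hk, if_false, sub_zero]
    exact mul_le_mul_of_nonneg_left (hk_le k) (hw0 k)

end class2

/-- The quantity `treeA` in terms of the law, for a positive law. -/
theorem treeA_eq {lam : ℝ} {n : ℕ} (T : DTree n) (hL : ∀ τ i, 0 < Lt lam T τ i) :
    T.treeA 4 lam = ∑ τ, (1 / 8) * ∑ i, |Lt lam T τ i - mass (Lt lam T τ)| := by
  unfold DTree.treeA
  refine Finset.sum_congr rfl fun τ _ => ?_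
  have hs : DTree.spinProb 4 lam T τ = mass (Lt lam T τ) := by
    unfold DTree.spinProb
    exact mass_eq_leafProb _
  rw [hs]
  exact term_eq (mass_pos (hL τ)) _

theorem treeA_nonneg {lam : ℝ} (h0 : 0 ≤ lam) (h1 : lam ≤ 1) {n : ℕ} (T : DTree n)
    (hlik : ∀ i τ, 0 ≤ DTree.lik 4 lam T i τ) : 0 ≤ T.treeA 4 lam := by
  unfold DTree.treeA
  refine Finset.sum_nonneg fun τ _ => mul_nonneg ?_ (by positivity)
  unfold DTree.spinProb
  refine Finset.sum_nonneg fun i _ => mul_nonneg (by positivity) (hlik i τ)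

theorem channel_nonneg {lam : ℝ} (h0 : 0 ≤ lam) (h1 : lam ≤ 1) (i j : Fin 4) :
    0 ≤ pottsChannel 4 lam i j := by
  unfold pottsChannel
  have : 0 ≤ 1 - lam := by linarith
  split_ifs <;> positivity

theorem channel_sum (lam : ℝ) (i : Fin 4) : ∑ j, pottsChannel 4 lam i j = 1 := by
  unfold pottsChannel
  rw [Fin.sum_univ_four]
  fin_cases i <;> simp <;> ring

theorem lik_nonneg {lam : ℝ} (h0 : 0 ≤ lam) (h1 : lam ≤ 1) {n : ℕ} (T : DTree n) :
    ∀ i τ, 0 ≤ DTree.lik 4 lam T i τ := by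
  induction T with
  | leaf =>
    intro i (τ : Fin 4)
    rw [lik_leaf]
    split_ifs <;> norm_num
  | node k child ih =>
    intro i τ
    simp only [DTree.lik]
    exact Finset.prod_nonneg fun c _ => Finset.sum_nonneg fun j _ =>
      mul_nonneg (channel_nonneg h0 h1 i j) (ih c j _)

theorem lik_norm (lam : ℝ) {n : ℕ} (T : DTree n) : ∀ i, ∑ τ, DTree.lik 4 lam T i τ = 1 := by
  induction T with
  | leaf =>
    intro i
    show ∑ τ : Fin 4, (if τ = i then (1 : ℝ) else 0) = 1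
    simp
  | node k child ih =>
    intro i
    show ∑ f : (∀ c, DTree.Config 4 (child c)), ∏ c, ∑ j, pottsChannel 4 lam i j
      * DTree.lik 4 lam (child c) j (f c) = 1
    have := (Finset.prod_univ_sum (fun c : Fin k => (Finset.univ : Finset (DTree.Config 4 (child c))))
      (fun c τ => ∑ j, pottsChannel 4 lam i j * DTree.lik 4 lam (child c) j τ)).symm
    simp only [Fintype.piFinset_univ] at this
    rw [this]
    refine Finset.prod_eq_one fun c _ => ?_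
    rw [Finset.sum_comm]
    have e : ∀ j, ∑ τ, pottsChannel 4 lam i j * DTree.lik 4 lam (child c) j τ
        = pottsChannel 4 lam i j := by
      intro j
      rw [← Finset.mul_sum, ih c j, mul_one]
    simp only [e]
    exact channel_sum lam i

theorem treeA_le_one {lam : ℝ} (h0 : 0 ≤ lam) (h1 : lam ≤ 1) {n : ℕ} (T : DTree n) :
    T.treeA 4 lam ≤ 1 := by
  have hl := lik_nonneg h0 h1 T
  have hterm : ∀ τ, DTree.spinProb 4 lam T τ *
      ((1 / 2) * ∑ i : Fin 4,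
      |(1 / ((4 : ℕ) : ℝ)) * DTree.lik 4 lam T i τ / DTree.spinProb 4 lam T τ - 1 / ((4 : ℕ) : ℝ)|)
      ≤ DTree.spinProb 4 lam T τ := by
    intro τ
    have hP0 : 0 ≤ DTree.spinProb 4 lam T τ :=
      Finset.sum_nonneg fun i _ => mul_nonneg (by positivity) (hl i τ)
    rcases eq_or_lt_of_le hP0 with hP | hP
    · rw [← hP]; simp
    · have hsum : ∑ i : Fin 4, ((1 / ((4 : ℕ) : ℝ)) * DTree.lik 4 lam T i τ
          / DTree.spinProb 4 lam T τ + 1 / ((4 : ℕ) : ℝ)) = 2 := by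
        rw [Finset.sum_add_distrib, ← Finset.sum_div]
        have : ∑ i : Fin 4, (1 / ((4 : ℕ) : ℝ)) * DTree.lik 4 lam T i τ
            = DTree.spinProb 4 lam T τ := rfl
        rw [this, div_self hP.ne']
        simp
        norm_num
      have hle : ∑ i : Fin 4,
          |(1 / ((4 : ℕ) : ℝ)) * DTree.lik 4 lam T i τ / DTree.spinProb 4 lam T τ - 1 / ((4 : ℕ) : ℝ)|
          ≤ 2 := by
        rw [← hsum]
        refine Finset.sum_le_sum fun i _ => ?_
        have a : 0 ≤ (1 / ((4 : ℕ) : ℝ)) * DTree.lik 4 lam T i τ / DTree.spinProb 4 lam T τ :=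
          div_nonneg (mul_nonneg (by positivity) (hl i τ)) hP.le
        have b : (0 : ℝ) ≤ 1 / ((4 : ℕ) : ℝ) := by positivity
        rw [abs_le]
        constructor <;> linarith
      nlinarith
  unfold DTree.treeA
  refine (Finset.sum_le_sum fun τ _ => hterm τ).trans (le_of_eq ?_)
  unfold DTree.spinProb
  rw [Finset.sum_comm]
  have e : ∀ i : Fin 4, ∑ τ, (1 / ((4 : ℕ) : ℝ)) * DTree.lik 4 lam T i τ = 1 / ((4 : ℕ) : ℝ) := by
    intro i
    rw [← Finset.mul_sum, lik_norm lam T i, mul_one]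
  simp only [e]
  simp

theorem abs_treeA_le {lam : ℝ} (h0 : 0 ≤ lam) (h1 : lam ≤ 1) {n : ℕ} (T : DTree n) :
    |T.treeA 4 lam| ≤ 1 := by
  rw [abs_of_nonneg (treeA_nonneg h0 h1 T (lik_nonneg h0 h1 T))]
  exact treeA_le_one h0 h1 T

/-- Summability of the series defining `a_n`. -/
theorem gwA_summable {w : ℕ → ℝ} (hw0 : ∀ k, 0 ≤ w k) (hw : HasSum w 1) {lam : ℝ} (h0 : 0 ≤ lam)
    (h1 : lam ≤ 1) (n : ℕ) : Summable fun T : DTree n => T.prob w * T.treeA 4 lam :=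
  E1_summable (prob_nonneg hw0) (prob_hasSum hw0 hw n) (abs_treeA_le h0 h1)

section class3

variable {lam0 c0 c1 : ℝ} {Psi Gm Wm : (Fin 4 → ℝ) → ℝ} {lam : ℝ}

/-- The bound of `a_n` by the functional. -/
theorem gwA_sq_le (hc : Cls lam0 c0 c1 Psi Gm Wm) (hc1 : 0 ≤ c1) (hl : lam0 < 1)
    {w : ℕ → ℝ} (hw0 : ∀ k, 0 ≤ w k) (hw : HasSum w 1) (h0 : 0 ≤ lam) (h1 : lam ≤ lam0) (n : ℕ) :
    (gwA 4 w lam (n + 1)) ^ 2 ≤ (3 / 4) * ybar w lam n := by
  have h1' : lam < 1 := lt_of_le_of_lt h1 hl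
  have hp := prob_hasSum hw0 hw (n + 1)
  have hp0 : ∀ T : DTree (n + 1), 0 ≤ T.prob w := prob_nonneg hw0
  have h2 := E1_sq_ge hp0 hp (f := fun T => T.treeA 4 lam) (abs_treeA_le h0 h1'.le)
  have hle : E1 (fun T : DTree (n + 1) => T.prob w) (fun T => (T.treeA 4 lam) ^ 2)
      ≤ E1 (fun T : DTree (n + 1) => T.prob w) (fun T => (3 / 4) * sumF yy (Lt lam T)) := by
    refine E1_mono hp0 hp (C := 1) (D := 1) (fun T => ?_) (fun T => ?_) (fun T => ?_)
    · rw [abs_pow]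
      exact pow_le_one₀ (abs_nonneg _) (abs_treeA_le h0 h1'.le T)
    · rw [abs_mul, abs_of_nonneg (by norm_num : (0 : ℝ) ≤ 3 / 4)]
      have := abs_YY_le hc hc1 hl h0 h1 T
      linarith
    · rw [treeA_eq T (Lt_isLaw hc hc1 hl h0 h1 T).pos]
      exact sq_sum_le (Lt_isLaw hc hc1 hl h0 h1 T)
  rw [E1_const_mul] at hle
  show (E1 (fun T : DTree (n + 1) => T.prob w) (fun T => T.treeA 4 lam)) ^ 2 ≤ _
  unfold ybar
  linarith

/-- Nonreconstruction for a general offspring law. -/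
theorem gw_main (hc : Cls lam0 c0 c1 Psi Gm Wm) (hc0 : 0 < c0) (hc1 : 0 < c1) (hl : lam0 < 1)
    {w : ℕ → ℝ} (hw0 : ∀ k, 0 ≤ w k) (hw : HasSum w 1) {m : ℝ}
    (hm : HasSum (fun k : ℕ => (k : ℝ) * w k) m) (k₂ : ℕ) (hk₂ : 0 < w (k₂ + 2))
    (h0 : 0 ≤ lam) (h1 : lam ≤ lam0) (hlam : m * lam ^ 2 ≤ 1) :
    Tendsto (gwA 4 w lam) atTop (𝓝 0) := by
  have h1' : lam < 1 := lt_of_le_of_lt h1 hl
  have hm0 : 0 ≤ m := hm.nonneg fun k => mul_nonneg (Nat.cast_nonneg k) (hw0 k)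
  have hy0 := ybar_nonneg hc hc1.le hl hw0 h0 h1
  have hstep := ybar_step hc hc0.le hc1.le hl hw0 hw hm k₂ h0 h1
  have hylim : Tendsto (ybar w lam) atTop (𝓝 0) := by
    rcases eq_or_lt_of_le h0 with h00 | h00
    · subst h00
      refine (tendsto_add_atTop_iff_nat 1).1 ?_
      refine tendsto_const_nhds.congr fun n => ?_
      have := hstep n
      have h2 := hy0 (n + 1)
      norm_num at this
      linarith
    · refine tendsto_zero_of_cubic (c := w (k₂ + 2) * (27 * c0 * c1 * lam ^ 5 * (1 - lam))) ?_ hy0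
        (fun n => ?_)
      · have : 0 < 1 - lam := by linarith
        positivity
      · have h2 := hstep n
        have h3 : m * (lam ^ 2 * ybar w lam n) ≤ ybar w lam n := by
          have := mul_le_mul_of_nonneg_right hlam (hy0 n)
          nlinarith
        nlinarith
  refine (tendsto_add_atTop_iff_nat 1).1 ?_
  have hsq : Tendsto (fun n => Real.sqrt ((3 / 4) * ybar w lam n)) atTop (𝓝 0) := by
    have := (Real.continuous_sqrt.tendsto ((3 / 4) * 0)).comp (hylim.const_mul (3 / 4))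
    have e : Real.sqrt ((3 / 4) * 0) = 0 := by simp
    rw [e] at this
    exact this
  refine squeeze_zero (fun n => ?_) (fun n => ?_) hsq
  · exact tsum_nonneg fun T => mul_nonneg (prob_nonneg hw0 T)
      (treeA_nonneg h0 h1'.le T (lik_nonneg h0 h1'.le T))
  · exact Real.le_sqrt_of_sq_le (gwA_sq_le hc hc1.le hl hw0 hw h0 h1 n)

end class3

/-- If no vertex of depth `n` exists then the spins do not depend on the spin of the root. -/
theorem lik_indep (lam : ℝ) {n : ℕ} (T : DTree n) :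
    surv T = 0 → ∀ τ i i', DTree.lik 4 lam T i τ = DTree.lik 4 lam T i' τ := by
  induction T with
  | leaf =>
    intro h
    have : surv DTree.leaf = 1 := rfl
    rw [this] at h
    norm_num at h
  | node k child ih =>
    intro h τ i i'
    simp only [surv] at h
    have hall : ∀ c, surv (child c) = 0 := by
      intro c
      by_contra hc
      have hc1 : surv (child c) = 1 := (surv_values _).resolve_left hc
      have : ∏ c : Fin k, (1 - surv (child c)) = 0 :=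
        Finset.prod_eq_zero (Finset.mem_univ c) (by rw [hc1]; norm_num)
      rw [this] at h
      norm_num at h
    simp only [DTree.lik]
    refine Finset.prod_congr rfl fun c _ => ?_
    have e : ∀ i₁ : Fin 4, ∑ j, pottsChannel 4 lam i₁ j * DTree.lik 4 lam (child c) j (τ c)
        = DTree.lik 4 lam (child c) 0 (τ c) := by
      intro i₁
      have : ∀ j, pottsChannel 4 lam i₁ j * DTree.lik 4 lam (child c) j (τ c)
          = pottsChannel 4 lam i₁ j * DTree.lik 4 lam (child c) 0 (τ c) := by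
        intro j
        rw [ih c (hall c) (τ c) j 0]
      simp only [this]
      rw [← Finset.sum_mul, channel_sum, one_mul]
    rw [e, e]

theorem treeA_eq_zero (lam : ℝ) {n : ℕ} (T : DTree n) (h : surv T = 0) : T.treeA 4 lam = 0 := by
  unfold DTree.treeA
  refine Finset.sum_eq_zero fun τ _ => ?_
  have hP : DTree.spinProb 4 lam T τ = DTree.lik 4 lam T 0 τ := by
    unfold DTree.spinProb
    have : ∀ i, (1 / ((4 : ℕ) : ℝ)) * DTree.lik 4 lam T i τ
        = (1 / ((4 : ℕ) : ℝ)) * DTree.lik 4 lam T 0 τ := by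
      intro i
      rw [lik_indep lam T h τ i 0]
    simp only [this]
    simp
  by_cases hz : DTree.lik 4 lam T 0 τ = 0
  · rw [hP, hz, zero_mul]
  · have : ∀ i : Fin 4, |(1 / ((4 : ℕ) : ℝ)) * DTree.lik 4 lam T i τ / DTree.spinProb 4 lam T τ
        - 1 / ((4 : ℕ) : ℝ)| = 0 := by
      intro i
      rw [lik_indep lam T h τ i 0, hP]
      field_simp
      simp
    have hs : ∑ i : Fin 4, |(1 / ((4 : ℕ) : ℝ)) * DTree.lik 4 lam T i τ
        / DTree.spinProb 4 lam T τ - 1 / ((4 : ℕ) : ℝ)| = 0 :=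
      Finset.sum_eq_zero fun i _ => this i
    rw [hs]
    simp

theorem treeA_le_surv {lam : ℝ} (h0 : 0 ≤ lam) (h1 : lam ≤ 1) {n : ℕ} (T : DTree n) :
    T.treeA 4 lam ≤ surv T := by
  rcases surv_values T with h | h
  · rw [treeA_eq_zero lam T h, h]
  · rw [h]; exact treeA_le_one h0 h1 T

/-- A Poisson tree of mean at most one dies out, hence no information survives. -/
theorem gw_extinct {d : ℝ} (hd : 0 ≤ d) (hd1 : d ≤ 1) {lam : ℝ} (h0 : 0 ≤ lam) (h1 : lam ≤ 1) :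
    Tendsto (gwA 4 (poissonWeight d) lam) atTop (𝓝 0) := by
  have hw0 := poisson_nonneg hd
  have hw := poisson_hasSum d
  have hs0 := sbar_nonneg hw0
  have hs1 := sbar_le_one hw0 hw
  have hlim : Tendsto (sbar (poissonWeight d)) atTop (𝓝 0) := by
    refine tendsto_zero_of_cubic (c := 1 / 3) (by norm_num) hs0 (fun n => ?_)
    rw [sbar_poisson hd]
    obtain ⟨s, hs⟩ : ∃ s, s = sbar (poissonWeight d) n := ⟨_, rfl⟩
    rw [← hs]
    have h2 : 0 ≤ s := by rw [hs]; exact hs0 n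
    have h3 : s ≤ 1 := by rw [hs]; exact hs1 n
    have h4 := exp_neg_ge h2 h3
    have h5 : Real.exp (-s) ≤ Real.exp (-(d * s)) := by
      apply Real.exp_le_exp.2
      nlinarith
    have e : 1 / 3 * s ^ 3 = s ^ 3 / 3 := by ring
    rw [e]
    linarith
  refine squeeze_zero (fun n => ?_) (fun n => ?_) hlim
  · exact tsum_nonneg fun T => mul_nonneg (prob_nonneg hw0 T)
      (treeA_nonneg h0 h1 T (lik_nonneg h0 h1 T))
  · refine E1_mono (prob_nonneg hw0) (prob_hasSum hw0 hw n) (abs_treeA_le h0 h1) abs_surv_le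
      (fun T => treeA_le_surv h0 h1 T)

/-- Main abstract theorem: nonreconstruction for `q = 4`, `lam ≥ 0`, from a class with the
properties `Cls`. -/
theorem cls_main {lam0 c0 c1 : ℝ} {Psi Gm Wm : (Fin 4 → ℝ) → ℝ}
    (hc : Cls lam0 c0 c1 Psi Gm Wm) (hc0 : 0 < c0) (hc1 : 0 < c1) (hl : lam0 < 1) :
    (∀ d : ℕ, 2 ≤ d → ∀ lam : ℝ, 0 ≤ lam → lam ≤ lam0 → (d : ℝ) * lam ^ 2 ≤ 1 →
      Tendsto (reconA 4 d lam) atTop (𝓝 0))
    ∧ (∀ d : ℝ, 0 < d → ∀ lam : ℝ, 0 ≤ lam → lam ≤ 1 → d * lam ^ 2 ≤ 1 → (d ≤ 1 ∨ lam ≤ lam0) →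
      (∀ n, Summable fun T : DTree n => T.prob (poissonWeight d) * T.treeA 4 lam)
      ∧ Tendsto (gwA 4 (poissonWeight d) lam) atTop (𝓝 0)) := by
  refine ⟨fun d hd lam h0 h1 hlam => reconA_tendsto_zero hc hc0 hc1 hl hd h0 h1 hlam, ?_⟩
  intro d hd lam h0 h1 hlam hcase
  refine ⟨gwA_summable (poisson_nonneg hd.le) (poisson_hasSum d) h0 h1, ?_⟩
  rcases hcase with h2 | h2
  · exact gw_extinct hd.le h2 h0 h1
  · refine gw_main hc hc0 hc1 hl (poisson_nonneg hd.le) (poisson_hasSum d) (poisson_mean d) 0 ?_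
      h0 h2 hlam
    unfold poissonWeight
    positivity

end

end Vale.Agent.P154.Q4
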