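import Vale.Agent.P154.Q4.Chan

/-!
Symmetric likelihood laws on `Fin 4`, their products and the channel, for an abstract class
functional `Psi` with multipliers `Gm`, `Wm`.

The hypotheses on the class are collected in the structure `Cls`.
-/

namespace Vale.Agent.P154.Q4

noncomputable section

open Finset

variable {Ω Ω₁ Ω₂ Ω' : Type*} [Fintype Ω] [Fintype Ω₁] [Fintype Ω₂] [Fintype Ω']

/-- A positive normalised symmetric family of likelihood vectors. -/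
structure IsLaw (L : Ω → Fin 4 → ℝ) : Prop where
  pos : ∀ τ i, 0 < L τ i
  norm : ∀ i, ∑ τ, L τ i = 1
  symm : ∀ g : Equiv.Perm (Fin 4), ∃ e : Ω ≃ Ω, ∀ τ i, L (e τ) i = L τ (g i)

/-- Sum of a functional over a law. -/
def sumF (F : (Fin 4 → ℝ) → ℝ) (L : Ω → Fin 4 → ℝ) : ℝ := ∑ τ, F (L τ)

/-- The condition saying that a likelihood vector is a channel output. -/
def ChanOut (lam0 : ℝ) (v : Fin 4 → ℝ) : Prop := ∀ i, (1 - lam0) * mass v ≤ v i

/-- The hypotheses on the class functional and its multipliers. -/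
structure Cls (lam0 c0 c1 : ℝ) (Psi Gm Wm : (Fin 4 → ℝ) → ℝ) : Prop where
  hG : ∀ v : Fin 4 → ℝ, (∀ i, 0 < v i) → 0 ≤ Gm v
  hW : ∀ v : Fin 4 → ℝ, (∀ i, 0 < v i) → 0 ≤ Wm v
  hGl : ∀ v : Fin 4 → ℝ, (∀ i, 0 < v i) → ChanOut lam0 v → c0 * (mass v * xx (nrm v)) ≤ Gm v
  hS : ∀ u v : Fin 4 → ℝ, (∀ i, 0 < u i) → (∀ i, 0 < v i) → ChanOut lam0 v →
    (∑ g : Equiv.Perm (Fin 4), yy (pv u v g)) / 24 ≤
      mass v * yy u + mass u * yy v - Gm v * Psi u - Gm u * Psi v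
  hC : ∀ u v : Fin 4 → ℝ, (∀ i, 0 < u i) → (∀ i, 0 < v i) → ChanOut lam0 v →
    Wm v * Psi u + Wm u * Psi v ≤ (∑ g : Equiv.Perm (Fin 4), Psi (pv u v g)) / 24
  hT : ∀ (lam : ℝ) (v : Fin 4 → ℝ), 0 ≤ lam → lam ≤ lam0 → (∀ i, 0 < v i) →
    lam ^ 3 * Psi v + c1 * lam ^ 3 * (1 - lam) * (mass v * xx (nrm v) ^ 2) ≤ Psi (chan lam v)
  hStart : ∀ (lam : ℝ) (j : Fin 4), 0 ≤ lam → lam ≤ lam0 →
    0 ≤ Psi (chan lam (fun i => if j = i then 1 else 0))
  hOne : 0 ≤ Psi (fun _ => 1)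

theorem mass_pos {v : Fin 4 → ℝ} (h : ∀ i, 0 < v i) : 0 < mass v := by
  unfold mass
  have : 0 < ∑ i, v i := Finset.sum_pos (fun i _ => h i) Finset.univ_nonempty
  positivity

theorem sum_mass {L : Ω → Fin 4 → ℝ} (h : IsLaw L) : ∑ τ, mass (L τ) = 1 := by
  unfold mass
  rw [← Finset.sum_div, Finset.sum_comm]
  simp only [h.norm]
  simp

theorem xx_nonneg (v : Fin 4 → ℝ) : 0 ≤ xx v := by
  unfold xx mom
  exact div_nonneg (Finset.sum_nonneg fun i _ => sq_nonneg _) (by norm_num)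

theorem yy_nonneg {v : Fin 4 → ℝ} (h : ∀ i, 0 < v i) : 0 ≤ yy v := by
  unfold yy
  have := mass_pos h
  have := xx_nonneg (nrm v)
  positivity

theorem sum_nrm {v : Fin 4 → ℝ} (h : ∀ i, 0 < v i) : ∑ i, nrm v i = 4 := by
  have hm := mass_pos h
  unfold nrm
  rw [← Finset.sum_div]
  have : ∑ i, v i = 4 * mass v := by unfold mass; ring
  rw [this]
  field_simp

theorem nrm_pos {v : Fin 4 → ℝ} (h : ∀ i, 0 < v i) (i : Fin 4) : 0 < nrm v i :=
  div_pos (h i) (mass_pos h)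

/-- The second moment of a normalised vector is at most three. -/
theorem xx_nrm_le {v : Fin 4 → ℝ} (h : ∀ i, 0 < v i) : xx (nrm v) ≤ 3 := by
  have hs := sum_nrm h
  have hp := nrm_pos h
  have hle : ∀ i, nrm v i ≤ 4 := by
    intro i
    have := Finset.single_le_sum (f := nrm v) (fun j _ => (hp j).le) (Finset.mem_univ i)
    linarith
  have hsq : ∑ i, (nrm v i - 1) ^ 2 = ∑ i, (nrm v i) ^ 2 - 4 := by
    have : ∀ i, (nrm v i - 1) ^ 2 = (nrm v i) ^ 2 - 2 * nrm v i + 1 := fun i => by ring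
    simp only [this]
    rw [Finset.sum_add_distrib, Finset.sum_sub_distrib, ← Finset.mul_sum, hs]
    simp
    ring
  have hq : ∑ i, (nrm v i) ^ 2 ≤ 16 := by
    calc ∑ i, (nrm v i) ^ 2 ≤ ∑ i, 4 * nrm v i :=
          Finset.sum_le_sum fun i _ => by nlinarith [hp i, hle i]
      _ = 16 := by rw [← Finset.mul_sum, hs]; norm_num
  unfold xx mom
  rw [hsq]
  linarith

theorem yy_le_mass {v : Fin 4 → ℝ} (h : ∀ i, 0 < v i) : yy v ≤ mass v := by
  unfold yy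
  have := mass_pos h
  have := xx_nrm_le h
  nlinarith

/-- Functionals of a symmetric law do not see the permutation. -/
theorem sum_avg (F : (Fin 4 → ℝ) → ℝ) {L : Ω → Fin 4 → ℝ} (h : IsLaw L) (u : Fin 4 → ℝ) :
    ∑ τ, (∑ g : Equiv.Perm (Fin 4), F (pv u (L τ) g)) / 24 = ∑ τ, F (fun i => u i * L τ i) := by
  rw [← Finset.sum_div, Finset.sum_comm]
  have key : ∀ g : Equiv.Perm (Fin 4), ∑ τ, F (pv u (L τ) g) = ∑ τ, F (fun i => u i * L τ i) := by
    intro g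
    obtain ⟨e, he⟩ := h.symm g
    rw [← Equiv.sum_comp e (fun τ => F (fun i => u i * L τ i))]
    refine Finset.sum_congr rfl fun τ _ => ?_
    congr 1
    funext i
    unfold pv
    rw [he]
  simp only [key]
  have hc : (Finset.univ : Finset (Equiv.Perm (Fin 4))).card = 24 := by
    rw [Finset.card_univ, Fintype.card_perm, Fintype.card_fin]
    decide
  rw [Finset.sum_const, hc]
  simp

/-- Product of two laws: independent observations. -/
def prodLaw (L₁ : Ω₁ → Fin 4 → ℝ) (L₂ : Ω₂ → Fin 4 → ℝ) : Ω₁ × Ω₂ → Fin 4 → ℝ :=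
  fun p i => L₂ p.2 i * L₁ p.1 i

theorem IsLaw.prod {L₁ : Ω₁ → Fin 4 → ℝ} {L₂ : Ω₂ → Fin 4 → ℝ} (h₁ : IsLaw L₁) (h₂ : IsLaw L₂) :
    IsLaw (prodLaw L₁ L₂) where
  pos := fun p i => mul_pos (h₂.pos p.2 i) (h₁.pos p.1 i)
  norm := fun i => by
    unfold prodLaw
    rw [Fintype.sum_prod_type]
    have e : ∀ τ, ∑ σ, L₂ σ i * L₁ τ i = L₁ τ i := by
      intro τ
      rw [← Finset.sum_mul, h₂.norm, one_mul]
    simp only [e, h₁.norm]
  symm := fun g => by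
    obtain ⟨e₁, he₁⟩ := h₁.symm g
    obtain ⟨e₂, he₂⟩ := h₂.symm g
    refine ⟨Equiv.prodCongr e₁ e₂, fun p i => ?_⟩
    simp [prodLaw, he₁, he₂]

/-- A functional on the product law as an iterated sum, the sum over the first factor inside. -/
theorem sumF_prod (F : (Fin 4 → ℝ) → ℝ) (L₁ : Ω₁ → Fin 4 → ℝ) (L₂ : Ω₂ → Fin 4 → ℝ) :
    sumF F (prodLaw L₁ L₂) = ∑ σ, ∑ τ, F (fun i => L₂ σ i * L₁ τ i) := by
  unfold sumF
  rw [Fintype.sum_prod_type, Finset.sum_comm]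
  rfl

/-- Subadditivity with correction: the first factor is a channel output. -/
theorem YY_prod_le {lam0 c0 c1 : ℝ} {Psi Gm Wm : (Fin 4 → ℝ) → ℝ}
    (hc : Cls lam0 c0 c1 Psi Gm Wm) {L₁ : Ω₁ → Fin 4 → ℝ} {L₂ : Ω₂ → Fin 4 → ℝ}
    (h₁ : IsLaw L₁) (h₂ : IsLaw L₂) (hout : ∀ τ, ChanOut lam0 (L₁ τ)) :
    sumF yy (prodLaw L₁ L₂) ≤ sumF yy L₁ + sumF yy L₂
      - sumF Gm L₁ * sumF Psi L₂ - sumF Gm L₂ * sumF Psi L₁ := by
  rw [sumF_prod]
  have hin : ∀ σ, ∑ τ, yy (fun i => L₂ σ i * L₁ τ i)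
      ≤ yy (L₂ σ) + mass (L₂ σ) * sumF yy L₁ - sumF Gm L₁ * Psi (L₂ σ)
        - Gm (L₂ σ) * sumF Psi L₁ := by
    intro σ
    rw [← sum_avg yy h₁ (L₂ σ)]
    have hp : ∀ τ, (∑ g : Equiv.Perm (Fin 4), yy (pv (L₂ σ) (L₁ τ) g)) / 24 ≤ _ :=
      fun τ => hc.hS (L₂ σ) (L₁ τ) (h₂.pos σ) (h₁.pos τ) (hout τ)
    refine (Finset.sum_le_sum fun τ _ => hp τ).trans (le_of_eq ?_)
    simp only [Finset.sum_sub_distrib, Finset.sum_add_distrib, ← Finset.sum_mul,
      ← Finset.mul_sum, sum_mass h₁]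
    unfold sumF
    ring
  refine (Finset.sum_le_sum fun σ _ => hin σ).trans (le_of_eq ?_)
  simp only [Finset.sum_sub_distrib, Finset.sum_add_distrib, ← Finset.sum_mul,
    ← Finset.mul_sum, sum_mass h₂]
  unfold sumF
  ring

/-- The class functional on products: the first factor is a channel output. -/
theorem PP_prod_ge {lam0 c0 c1 : ℝ} {Psi Gm Wm : (Fin 4 → ℝ) → ℝ}
    (hc : Cls lam0 c0 c1 Psi Gm Wm) {L₁ : Ω₁ → Fin 4 → ℝ} {L₂ : Ω₂ → Fin 4 → ℝ}
    (h₁ : IsLaw L₁) (h₂ : IsLaw L₂) (hout : ∀ τ, ChanOut lam0 (L₁ τ)) :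
    sumF Wm L₁ * sumF Psi L₂ + sumF Wm L₂ * sumF Psi L₁ ≤ sumF Psi (prodLaw L₁ L₂) := by
  rw [sumF_prod]
  have hin : ∀ σ, sumF Wm L₁ * Psi (L₂ σ) + Wm (L₂ σ) * sumF Psi L₁
      ≤ ∑ τ, Psi (fun i => L₂ σ i * L₁ τ i) := by
    intro σ
    rw [← sum_avg Psi h₁ (L₂ σ)]
    have hp : ∀ τ, Wm (L₁ τ) * Psi (L₂ σ) + Wm (L₂ σ) * Psi (L₁ τ)
        ≤ (∑ g : Equiv.Perm (Fin 4), Psi (pv (L₂ σ) (L₁ τ) g)) / 24 :=
      fun τ => hc.hC (L₂ σ) (L₁ τ) (h₂.pos σ) (h₁.pos τ) (hout τ)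
    refine le_trans (le_of_eq ?_) (Finset.sum_le_sum fun τ _ => hp τ)
    simp only [Finset.sum_add_distrib, ← Finset.sum_mul, ← Finset.mul_sum]
    unfold sumF
    ring
  refine le_trans (le_of_eq ?_) (Finset.sum_le_sum fun σ _ => hin σ)
  simp only [Finset.sum_add_distrib, ← Finset.sum_mul, ← Finset.mul_sum]
  unfold sumF
  ring

theorem sumF_nonneg {F : (Fin 4 → ℝ) → ℝ} {L : Ω → Fin 4 → ℝ}
    (hF : ∀ v : Fin 4 → ℝ, (∀ i, 0 < v i) → 0 ≤ F v) (h : IsLaw L) : 0 ≤ sumF F L :=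
  Finset.sum_nonneg fun τ _ => hF _ (h.pos τ)

theorem YY_nonneg {L : Ω → Fin 4 → ℝ} (h : IsLaw L) : 0 ≤ sumF yy L :=
  sumF_nonneg (fun _ hv => yy_nonneg hv) h

theorem YY_le_one {L : Ω → Fin 4 → ℝ} (h : IsLaw L) : sumF yy L ≤ 1 := by
  rw [← sum_mass h]
  exact Finset.sum_le_sum fun τ _ => yy_le_mass (h.pos τ)

/-- Transport of a law along an equivalence. -/
theorem IsLaw.comp_equiv {L : Ω → Fin 4 → ℝ} (h : IsLaw L) (E : Ω' ≃ Ω) :
    IsLaw (fun τ i => L (E τ) i) where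
  pos := fun τ i => h.pos _ i
  norm := fun i => by rw [Equiv.sum_comp E (fun τ => L τ i)]; exact h.norm i
  symm := fun g => by
    obtain ⟨e, he⟩ := h.symm g
    refine ⟨E.trans (e.trans E.symm), fun τ i => ?_⟩
    simp [he]

theorem sumF_comp_equiv (F : (Fin 4 → ℝ) → ℝ) (L : Ω → Fin 4 → ℝ) (E : Ω' ≃ Ω) :
    sumF F (fun τ i => L (E τ) i) = sumF F L := by
  unfold sumF
  exact Equiv.sum_comp E (fun τ => F (L τ))

/-- Independent product of finitely many laws. -/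
def piLaw {k : ℕ} {Ω : Fin k → Type} (L : ∀ c, Ω c → Fin 4 → ℝ) : (∀ c, Ω c) → Fin 4 → ℝ :=
  fun f i => ∏ c, L c (f c) i

theorem IsLaw.pi {k : ℕ} {Ω : Fin k → Type} [∀ c, Fintype (Ω c)] {L : ∀ c, Ω c → Fin 4 → ℝ}
    (h : ∀ c, IsLaw (L c)) : IsLaw (piLaw L) where
  pos := fun f i => Finset.prod_pos fun c _ => (h c).pos _ i
  norm := fun i => by
    unfold piLaw
    have := (Finset.prod_univ_sum (fun c : Fin k => (Finset.univ : Finset (Ω c)))
      (fun c τ => L c τ i)).symm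
    simp only [Fintype.piFinset_univ] at this
    rw [this]
    simp [(h _).norm]
  symm := fun g => by
    choose e he using fun c => (h c).symm g
    refine ⟨Equiv.piCongrRight e, fun f i => ?_⟩
    simp [piLaw, he]

/-- The product over `k + 1` laws as a product law. -/
theorem piLaw_succ {k : ℕ} {Ω : Fin (k + 1) → Type} (L : ∀ c, Ω c → Fin 4 → ℝ) :
    piLaw L = fun f i =>
      prodLaw (L 0) (piLaw (fun c => L (Fin.succ c))) ((Fin.consEquiv Ω).symm f) i := by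
  funext f i
  simp [piLaw, prodLaw, Fin.prod_univ_succ, Fin.consEquiv, Fin.tail, mul_comm]

theorem sumF_pi_zero (F : (Fin 4 → ℝ) → ℝ) {Ω : Fin 0 → Type} [∀ c, Fintype (Ω c)]
    (L : ∀ c, Ω c → Fin 4 → ℝ) : sumF F (piLaw L) = F (fun _ => 1) := by
  unfold sumF
  have e : ∀ f, piLaw L f = fun _ => 1 := by
    intro f
    funext i
    simp [piLaw]
  simp [e]

theorem yy_one : yy (fun _ => (1 : ℝ)) = 0 := by
  unfold yy xx mom nrm mass
  simp

/-- One law as a product of one law. -/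
theorem sumF_pi_one (F : (Fin 4 → ℝ) → ℝ) {Ω : Fin 1 → Type} [∀ c, Fintype (Ω c)]
    (L : ∀ c, Ω c → Fin 4 → ℝ) : sumF F (piLaw L) = sumF F (L 0) := by
  unfold sumF
  rw [← Equiv.sum_comp (Equiv.piUnique Ω).symm]
  refine Finset.sum_congr rfl fun τ _ => ?_
  congr 1
  funext i
  simp [piLaw]
  rfl

/-- Closure of the class under products of channel outputs. -/
theorem PP_pi_nonneg {lam0 c0 c1 : ℝ} {Psi Gm Wm : (Fin 4 → ℝ) → ℝ}
    (hc : Cls lam0 c0 c1 Psi Gm Wm) {k : ℕ} {Ω : Fin k → Type} [∀ c, Fintype (Ω c)]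
    {L : ∀ c, Ω c → Fin 4 → ℝ} (h : ∀ c, IsLaw (L c)) (hout : ∀ c τ, ChanOut lam0 (L c τ))
    (hP : ∀ c, 0 ≤ sumF Psi (L c)) : 0 ≤ sumF Psi (piLaw L) := by
  induction k with
  | zero =>
    rw [sumF_pi_zero]
    exact hc.hOne
  | succ k ih =>
    rw [piLaw_succ, sumF_comp_equiv]
    have hrL := IsLaw.pi (L := fun c => L (Fin.succ c)) (fun c => h _)
    have hr := ih (L := fun c => L (Fin.succ c)) (fun c => h _) (fun c => hout _) (fun c => hP _)
    have := PP_prod_ge hc (h 0) hrL (hout 0)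
    have h1 := sumF_nonneg hc.hW (h 0)
    have h2 := sumF_nonneg hc.hW hrL
    have h3 := hP 0
    have : 0 ≤ sumF Wm (L 0) * sumF Psi (piLaw fun c => L (Fin.succ c)) := mul_nonneg h1 hr
    have : 0 ≤ sumF Wm (piLaw fun c => L (Fin.succ c)) * sumF Psi (L 0) := mul_nonneg h2 h3
    linarith

/-- Subadditivity on products of channel outputs. -/
theorem YY_pi_le {lam0 c0 c1 : ℝ} {Psi Gm Wm : (Fin 4 → ℝ) → ℝ}
    (hc : Cls lam0 c0 c1 Psi Gm Wm) {k : ℕ} {Ω : Fin k → Type} [∀ c, Fintype (Ω c)]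
    {L : ∀ c, Ω c → Fin 4 → ℝ} (h : ∀ c, IsLaw (L c)) (hout : ∀ c τ, ChanOut lam0 (L c τ))
    (hP : ∀ c, 0 ≤ sumF Psi (L c)) : sumF yy (piLaw L) ≤ ∑ c, sumF yy (L c) := by
  induction k with
  | zero =>
    rw [sumF_pi_zero, yy_one]
    simp
  | succ k ih =>
    rw [piLaw_succ, sumF_comp_equiv, Fin.sum_univ_succ]
    have hrL := IsLaw.pi (L := fun c => L (Fin.succ c)) (fun c => h _)
    have hr := ih (L := fun c => L (Fin.succ c)) (fun c => h _) (fun c => hout _) (fun c => hP _)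
    have hrP := PP_pi_nonneg hc (L := fun c => L (Fin.succ c)) (fun c => h _) (fun c => hout _)
      (fun c => hP _)
    have h1 := YY_prod_le hc (h 0) hrL (hout 0)
    have h2 : 0 ≤ sumF Gm (L 0) * sumF Psi (piLaw fun c => L (Fin.succ c)) :=
      mul_nonneg (sumF_nonneg hc.hG (h 0)) hrP
    have h3 : 0 ≤ sumF Gm (piLaw fun c => L (Fin.succ c)) * sumF Psi (L 0) :=
      mul_nonneg (sumF_nonneg hc.hG hrL) (hP 0)
    linarith

/-- The saving from the last two factors. -/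
theorem YY_pi_le2 {lam0 c0 c1 : ℝ} {Psi Gm Wm : (Fin 4 → ℝ) → ℝ}
    (hc : Cls lam0 c0 c1 Psi Gm Wm) {k : ℕ} {Ω : Fin (k + 2) → Type} [∀ c, Fintype (Ω c)]
    {L : ∀ c, Ω c → Fin 4 → ℝ} (h : ∀ c, IsLaw (L c)) (hout : ∀ c τ, ChanOut lam0 (L c τ))
    (hP : ∀ c, 0 ≤ sumF Psi (L c)) :
    sumF yy (piLaw L) ≤ ∑ c, sumF yy (L c)
      - sumF Gm (L ⟨k, by omega⟩) * sumF Psi (L ⟨k + 1, by omega⟩) := by
  induction k with
  | zero =>
    rw [piLaw_succ, sumF_comp_equiv, Fin.sum_univ_succ]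
    have hrL := IsLaw.pi (L := fun c => L (Fin.succ c)) (fun c => h _)
    have hrP := PP_pi_nonneg hc (L := fun c => L (Fin.succ c)) (fun c => h _) (fun c => hout _)
      (fun c => hP _)
    have h1 := YY_prod_le hc (h 0) hrL (hout 0)
    have h2 : 0 ≤ sumF Gm (piLaw fun c => L (Fin.succ c)) * sumF Psi (L 0) :=
      mul_nonneg (sumF_nonneg hc.hG hrL) (hP 0)
    have e1 := sumF_pi_one yy (fun c : Fin 1 => L (Fin.succ c))
    have e2 := sumF_pi_one Psi (fun c : Fin 1 => L (Fin.succ c))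
    rw [e1, e2] at h1
    rw [e1] at *
    simp only [Fin.sum_univ_one] at *
    exact le_trans h1 (by
      have e3 : (⟨0, by omega⟩ : Fin 2) = 0 := rfl
      have e4 : (⟨0 + 1, by omega⟩ : Fin 2) = Fin.succ 0 := rfl
      rw [e3, e4]
      linarith)
  | succ k ih =>
    rw [piLaw_succ, sumF_comp_equiv, Fin.sum_univ_succ]
    have hrL := IsLaw.pi (L := fun c => L (Fin.succ c)) (fun c => h _)
    have hr := ih (L := fun c => L (Fin.succ c)) (fun c => h _) (fun c => hout _) (fun c => hP _)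
    have hrP := PP_pi_nonneg hc (L := fun c => L (Fin.succ c)) (fun c => h _) (fun c => hout _)
      (fun c => hP _)
    have h1 := YY_prod_le hc (h 0) hrL (hout 0)
    have h2 : 0 ≤ sumF Gm (L 0) * sumF Psi (piLaw fun c => L (Fin.succ c)) :=
      mul_nonneg (sumF_nonneg hc.hG (h 0)) hrP
    have h3 : 0 ≤ sumF Gm (piLaw fun c => L (Fin.succ c)) * sumF Psi (L 0) :=
      mul_nonneg (sumF_nonneg hc.hG hrL) (hP 0)
    have e3 : (⟨k + 1, by omega⟩ : Fin (k + 1 + 2)) = Fin.succ ⟨k, by omega⟩ := rfl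
    have e4 : (⟨k + 1 + 1, by omega⟩ : Fin (k + 1 + 2)) = Fin.succ ⟨k + 1, by omega⟩ := rfl
    rw [e3, e4]
    linarith

/-- The channel acting on a law. -/
def chanLaw (lam : ℝ) (L : Ω → Fin 4 → ℝ) : Ω → Fin 4 → ℝ :=
  fun τ => chan lam (L τ)

theorem chan_pos {lam : ℝ} (h0 : 0 ≤ lam) (h1 : lam ≤ 1) {v : Fin 4 → ℝ} (h : ∀ i, 0 < v i)
    (i : Fin 4) : 0 < chan lam v i := by
  unfold chan
  have hm := mass_pos h
  have a := h i
  rcases eq_or_lt_of_le h0 with h00 | h00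
  · rw [← h00]; simpa using hm
  · have : 0 < lam * v i := by positivity
    have : 0 ≤ (1 - lam) * mass v := mul_nonneg (by linarith) hm.le
    linarith

theorem mass_perm (g : Equiv.Perm (Fin 4)) (v : Fin 4 → ℝ) : mass (fun i => v (g i)) = mass v := by
  unfold mass
  rw [Equiv.sum_comp g v]

theorem IsLaw.chan {L : Ω → Fin 4 → ℝ} (h : IsLaw L) {lam : ℝ} (h0 : 0 ≤ lam) (h1 : lam ≤ 1) :
    IsLaw (chanLaw lam L) where
  pos := fun τ i => chan_pos h0 h1 (h.pos τ) i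
  norm := fun i => by
    unfold chanLaw Q4.chan
    rw [Finset.sum_add_distrib, ← Finset.mul_sum, ← Finset.mul_sum, h.norm, sum_mass h]
    ring
  symm := fun g => by
    obtain ⟨e, he⟩ := h.symm g
    refine ⟨e, fun τ i => ?_⟩
    unfold chanLaw Q4.chan
    have hs : mass (L (e τ)) = mass (L τ) := by
      have : L (e τ) = fun i => L τ (g i) := by
        funext i
        exact he τ i
      rw [this, mass_perm]
    rw [hs, he]

theorem chanOut_chan {lam lam0 : ℝ} (h0 : 0 ≤ lam) (h1 : lam ≤ lam0) {v : Fin 4 → ℝ}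
    (h : ∀ i, 0 ≤ v i) : ChanOut lam0 (Q4.chan lam v) := by
  intro i
  rw [mass_chan]
  unfold Q4.chan
  have hm : 0 ≤ mass v := by
    unfold mass
    exact div_nonneg (Finset.sum_nonneg fun i _ => h i) (by norm_num)
  have a := h i
  have : 0 ≤ lam * v i := mul_nonneg h0 a
  nlinarith

theorem xx_nrm_chan (lam : ℝ) {v : Fin 4 → ℝ} (h : ∀ i, 0 < v i) :
    xx (nrm (Q4.chan lam v)) = lam ^ 2 * xx (nrm v) := by
  have hm := mass_pos h
  unfold xx mom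
  have e : ∀ i, (nrm (Q4.chan lam v) i - 1) ^ 2 = lam ^ 2 * (nrm v i - 1) ^ 2 := by
    intro i
    have : nrm (Q4.chan lam v) i = lam * nrm v i + (1 - lam) := by
      have e1 : nrm v i = v i / mass v := rfl
      rw [e1]
      show Q4.chan lam v i / mass (Q4.chan lam v) = _
      rw [mass_chan]
      unfold Q4.chan
      field_simp
    rw [this]
    ring
  simp only [e]
  rw [← Finset.mul_sum]
  ring

theorem yy_chan (lam : ℝ) {v : Fin 4 → ℝ} (h : ∀ i, 0 < v i) :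
    yy (Q4.chan lam v) = lam ^ 2 * yy v := by
  unfold yy
  rw [mass_chan, xx_nrm_chan lam h]
  ring

theorem YY_chan {L : Ω → Fin 4 → ℝ} (h : IsLaw L) (lam : ℝ) :
    sumF yy (chanLaw lam L) = lam ^ 2 * sumF yy L := by
  unfold sumF chanLaw
  rw [Finset.mul_sum]
  exact Finset.sum_congr rfl fun τ _ => yy_chan lam (h.pos τ)

/-- The sum of `mass * x` is three times the second moment functional. -/
theorem sum_mass_xx (L : Ω → Fin 4 → ℝ) : ∑ τ, mass (L τ) * xx (nrm (L τ)) = 3 * sumF yy L := by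
  unfold sumF yy
  rw [Finset.mul_sum]
  exact Finset.sum_congr rfl fun τ _ => by ring

/-- The class functional under the channel. -/
theorem PP_chan {lam0 c0 c1 : ℝ} {Psi Gm Wm : (Fin 4 → ℝ) → ℝ}
    (hc : Cls lam0 c0 c1 Psi Gm Wm) (hc1 : 0 ≤ c1) {L : Ω → Fin 4 → ℝ} (h : IsLaw L) {lam : ℝ}
    (h0 : 0 ≤ lam) (h1 : lam ≤ lam0) (h2 : lam ≤ 1) :
    lam ^ 3 * sumF Psi L + 9 * c1 * lam ^ 3 * (1 - lam) * (sumF yy L) ^ 2
      ≤ sumF Psi (chanLaw lam L) := by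
  have hC : (3 * sumF yy L) ^ 2 ≤ ∑ τ, mass (L τ) * xx (nrm (L τ)) ^ 2 := by
    have := Finset.sum_sq_le_sum_mul_sum_of_sq_le_mul (Finset.univ : Finset Ω)
      (r := fun τ => mass (L τ) * xx (nrm (L τ)))
      (f := fun τ => mass (L τ))
      (g := fun τ => mass (L τ) * xx (nrm (L τ)) ^ 2)
      (fun τ _ => (mass_pos (h.pos τ)).le)
      (fun τ _ => by
        have := mass_pos (h.pos τ)
        positivity)
      (fun τ _ => le_of_eq (by ring))
    rw [sum_mass h, one_mul, sum_mass_xx] at this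
    exact this
  have hp : ∀ τ, lam ^ 3 * Psi (L τ) + c1 * lam ^ 3 * (1 - lam) * (mass (L τ) * xx (nrm (L τ)) ^ 2)
      ≤ Psi (chanLaw lam L τ) := fun τ => hc.hT lam (L τ) h0 h1 (h.pos τ)
  have hsum := Finset.sum_le_sum fun τ (_ : τ ∈ (Finset.univ : Finset Ω)) => hp τ
  rw [Finset.sum_add_distrib, ← Finset.mul_sum, ← Finset.mul_sum] at hsum
  have hc' : 0 ≤ c1 * lam ^ 3 * (1 - lam) := by
    have : 0 ≤ 1 - lam := by linarith
    positivity
  have := mul_le_mul_of_nonneg_left hC hc'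
  unfold sumF at *
  nlinarith

/-- The multiplier on a channel output law. -/
theorem GG_ge {lam0 c0 c1 : ℝ} {Psi Gm Wm : (Fin 4 → ℝ) → ℝ}
    (hc : Cls lam0 c0 c1 Psi Gm Wm) {L : Ω → Fin 4 → ℝ} (h : IsLaw L)
    (hout : ∀ τ, ChanOut lam0 (L τ)) : 3 * c0 * sumF yy L ≤ sumF Gm L := by
  have hsum := Finset.sum_le_sum fun τ (_ : τ ∈ (Finset.univ : Finset Ω)) =>
    hc.hGl (L τ) (h.pos τ) (hout τ)
  rw [← Finset.mul_sum, sum_mass_xx] at hsum
  unfold sumF at *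
  linarith

end

end Vale.Agent.P154.Q4
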