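import Mathlib

/-!
A small reflective library for polynomials in six real variables with integer coefficients, used
to check long polynomial identities by kernel computation.
-/

namespace Vale.Agent.P154.Q4

/-- A point of six real variables. -/
structure Pt where
  x0 : ℝ
  x1 : ℝ
  x2 : ℝ
  x3 : ℝ
  x4 : ℝ
  x5 : ℝ

/-- A monomial, as its six exponents. -/
structure Mono where
  e0 : Nat
  e1 : Nat
  e2 : Nat
  e3 : Nat
  e4 : Nat
  e5 : Nat

namespace Mono

/-- Product of two monomials. -/
@[inline] def mul (m n : Mono) : Mono :=
  ⟨m.e0 + n.e0, m.e1 + n.e1, m.e2 + n.e2, m.e3 + n.e3, m.e4 + n.e4, m.e5 + n.e5⟩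

/-- One step of the lexicographic comparison. -/
def cmpN (a b : Nat) (k : Ordering) : Ordering :=
  bif Nat.blt a b then .lt else bif Nat.blt b a then .gt else k

theorem cmpN_eq {a b : Nat} {k : Ordering} (h : cmpN a b k = .eq) : a = b ∧ k = .eq := by
  unfold cmpN at h
  cases h1 : Nat.blt a b with
  | true => rw [h1] at h; exact Ordering.noConfusion h
  | false =>
    cases h2 : Nat.blt b a with
    | true => rw [h1, h2] at h; exact Ordering.noConfusion h
    | false =>
      rw [h1, h2] at h
      refine ⟨?_, h⟩
      have h1' : ¬ a < b := by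
        intro hlt
        have : Nat.blt a b = true := by simpa [Nat.blt_eq] using hlt
        rw [h1] at this
        exact Bool.noConfusion this
      have h2' : ¬ b < a := by
        intro hlt
        have : Nat.blt b a = true := by simpa [Nat.blt_eq] using hlt
        rw [h2] at this
        exact Bool.noConfusion this
      omega

/-- Lexicographic comparison. -/
def cmp (m n : Mono) : Ordering :=
  cmpN m.e0 n.e0 (cmpN m.e1 n.e1 (cmpN m.e2 n.e2 (cmpN m.e3 n.e3 (cmpN m.e4 n.e4
    (cmpN m.e5 n.e5 .eq)))))

/-- Value of a monomial at a point. -/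
noncomputable def eval (m : Mono) (p : Pt) : ℝ :=
  p.x0 ^ m.e0 * p.x1 ^ m.e1 * p.x2 ^ m.e2 * p.x3 ^ m.e3 * p.x4 ^ m.e4 * p.x5 ^ m.e5

theorem eval_mul (m n : Mono) (p : Pt) : (mul m n).eval p = m.eval p * n.eval p := by
  simp only [eval, mul, pow_add]
  ring

theorem cmp_eq {m n : Mono} (h : cmp m n = .eq) : m = n := by
  obtain ⟨a0, a1, a2, a3, a4, a5⟩ := m
  obtain ⟨b0, b1, b2, b3, b4, b5⟩ := n
  obtain ⟨h0, h⟩ := cmpN_eq h
  obtain ⟨h1, h⟩ := cmpN_eq h
  obtain ⟨h2, h⟩ := cmpN_eq h
  obtain ⟨h3, h⟩ := cmpN_eq h
  obtain ⟨h4, h⟩ := cmpN_eq h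
  obtain ⟨h5, _⟩ := cmpN_eq h
  simp only at h0 h1 h2 h3 h4 h5
  subst h0 h1 h2 h3 h4 h5
  rfl

end Mono

/-- A polynomial as a list of monomials with integer coefficients. -/
abbrev Poly := List (Mono × Int)

/-- Whether an integer vanishes. -/
def isZeroI : Int → Bool
  | .ofNat 0 => true
  | _ => false

theorem isZeroI_eq {z : Int} (h : isZeroI z = true) : z = 0 := by
  cases z with
  | ofNat n =>
    cases n with
    | zero => rfl
    | succ n => exact Bool.noConfusion h
  | negSucc n => exact Bool.noConfusion h

namespace Poly

/-- Value of a polynomial at a point. -/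
noncomputable def eval : Poly → Pt → ℝ
  | [], _ => 0
  | t :: l, p => (t.2 : ℝ) * t.1.eval p + eval l p

@[simp] theorem eval_nil (p : Pt) : eval [] p = 0 := rfl

@[simp] theorem eval_cons (t : Mono × Int) (l : Poly) (p : Pt) :
    eval (t :: l) p = (t.2 : ℝ) * t.1.eval p + eval l p := rfl

/-- Inserting one term, with a continuation for the tail of the first summand. -/
def addAux (m : Mono) (c : Int) (k : Poly → Poly) : Poly → Poly
  | [] => (m, c) :: k []
  | (n, d) :: q =>
    match Mono.cmp m n with
    | .lt => (m, c) :: k ((n, d) :: q)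
    | .eq => bif isZeroI (c + d) then k q else (m, c + d) :: k q
    | .gt => (n, d) :: addAux m c k q

/-- Sum of two polynomials, by merging. -/
def add : Poly → Poly → Poly
  | [], q => q
  | (m, c) :: p, q => addAux m c (add p) q

theorem eval_addAux (m : Mono) (c : Int) (k : Poly → Poly) (a : ℝ) (p : Pt)
    (hk : ∀ q, eval (k q) p = a + eval q p) (q : Poly) :
    eval (addAux m c k q) p = (c : ℝ) * m.eval p + a + eval q p := by
  induction q with
  | nil => simp [addAux, hk]
  | cons t q ih =>
    obtain ⟨n, d⟩ := t
    simp only [addAux]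
    cases hc : Mono.cmp m n with
    | lt => simp only [eval_cons, hk]; ring
    | gt => simp only [eval_cons, ih]; ring
    | eq =>
      have hmn := Mono.cmp_eq hc
      subst hmn
      cases hz : isZeroI (c + d) with
      | true =>
        have h0 : ((c : ℝ) + d) = 0 := by exact_mod_cast isZeroI_eq hz
        simp only [cond_true, hk, eval_cons]
        have : (c : ℝ) = -d := by linarith
        rw [this]; ring
      | false =>
        simp only [cond_false, eval_cons, hk]
        push_cast
        ring

@[simp] theorem eval_add (P Q : Poly) (p : Pt) : eval (add P Q) p = eval P p + eval Q p := by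
  induction P generalizing Q with
  | nil => simp [add]
  | cons t P ih =>
    obtain ⟨m, c⟩ := t
    simp only [add, eval_cons]
    rw [eval_addAux m c (add P) (eval P p) p (fun q => ih q) Q]

/-- The product of a polynomial with a single term. -/
def mulTerm (m : Mono) (c : Int) : Poly → Poly
  | [] => []
  | (n, d) :: q => (Mono.mul m n, c * d) :: mulTerm m c q

@[simp] theorem eval_mulTerm (m : Mono) (c : Int) (Q : Poly) (p : Pt) :
    eval (mulTerm m c Q) p = (c : ℝ) * m.eval p * eval Q p := by
  induction Q with
  | nil => simp [mulTerm]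
  | cons t Q ih =>
    obtain ⟨n, d⟩ := t
    simp only [mulTerm, eval_cons, ih, Mono.eval_mul]
    push_cast
    ring

/-- Product of two polynomials. -/
def mul : Poly → Poly → Poly
  | [], _ => []
  | (m, c) :: P, Q => add (mulTerm m c Q) (mul P Q)

@[simp] theorem eval_mul (P Q : Poly) (p : Pt) : eval (mul P Q) p = eval P p * eval Q p := by
  induction P with
  | nil => simp [mul]
  | cons t P ih =>
    obtain ⟨m, c⟩ := t
    simp only [mul, eval_add, eval_mulTerm, ih, eval_cons]
    ring

/-- Scalar multiple. -/
def smul (c : Int) (P : Poly) : Poly := P.map fun t => (t.1, c * t.2)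

@[simp] theorem eval_smul (c : Int) (P : Poly) (p : Pt) : eval (smul c P) p = (c : ℝ) * eval P p := by
  induction P with
  | nil => simp [smul]
  | cons t P ih =>
    have : smul c (t :: P) = (t.1, c * t.2) :: smul c P := rfl
    rw [this, eval_cons, ih, eval_cons]
    push_cast
    ring

/-- One round of pairwise addition. -/
def pairUp : List Poly → List Poly
  | [] => []
  | [a] => [a]
  | a :: b :: l => add a b :: pairUp l

/-- Sum of a list of polynomials by rounds of pairwise addition. -/
def sumAux : Nat → List Poly → Poly
  | _, [] => []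
  | _, [a] => a
  | 0, a :: l => l.foldr add a
  | n + 1, l => sumAux n (pairUp l)

/-- The real sum of the values of a list of polynomials. -/
noncomputable def evalList (l : List Poly) (p : Pt) : ℝ := (l.map fun P => eval P p).sum

theorem evalList_pairUp (l : List Poly) (p : Pt) : evalList (pairUp l) p = evalList l p := by
  induction l using pairUp.induct with
  | case1 => rfl
  | case2 a => rfl
  | case3 a b l ih =>
    simp only [pairUp, evalList, List.map_cons, List.sum_cons, eval_add] at ih ⊢
    rw [ih]
    ring

theorem eval_foldr (l : List Poly) (a : Poly) (p : Pt) :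
    eval (l.foldr add a) p = evalList l p + eval a p := by
  induction l with
  | nil => simp [evalList]
  | cons b l ih =>
    simp only [List.foldr_cons, eval_add, ih, evalList, List.map_cons, List.sum_cons]
    ring

theorem eval_sumAux (n : Nat) (l : List Poly) (p : Pt) : eval (sumAux n l) p = evalList l p := by
  induction n generalizing l with
  | zero =>
    match l with
    | [] => simp [sumAux, evalList]
    | [a] => simp [sumAux, evalList]
    | a :: b :: l =>
      have : sumAux 0 (a :: b :: l) = (b :: l).foldr add a := rfl
      rw [this, eval_foldr]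
      simp only [evalList, List.map_cons, List.sum_cons]
      ring
  | succ n ih =>
    match l with
    | [] => simp [sumAux, evalList]
    | [a] => simp [sumAux, evalList]
    | a :: b :: l =>
      have : sumAux (n + 1) (a :: b :: l) = sumAux n (pairUp (a :: b :: l)) := rfl
      rw [this, ih, evalList_pairUp]

/-- Sum of a list of polynomials. -/
def sum (l : List Poly) : Poly := sumAux 24 l

@[simp] theorem eval_sum (l : List Poly) (p : Pt) : eval (sum l) p = evalList l p :=
  eval_sumAux 24 l p

/-- Whether a polynomial has only zero coefficients. -/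
def isZero (P : Poly) : Bool := P.all fun t => isZeroI t.2

theorem eval_of_isZero {P : Poly} (h : isZero P = true) (p : Pt) : eval P p = 0 := by
  induction P with
  | nil => rfl
  | cons t P ih =>
    simp only [isZero, List.all_cons, Bool.and_eq_true] at h
    have h1 : t.2 = 0 := isZeroI_eq h.1
    have := ih h.2
    simp [h1, this]

end Poly

end Vale.Agent.P154.Q4
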