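import Vale.Agent.P154.GWMain
import Vale.Agent.P154.Q4.Law

/-!
The recursion on the `d`-ary tree for `q = 4`, for an abstract class.
-/

namespace Vale.Agent.P154.Q4

noncomputable section

open Finset Filter Topology

variable {d : ℕ} {lam : ℝ}

/-- The law of the leaf spins at depth `n`. -/
def Lk (d : ℕ) (lam : ℝ) (n : ℕ) : ((Fin n → Fin d) → Fin 4) → Fin 4 → ℝ :=
  fun τ i => leafLik 4 d lam n i τ

/-- The channel as a mixture. -/
theorem sum_channel (lam : ℝ) (f : Fin 4 → ℝ) (i : Fin 4) :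
    ∑ j : Fin 4, pottsChannel 4 lam i j * f j = chan lam f i := by
  unfold pottsChannel chan mass
  rw [Fin.sum_univ_four, Fin.sum_univ_four]
  fin_cases i <;> simp <;> ring

/-- Words of length `n + 1`, split by the first letter. -/
def splitEquiv (d n : ℕ) :
    ((Fin (n + 1) → Fin d) → Fin 4) ≃ (Fin d → ((Fin n → Fin d) → Fin 4)) where
  toFun τ := fun c path => τ (Fin.cons c path)
  invFun f := fun path => f (path 0) (Fin.tail path)
  left_inv τ := by
    funext path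
    simp
  right_inv f := by
    funext c path
    simp

/-- The recursion for the law of the leaf spins. -/
theorem Lk_succ (d : ℕ) (lam : ℝ) (n : ℕ) :
    Lk d lam (n + 1) = fun τ i =>
      piLaw (fun _ : Fin d => chanLaw lam (Lk d lam n)) (splitEquiv d n τ) i := by
  funext τ i
  unfold Lk piLaw chanLaw
  simp only [leafLik, splitEquiv, Equiv.coe_fn_mk]
  refine Finset.prod_congr rfl fun c _ => ?_
  exact sum_channel lam (fun j => leafLik 4 d lam n j (fun path => τ (Fin.cons c path))) i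

/-- The atoms at the first level. -/
def firstLaw (lam : ℝ) : Fin 4 → Fin 4 → ℝ :=
  fun j => chan lam (fun i => if j = i then 1 else 0)

theorem firstLaw_apply (lam : ℝ) (j i : Fin 4) :
    firstLaw lam j i = lam * (if j = i then 1 else 0) + (1 - lam) * (1 / 4) := by
  unfold firstLaw chan
  have : mass (fun i => if j = i then (1 : ℝ) else 0) = 1 / 4 := by
    unfold mass
    simp
  rw [this]

theorem firstLaw_isLaw (h0 : 0 ≤ lam) (h1 : lam < 1) : IsLaw (firstLaw lam) where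
  pos := fun j i => by
    rw [firstLaw_apply]
    split_ifs <;> nlinarith
  norm := fun i => by
    simp only [firstLaw_apply]
    rw [Finset.sum_add_distrib, ← Finset.mul_sum]
    simp
    ring
  symm := fun g => by
    refine ⟨g.symm, fun j i => ?_⟩
    simp only [firstLaw_apply, Equiv.symm_apply_eq]

/-- Spin configurations on a single leaf. -/
def zeroEquiv (d : ℕ) : ((Fin 0 → Fin d) → Fin 4) ≃ Fin 4 where
  toFun τ := τ Fin.elim0
  invFun i := fun _ => i
  left_inv τ := by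
    funext path
    have : (Fin.elim0 : Fin 0 → Fin d) = path := Subsingleton.elim _ _
    show τ Fin.elim0 = τ path
    rw [this]
  right_inv i := rfl

theorem chan_zero (d : ℕ) (lam : ℝ) :
    chanLaw lam (Lk d lam 0) = fun τ i => firstLaw lam (zeroEquiv d τ) i := by
  funext τ i
  rfl

section class_

variable {lam0 c0 c1 : ℝ} {Psi Gm Wm : (Fin 4 → ℝ) → ℝ}

theorem firstLaw_out (h0 : 0 ≤ lam) (h1 : lam ≤ lam0) (j : Fin 4) :
    ChanOut lam0 (firstLaw lam j) :=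
  chanOut_chan h0 h1 (fun i => by split_ifs <;> norm_num)

theorem firstLaw_PP (hc : Cls lam0 c0 c1 Psi Gm Wm) (h0 : 0 ≤ lam) (h1 : lam ≤ lam0) :
    0 ≤ sumF Psi (firstLaw lam) :=
  Finset.sum_nonneg fun j _ => hc.hStart lam j h0 h1

/-- The law after the channel is good at every level. -/
theorem mu_good (hc : Cls lam0 c0 c1 Psi Gm Wm) (hc1 : 0 ≤ c1) (hl : lam0 < 1)
    (h0 : 0 ≤ lam) (h1 : lam ≤ lam0) (n : ℕ) :
    IsLaw (chanLaw lam (Lk d lam n)) ∧ (∀ τ, ChanOut lam0 (chanLaw lam (Lk d lam n) τ))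
      ∧ 0 ≤ sumF Psi (chanLaw lam (Lk d lam n)) := by
  have h1' : lam < 1 := lt_of_le_of_lt h1 hl
  induction n with
  | zero =>
    rw [chan_zero]
    refine ⟨(firstLaw_isLaw h0 h1').comp_equiv (zeroEquiv d), fun τ => firstLaw_out h0 h1 _, ?_⟩
    rw [sumF_comp_equiv]
    exact firstLaw_PP hc h0 h1
  | succ n ih =>
    have hL : IsLaw (Lk d lam (n + 1)) := by
      rw [Lk_succ]
      exact (IsLaw.pi fun _ => ih.1).comp_equiv (splitEquiv d n)
    have hH : 0 ≤ sumF Psi (Lk d lam (n + 1)) := by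
      rw [Lk_succ, sumF_comp_equiv]
      exact PP_pi_nonneg hc (fun _ => ih.1) (fun _ => ih.2.1) (fun _ => ih.2.2)
    refine ⟨hL.chan h0 h1'.le, fun τ => chanOut_chan h0 h1 (fun i => (hL.pos τ i).le), ?_⟩
    have := PP_chan hc hc1 hL h0 h1 h1'.le
    have h2 : 0 ≤ lam ^ 3 * sumF Psi (Lk d lam (n + 1)) := by positivity
    have h3 : 0 ≤ 9 * c1 * lam ^ 3 * (1 - lam) * (sumF yy (Lk d lam (n + 1))) ^ 2 := by
      have : 0 ≤ 1 - lam := by linarith
      positivity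
    linarith

theorem Lk_good (hc : Cls lam0 c0 c1 Psi Gm Wm) (hc1 : 0 ≤ c1) (hl : lam0 < 1)
    (h0 : 0 ≤ lam) (h1 : lam ≤ lam0) (n : ℕ) :
    IsLaw (Lk d lam (n + 1)) ∧ 0 ≤ sumF Psi (Lk d lam (n + 1)) := by
  have hm := mu_good (d := d) hc hc1 hl h0 h1 n
  constructor
  · rw [Lk_succ]
    exact (IsLaw.pi fun _ => hm.1).comp_equiv (splitEquiv d n)
  · rw [Lk_succ, sumF_comp_equiv]
    exact PP_pi_nonneg hc (fun _ => hm.1) (fun _ => hm.2.1) (fun _ => hm.2.2)

/-- The one step recursion for the second moment functional. -/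
theorem y_step (hc : Cls lam0 c0 c1 Psi Gm Wm) (hc0 : 0 ≤ c0) (hc1 : 0 ≤ c1) (hl : lam0 < 1)
    (hd : 2 ≤ d) (h0 : 0 ≤ lam) (h1 : lam ≤ lam0) (hlam : (d : ℝ) * lam ^ 2 ≤ 1) (n : ℕ) :
    sumF yy (Lk d lam (n + 2)) ≤ sumF yy (Lk d lam (n + 1))
      - (27 * c0 * c1 * lam ^ 5 * (1 - lam)) * (sumF yy (Lk d lam (n + 1))) ^ 3 := by
  obtain ⟨k, rfl⟩ : ∃ k, d = k + 2 := ⟨d - 2, by omega⟩
  have h1' : lam < 1 := lt_of_le_of_lt h1 hl
  obtain ⟨hL, hLP⟩ := Lk_good (d := k + 2) hc hc1 hl h0 h1 n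
  obtain ⟨hμ, hout, hμP⟩ := mu_good (d := k + 2) hc hc1 hl h0 h1 (n + 1)
  have hy0 := YY_nonneg hL
  have hrec := YY_pi_le2 hc (L := fun _ : Fin (k + 2) => chanLaw lam (Lk (k + 2) lam (n + 1)))
    (fun _ => hμ) (fun _ => hout) (fun _ => hμP)
  have e0 : Lk (k + 2) lam (n + 1 + 1) = fun τ i =>
      piLaw (fun _ : Fin (k + 2) => chanLaw lam (Lk (k + 2) lam (n + 1)))
        (splitEquiv (k + 2) (n + 1) τ) i := Lk_succ (k + 2) lam (n + 1)
  have e1 : sumF yy (Lk (k + 2) lam (n + 2))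
      = sumF yy (piLaw (fun _ : Fin (k + 2) => chanLaw lam (Lk (k + 2) lam (n + 1)))) := by
    show sumF yy (Lk (k + 2) lam (n + 1 + 1)) = _
    rw [e0, sumF_comp_equiv]
  rw [e1]
  simp only [Finset.sum_const, Finset.card_univ, Fintype.card_fin, nsmul_eq_mul] at hrec
  rw [YY_chan hL] at hrec
  obtain ⟨y, hy⟩ : ∃ y, y = sumF yy (Lk (k + 2) lam (n + 1)) := ⟨_, rfl⟩
  rw [← hy] at hrec hy0 ⊢
  have hG := GG_ge hc hμ hout
  rw [YY_chan hL, ← hy] at hG
  have hP := PP_chan hc hc1 hL h0 h1 h1'.le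
  rw [← hy] at hP
  have hlam' : ((k + 2 : ℕ) : ℝ) * lam ^ 2 ≤ 1 := hlam
  have h4 : ((k + 2 : ℕ) : ℝ) * (lam ^ 2 * y) ≤ y := by
    have := mul_le_mul_of_nonneg_right hlam' hy0
    nlinarith
  have h2 : 0 ≤ lam ^ 3 * sumF Psi (Lk (k + 2) lam (n + 1)) := by positivity
  have h3 : 9 * c1 * lam ^ 3 * (1 - lam) * y ^ 2
      ≤ sumF Psi (chanLaw lam (Lk (k + 2) lam (n + 1))) := by linarith
  have h5 : 0 ≤ 3 * c0 * (lam ^ 2 * y) := by positivity
  have h6 : 0 ≤ 9 * c1 * lam ^ 3 * (1 - lam) * y ^ 2 := by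
    have : 0 ≤ 1 - lam := by linarith
    positivity
  have h7 := mul_le_mul hG h3 h6 (h5.trans hG)
  have e2 : (27 * c0 * c1 * lam ^ 5 * (1 - lam)) * y ^ 3
      = 3 * c0 * (lam ^ 2 * y) * (9 * c1 * lam ^ 3 * (1 - lam) * y ^ 2) := by ring
  rw [e2]
  linarith

/-- The functional at level `n + 1` goes to zero. -/
theorem y_tendsto (hc : Cls lam0 c0 c1 Psi Gm Wm) (hc0 : 0 < c0) (hc1 : 0 < c1) (hl : lam0 < 1)
    (hd : 2 ≤ d) (h0 : 0 ≤ lam) (h1 : lam ≤ lam0) (hlam : (d : ℝ) * lam ^ 2 ≤ 1) :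
    Tendsto (fun n => sumF yy (Lk d lam (n + 1))) atTop (𝓝 0) := by
  have h1' : lam < 1 := lt_of_le_of_lt h1 hl
  rcases eq_or_lt_of_le h0 with h00 | h00
  · -- the case `lam = 0`
    subst h00
    refine (tendsto_add_atTop_iff_nat 1).1 ?_
    refine tendsto_const_nhds.congr fun n => ?_
    have hm := mu_good (d := d) hc hc1.le hl le_rfl h1 (n + 1)
    have e0 : sumF yy (Lk d 0 (n + 1 + 1))
        = sumF yy (piLaw (fun _ : Fin d => chanLaw 0 (Lk d 0 (n + 1)))) := by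
      rw [Lk_succ d 0 (n + 1), sumF_comp_equiv]
    have h2 := YY_pi_le hc (L := fun _ : Fin d => chanLaw 0 (Lk d 0 (n + 1)))
      (fun _ => hm.1) (fun _ => hm.2.1) (fun _ => hm.2.2)
    have hL := (Lk_good (d := d) hc hc1.le hl le_rfl h1 n).1
    simp only [YY_chan hL] at h2
    have h3 := YY_nonneg (IsLaw.pi (L := fun _ : Fin d => chanLaw 0 (Lk d 0 (n + 1)))
      (fun _ => hm.1))
    have h4 : sumF yy (Lk d 0 (n + 1 + 1)) = 0 := by
      rw [e0]
      refine le_antisymm (h2.trans (le_of_eq ?_)) h3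
      simp
    exact h4.symm
  · refine tendsto_zero_of_cubic (c := 27 * c0 * c1 * lam ^ 5 * (1 - lam)) ?_
      (fun n => YY_nonneg (Lk_good hc hc1.le hl h0 h1 n).1)
      (fun n => y_step hc hc0.le hc1.le hl hd h0 h1 hlam n)
    have : 0 < 1 - lam := by linarith
    positivity

end class_

/-- The statistical quantity of one likelihood vector. -/
theorem term_eq {s : ℝ} (hs : 0 < s) (x : Fin 4 → ℝ) :
    s * ((1 / 2) * ∑ i : Fin 4, |(1 / ((4 : ℕ) : ℝ)) * x i / s - 1 / ((4 : ℕ) : ℝ)|)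
      = (1 / 8) * ∑ i, |x i - s| := by
  have key : ∀ y : ℝ, s * |(1 / ((4 : ℕ) : ℝ)) * y / s - 1 / ((4 : ℕ) : ℝ)| = (1 / 4) * |y - s| := by
    intro y
    have e : (1 / ((4 : ℕ) : ℝ)) * y / s - 1 / ((4 : ℕ) : ℝ) = (y - s) * (1 / (4 * s)) := by
      push_cast
      field_simp
    rw [e, abs_mul, abs_of_pos (by positivity : 0 < 1 / (4 * s))]
    field_simp
  have e2 : s * ((1 / 2) * ∑ i : Fin 4, |(1 / ((4 : ℕ) : ℝ)) * x i / s - 1 / ((4 : ℕ) : ℝ)|)
      = (1 / 2) * ∑ i : Fin 4, s * |(1 / ((4 : ℕ) : ℝ)) * x i / s - 1 / ((4 : ℕ) : ℝ)| := by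
    rw [Finset.mul_sum, Finset.mul_sum, Finset.mul_sum]
    exact Finset.sum_congr rfl fun i _ => by ring
  rw [e2]
  simp only [key]
  rw [← Finset.mul_sum]
  ring

theorem mass_eq_leafProb (x : Fin 4 → ℝ) : ∑ i : Fin 4, (1 / ((4 : ℕ) : ℝ)) * x i = mass x := by
  unfold mass
  rw [← Finset.mul_sum]
  push_cast
  ring

/-- The statistical quantity in terms of the law. -/
theorem reconA_eq (d : ℕ) (lam : ℝ) (n : ℕ) (hL : ∀ τ i, 0 < Lk d lam (n + 1) τ i) :
    reconA 4 d lam (n + 1) = ∑ τ, (1 / 8) *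
      ∑ i, |Lk d lam (n + 1) τ i - mass (Lk d lam (n + 1) τ)| := by
  unfold reconA
  refine Finset.sum_congr rfl fun τ _ => ?_
  have hs : leafProb 4 d lam (n + 1) τ = mass (Lk d lam (n + 1) τ) := by
    unfold leafProb
    exact mass_eq_leafProb _
  rw [hs]
  exact term_eq (mass_pos (hL τ)) _

/-- The total variation of one vector in terms of `yy`. -/
theorem dist_le_yy {v : Fin 4 → ℝ} (h : ∀ i, 0 < v i) :
    ((1 / 8) * ∑ i, |v i - mass v|) ^ 2 ≤ mass v * ((3 / 4) * yy v) := by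
  have hm := mass_pos h
  have h1 : (∑ i, |v i - mass v|) ^ 2 ≤ 4 * ∑ i, (v i - mass v) ^ 2 := by
    have := sq_sum_le_card_mul_sum_sq (s := (Finset.univ : Finset (Fin 4)))
      (f := fun i => |v i - mass v|)
    simpa using this
  have h2 : mass v * ((3 / 4) * yy v) = (1 / 16) * ∑ i, (v i - mass v) ^ 2 := by
    unfold yy xx mom
    have : ∀ i, (nrm v i - 1) ^ 2 = (v i - mass v) ^ 2 / (mass v) ^ 2 := by
      intro i
      have e : nrm v i = v i / mass v := rfl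
      rw [e]
      field_simp
    simp only [this]
    rw [← Finset.sum_div]
    field_simp
    ring
  rw [h2]
  nlinarith

/-- Bound of the statistical quantity. -/
theorem sq_sum_le {Ω : Type*} [Fintype Ω] {L : Ω → Fin 4 → ℝ} (h : IsLaw L) :
    (∑ τ, (1 / 8) * ∑ i, |L τ i - mass (L τ)|) ^ 2 ≤ (3 / 4) * sumF yy L := by
  have := Finset.sum_sq_le_sum_mul_sum_of_sq_le_mul (Finset.univ : Finset Ω)
    (r := fun τ => (1 / 8) * ∑ i, |L τ i - mass (L τ)|)
    (f := fun τ => mass (L τ))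
    (g := fun τ => (3 / 4) * yy (L τ))
    (fun τ _ => (mass_pos (h.pos τ)).le)
    (fun τ _ => by
      have := yy_nonneg (h.pos τ)
      positivity)
    (fun τ _ => dist_le_yy (h.pos τ))
  rw [sum_mass h, one_mul] at this
  refine this.trans (le_of_eq ?_)
  unfold sumF
  rw [Finset.mul_sum]

/-- Nonreconstruction on the `d`-ary tree, for an abstract class. -/
theorem reconA_tendsto_zero {lam0 c0 c1 : ℝ} {Psi Gm Wm : (Fin 4 → ℝ) → ℝ}
    (hc : Cls lam0 c0 c1 Psi Gm Wm) (hc0 : 0 < c0) (hc1 : 0 < c1) (hl : lam0 < 1)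
    (hd : 2 ≤ d) (h0 : 0 ≤ lam) (h1 : lam ≤ lam0) (hlam : (d : ℝ) * lam ^ 2 ≤ 1) :
    Tendsto (reconA 4 d lam) atTop (𝓝 0) := by
  refine (tendsto_add_atTop_iff_nat 1).1 ?_
  have hy := y_tendsto hc hc0 hc1 hl hd h0 h1 hlam
  have hsq : Tendsto (fun n => Real.sqrt ((3 / 4) * sumF yy (Lk d lam (n + 1)))) atTop (𝓝 0) := by
    have := (Real.continuous_sqrt.tendsto ((3 / 4) * 0)).comp (hy.const_mul (3 / 4))
    have e : Real.sqrt ((3 / 4) * 0) = 0 := by simp
    rw [e] at this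
    exact this
  have hgood := fun n => (Lk_good (d := d) hc hc1.le hl h0 h1 n).1
  refine squeeze_zero (fun n => ?_) (fun n => ?_) hsq
  · rw [reconA_eq d lam n (hgood n).pos]
    refine Finset.sum_nonneg fun τ _ => ?_
    positivity
  · rw [reconA_eq d lam n (hgood n).pos]
    exact Real.le_sqrt_of_sq_le (sq_sum_le (hgood n))

end

end Vale.Agent.P154.Q4
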